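import Mathlib
import Crest.Prelude.Def_MultiMarginal

/-!
Helper module for S0175 (helper31): smooth square-root densities are preserved by local
diffeomorphisms.
-/

set_option autoImplicit false
open MeasureTheory Filter Topology Set
open scoped ENNReal ContDiff
open Crest.AnalysisR.OT

namespace Crest.Agent.S0175Aux

section Det

variable {E : Type*} [NormedAddCommGroup E] [NormedSpace ℝ E] [FiniteDimensional ℝ E]

lemma contDiff_clm_det {n : WithTop ℕ∞} : ContDiff ℝ n (fun A : E →L[ℝ] E => A.det) := by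
  classical
  let b := Module.finBasis ℝ E
  have h : (fun A : E →L[ℝ] E => A.det) = fun A : E →L[ℝ] E =>
      ∑ p : Equiv.Perm (Fin (Module.finrank ℝ E)), (Equiv.Perm.sign p : ℤ) •
        ∏ i, (b.repr (A (b i))) (p i) := by
    funext A
    rw [ContinuousLinearMap.det, ← LinearMap.det_toMatrix b, Matrix.det_apply]
    refine Finset.sum_congr rfl fun p _ => ?_
    congr 1
    refine Finset.prod_congr rfl fun i _ => ?_
    rw [LinearMap.toMatrix_apply]
    rfl
  rw [h]
  refine ContDiff.sum fun p _ => ?_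
  refine ContDiff.const_smul _ ?_
  refine contDiff_prod fun i _ => ?_
  let L : (E →L[ℝ] E) →ₗ[ℝ] ℝ :=
    { toFun := fun A => (b.repr (A (b i))) (p i)
      map_add' := fun A B => by simp
      map_smul' := fun c A => by simp }
  exact (LinearMap.toContinuousLinearMap L).contDiff

end Det

section Push

variable {E : Type*} [NormedAddCommGroup E] [NormedSpace ℝ E] [FiniteDimensional ℝ E]
  [MeasureSpace E] [BorelSpace E] [(volume : Measure E).IsAddHaarMeasure]

theorem exists_push (φ : E → E) (hφ : ContDiffAt ℝ ω φ 0) (φ' : E ≃L[ℝ] E)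
    (hφ' : HasFDerivAt φ (φ' : E →L[ℝ] E) 0) :
    ∃ r₀ > 0, InjOn φ (Metric.ball 0 r₀) ∧ ContinuousOn φ (Metric.ball 0 r₀) ∧
      ∀ η : E → ℝ, ContDiff ℝ ∞ η → (∀ x, 0 ≤ η x) → HasCompactSupport η →
        tsupport η ⊆ Metric.ball 0 r₀ →
        ∃ ζ : E → ℝ, ContDiff ℝ ∞ ζ ∧ (∀ x, 0 ≤ ζ x) ∧ HasCompactSupport ζ ∧
          Function.support ζ ⊆ φ '' (Function.support η) ∧
          ∀ ψ : E → E, Measurable ψ → (∀ x ∈ Function.support η, ψ x = φ x) →
            (measOfDensity (fun x => η x ^ 2)).map ψ = measOfDensity (fun x => ζ x ^ 2) := by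
  classical
  set Φ := hφ.toOpenPartialHomeomorph φ hφ' (by simp) with hΦ
  have hΦc : ∀ x, Φ x = φ x := fun x => rfl
  have h0s : (0 : E) ∈ Φ.source := hφ.mem_toOpenPartialHomeomorph_source hφ' (by simp)
  have h0t : φ 0 ∈ Φ.target := hφ.image_mem_toOpenPartialHomeomorph_target hφ' (by simp)
  have hsymm0 : Φ.symm (φ 0) = 0 := Φ.left_inv h0s
  have hsc : ContDiffAt ℝ ω Φ.symm (φ 0) := by
    refine Φ.contDiffAt_symm h0t (f₀' := φ') ?_ ?_
    · rw [hsymm0]; exact hφ'
    · rw [hsymm0]; exact hφ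
  have hsd : HasFDerivAt Φ.symm ((φ'.symm : E ≃L[ℝ] E) : E →L[ℝ] E) (φ 0) := by
    refine Φ.hasFDerivAt_symm h0t ?_
    rw [hsymm0]; exact hφ'
  have hdet0 : (fderiv ℝ Φ.symm (φ 0)).det ≠ 0 := by
    rw [hsd.fderiv]
    exact (LinearEquiv.isUnit_det' φ'.symm.toLinearEquiv).ne_zero
  have hev1 : ∀ᶠ y in 𝓝 (φ 0), ContDiffAt ℝ ω Φ.symm y := hsc.eventually (by simp)
  have hdc : ContinuousAt (fun y => (fderiv ℝ Φ.symm y).det) (φ 0) := by
    have h1 : ContinuousAt (fderiv ℝ Φ.symm) (φ 0) :=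
      (hsc.fderiv_right (m := 0) (by simp)).continuousAt
    exact (contDiff_clm_det (n := 0)).continuous.continuousAt.comp h1
  have hev2 : ∀ᶠ y in 𝓝 (φ 0), (fderiv ℝ Φ.symm y).det ≠ 0 := hdc.eventually_ne hdet0
  have hev3 : ∀ᶠ y in 𝓝 (φ 0), y ∈ Φ.target := Φ.open_target.mem_nhds h0t
  have hev4 : ∀ᶠ a in 𝓝 (0 : E), a ∈ Φ.source := Φ.open_source.mem_nhds h0s
  have hev := (hφ.continuousAt.eventually (hev1.and (hev2.and hev3))).and hev4
  obtain ⟨r₀, hr₀, hball⟩ := Metric.eventually_nhds_iff_ball.1 hev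
  have hsub : Metric.ball (0 : E) r₀ ⊆ Φ.source := fun x hx => (hball x hx).2
  have hinj : InjOn φ (Metric.ball 0 r₀) := Φ.injOn.mono hsub
  have hcont : ContinuousOn φ (Metric.ball 0 r₀) := Φ.continuousOn.mono hsub
  refine ⟨r₀, hr₀, hinj, hcont, ?_⟩
  intro η hη hη0 hηc hηs
  set W : Set E := φ '' Metric.ball 0 r₀ with hW
  have hWo : IsOpen W := Φ.isOpen_image_of_subset_source Metric.isOpen_ball hsub
  have hWt : W ⊆ Φ.target := by
    rintro _ ⟨x, hx, rfl⟩
    exact (hball x hx).1.2.2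
  have hWc : ∀ y ∈ W, ContDiffAt ℝ ω Φ.symm y := by
    rintro _ ⟨x, hx, rfl⟩
    exact (hball x hx).1.1
  have hWd : ∀ y ∈ W, (fderiv ℝ Φ.symm y).det ≠ 0 := by
    rintro _ ⟨x, hx, rfl⟩
    exact (hball x hx).1.2.1
  have hWb : ∀ y ∈ W, Φ.symm y ∈ Metric.ball (0 : E) r₀ := by
    rintro _ ⟨x, hx, rfl⟩
    have : Φ.symm (φ x) = x := Φ.left_inv (hsub hx)
    rw [this]; exact hx
  have hWr : ∀ y ∈ W, φ (Φ.symm y) = y := fun y hy => Φ.right_inv (hWt hy)
  let ζ : E → ℝ := fun y => if y ∈ W then η (Φ.symm y) * √|(fderiv ℝ Φ.symm y).det| else 0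
  have hζ0 : ∀ y, 0 ≤ ζ y := by
    intro y
    by_cases hy : y ∈ W
    · simp only [ζ, hy, if_true]
      exact mul_nonneg (hη0 _) (Real.sqrt_nonneg _)
    · simp only [ζ, hy, if_false]; exact le_rfl
  have hζsupp : Function.support ζ ⊆ φ '' (Function.support η) := by
    intro y hy
    by_cases hyW : y ∈ W
    · refine ⟨Φ.symm y, ?_, hWr y hyW⟩
      intro h0
      apply hy
      simp only [ζ, hyW, if_true, h0, zero_mul]
    · exact absurd (by simp only [ζ, hyW, if_false]) hy
  have hKcomp : IsCompact (φ '' tsupport η) := by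
    have : IsCompact (tsupport η) := hηc
    exact this.image_of_continuousOn (hcont.mono hηs)
  have hζsupp' : Function.support ζ ⊆ φ '' tsupport η :=
    hζsupp.trans (image_mono (subset_tsupport η))
  have hζc : HasCompactSupport ζ := by
    refine HasCompactSupport.intro hKcomp ?_
    intro x hx
    by_contra h
    exact hx (hζsupp' h)
  have hζsmooth : ContDiff ℝ ∞ ζ := by
    rw [contDiff_iff_contDiffAt]
    intro y
    by_cases hy : y ∈ W
    · have h1 : ContDiffAt ℝ ∞ (fun y => η (Φ.symm y) * √|(fderiv ℝ Φ.symm y).det|) y := by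
        have c1 : ContDiffAt ℝ ∞ Φ.symm y := (hWc y hy).of_le le_top
        have c2 : ContDiffAt ℝ ∞ (fun y => η (Φ.symm y)) y := hη.contDiffAt.comp y c1
        have c3 : ContDiffAt ℝ ω (fderiv ℝ Φ.symm) y := (hWc y hy).fderiv_right le_top
        have c4 : ContDiffAt ℝ ∞ (fun y => (fderiv ℝ Φ.symm y).det) y :=
          ((contDiff_clm_det (n := ω)).contDiffAt.comp y c3).of_le le_top
        exact c2.mul ((c4.abs (hWd y hy)).sqrt (abs_ne_zero.2 (hWd y hy)))
      refine h1.congr_of_eventuallyEq ?_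
      filter_upwards [hWo.mem_nhds hy] with z hz
      simp only [ζ, hz, if_true]
    · have hy' : y ∉ φ '' tsupport η := fun h => hy (image_mono hηs h)
      have hopen : IsOpen (φ '' tsupport η)ᶜ := hKcomp.isClosed.isOpen_compl
      refine (contDiffAt_const (c := (0 : ℝ))).congr_of_eventuallyEq ?_
      filter_upwards [hopen.mem_nhds hy'] with z hz
      by_contra h
      exact hz (hζsupp' h)
  refine ⟨ζ, hζsmooth, hζ0, hζc, hζsupp, ?_⟩
  suffices hsuff : ∀ ψ : E → E, Measurable ψ → (∀ x ∈ Metric.ball (0 : E) r₀, ψ x = φ x) →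
      (measOfDensity (fun x => η x ^ 2)).map ψ = measOfDensity (fun x => ζ x ^ 2) by
    intro ψ hψ hψφ
    let ψ₀ : E → E := (Metric.ball (0 : E) r₀).piecewise φ (fun _ => 0)
    have hψ₀ : Measurable ψ₀ :=
      hcont.measurable_piecewise continuousOn_const measurableSet_ball
    have hψ₀φ : ∀ x ∈ Metric.ball (0 : E) r₀, ψ₀ x = φ x := fun x hx =>
      piecewise_eq_of_mem _ _ _ hx
    rw [← hsuff ψ₀ hψ₀ hψ₀φ]
    refine Measure.map_congr ?_
    have hmeasη : Measurable fun x => ENNReal.ofReal (η x ^ 2) :=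
      (hη.continuous.pow 2).measurable.ennreal_ofReal
    rw [EventuallyEq, measOfDensity, ae_withDensity_iff hmeasη]
    refine Eventually.of_forall fun x hx => ?_
    have hxs : x ∈ Function.support η := by
      intro h0
      apply hx
      simp [h0]
    rw [hψφ x hxs, hψ₀φ x (hηs (subset_tsupport η hxs))]
  intro ψ hψ hψφ
  ext B hB
  unfold measOfDensity
  rw [Measure.map_apply hψ hB, withDensity_apply _ (hψ hB), withDensity_apply _ hB]
  -- reduce the left-hand side to the ball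
  have hmeasη : Measurable fun x => ENNReal.ofReal (η x ^ 2) :=
    (hη.continuous.pow 2).measurable.ennreal_ofReal
  have hL : ∫⁻ x in ψ ⁻¹' B, ENNReal.ofReal (η x ^ 2) =
      ∫⁻ x in Φ.symm '' (B ∩ W), ENNReal.ofReal (η x ^ 2) := by
    have hset : Φ.symm '' (B ∩ W) = ψ ⁻¹' B ∩ Metric.ball 0 r₀ := by
      ext x
      constructor
      · rintro ⟨y, ⟨hyB, hyW⟩, rfl⟩
        refine ⟨?_, hWb y hyW⟩
        rw [mem_preimage, hψφ _ (hWb y hyW), hWr y hyW]
        exact hyB
      · rintro ⟨hxB, hxb⟩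
        refine ⟨φ x, ⟨?_, mem_image_of_mem _ hxb⟩, Φ.left_inv (hsub hxb)⟩
        rw [mem_preimage, hψφ x hxb] at hxB
        exact hxB
    rw [hset, ← lintegral_indicator (hψ hB), ← lintegral_indicator ((hψ hB).inter
      measurableSet_ball)]
    refine lintegral_congr fun x => ?_
    by_cases hxB : x ∈ ψ ⁻¹' B
    · by_cases hxb : x ∈ Metric.ball (0 : E) r₀
      · rw [indicator_of_mem hxB, indicator_of_mem (mem_inter hxB hxb)]
      · have : η x = 0 := by
          by_contra h
          exact hxb (hηs (subset_tsupport η h))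
        rw [indicator_of_mem hxB, indicator_of_notMem (fun h => hxb h.2), this]
        simp
    · rw [indicator_of_notMem hxB, indicator_of_notMem (fun h => hxB h.1)]
  rw [hL, lintegral_image_eq_lintegral_abs_det_fderiv_mul volume (hB.inter hWo.measurableSet)
    (f' := fun y => fderiv ℝ Φ.symm y)
    (fun y hy => ((hWc y hy.2).differentiableAt (by simp)).hasFDerivAt.hasFDerivWithinAt)
    (Φ.symm.injOn.mono fun y hy => hWt hy.2)]
  rw [← lintegral_indicator (hB.inter hWo.measurableSet), ← lintegral_indicator hB]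
  refine lintegral_congr fun y => ?_
  by_cases hyB : y ∈ B
  · by_cases hyW : y ∈ W
    · rw [indicator_of_mem (mem_inter hyB hyW), indicator_of_mem hyB,
        ← ENNReal.ofReal_mul (abs_nonneg _)]
      congr 1
      simp only [ζ, hyW, if_true, mul_pow, Real.sq_sqrt (abs_nonneg _)]
      ring
    · rw [indicator_of_notMem (fun h => hyW h.2), indicator_of_mem hyB]
      simp [ζ, hyW]
  · rw [indicator_of_notMem (fun h => hyB h.1), indicator_of_notMem hyB]

end Push

end Crest.Agent.S0175Aux
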