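import Mathlib

/-!
Helper module for S0175 (helper31): the inverse-power potential `hh s x = ‖x‖ ^ (-s)` and its
gradient `gg s x = -s ‖x‖ ^ (-s-2) x`.
-/

set_option autoImplicit false
open MeasureTheory Filter Topology Set
open scoped ContDiff InnerProductSpace

namespace Crest.Agent.S0175Aux

variable {E : Type*} [NormedAddCommGroup E] [InnerProductSpace ℝ E]

/-- the pair potential -/
noncomputable def hh (s : ℝ) (x : E) : ℝ := ‖x‖ ^ (-s)

/-- its gradient -/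
noncomputable def gg (s : ℝ) (x : E) : E := (-s * ‖x‖ ^ (-s - 2)) • x

/-- the Hessian of the pair potential -/
noncomputable def Hess (s : ℝ) (x : E) : E →L[ℝ] E :=
  (-s * ‖x‖ ^ (-s - 2)) • ContinuousLinearMap.id ℝ E +
    (s * (s + 2) * ‖x‖ ^ (-s - 4)) • (innerSL ℝ x).smulRight x

lemma gg_neg (s : ℝ) (x : E) : gg s (-x) = - gg s x := by
  simp [gg]

omit [InnerProductSpace ℝ E] in
lemma hh_neg (s : ℝ) (x : E) : hh s (-x) = hh s x := by
  simp [hh]

omit [InnerProductSpace ℝ E] in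
lemma hh_sub_comm (s : ℝ) (x y : E) : hh s (x - y) = hh s (y - x) := by
  rw [← hh_neg, neg_sub]

lemma hh_contDiffAt {s : ℝ} {x : E} (hx : x ≠ 0) {n : WithTop ℕ∞} :
    ContDiffAt ℝ n (hh s : E → ℝ) x := by
  unfold hh
  exact (contDiffAt_norm ℝ hx).rpow_const_of_ne (norm_ne_zero_iff.2 hx)

lemma gg_contDiffAt {s : ℝ} {x : E} (hx : x ≠ 0) {n : WithTop ℕ∞} :
    ContDiffAt ℝ n (gg s : E → E) x := by
  unfold gg
  exact (contDiffAt_const.mul ((contDiffAt_norm ℝ hx).rpow_const_of_ne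
    (norm_ne_zero_iff.2 hx))).smul contDiffAt_id

lemma hasFDerivAt_norm_rpow {x : E} (hx : x ≠ 0) (p : ℝ) :
    HasFDerivAt (fun x : E => ‖x‖ ^ p) ((p * ‖x‖ ^ (p - 2)) • innerSL ℝ x) x := by
  have h1 : HasFDerivAt (fun x : E => ‖x‖ ^ 2) (2 • innerSL ℝ x) x :=
    (hasStrictFDerivAt_norm_sq x).hasFDerivAt
  have h2 := h1.rpow_const (p := p / 2) (Or.inl (by positivity))
  have e1 : (fun x : E => (‖x‖ ^ 2) ^ (p / 2)) = fun x : E => ‖x‖ ^ p := by
    funext y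
    rw [← Real.rpow_natCast, ← Real.rpow_mul (norm_nonneg y)]
    congr 1
    push_cast
    ring
  rw [e1] at h2
  convert h2 using 1
  have e2 : (‖x‖ ^ 2) ^ (p / 2 - 1) = ‖x‖ ^ (p - 2) := by
    rw [← Real.rpow_natCast, ← Real.rpow_mul (norm_nonneg x)]
    congr 1
    push_cast
    ring
  rw [e2]
  ext v
  simp
  ring

lemma hasFDerivAt_hh {s : ℝ} {x : E} (hx : x ≠ 0) :
    HasFDerivAt (hh s : E → ℝ) (innerSL ℝ (gg s x)) x := by
  have h := hasFDerivAt_norm_rpow hx (-s)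
  unfold hh
  convert h using 1
  ext v
  simp [gg]

lemma hasFDerivAt_gg {s : ℝ} {x : E} (hx : x ≠ 0) :
    HasFDerivAt (gg s : E → E) (Hess s x) x := by
  have h := (hasFDerivAt_norm_rpow hx (-s - 2)).const_mul (-s)
  have h2 := h.smul (hasFDerivAt_id x)
  have e : (-s - 2 - 2 : ℝ) = -s - 4 := by ring
  rw [e] at h2
  have h3 : HasFDerivAt (gg s : E → E) ((-s * ‖x‖ ^ (-s - 2)) • ContinuousLinearMap.id ℝ E +
      (-s • ((-s - 2) * ‖x‖ ^ (-s - 4)) • (innerSL ℝ) x).smulRight (id x)) x := h2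
  convert h3 using 1
  ext v
  simp [Hess, smul_smul]
  rw [← neg_smul]
  congr 1
  ring

lemma hess_unit {s : ℝ} {e : E} (he : ‖e‖ = 1) (v : E) :
    Hess s e v = (-s) • v + (s * (s + 2) * ⟪e, v⟫_ℝ) • e := by
  simp [Hess, he, smul_smul]

lemma hess_neg (s : ℝ) (x : E) : Hess s (-x) = Hess s x := by
  ext v
  simp [Hess]

lemma hess_two {s : ℝ} {e : E} (he : ‖e‖ = 1) (v : E) :
    Hess s ((2 : ℝ) • e) v = ((2 : ℝ) ^ (-s - 2)) • Hess s e v := by
  have h2 : ‖(2 : ℝ) • e‖ = 2 := by rw [norm_smul, he]; norm_num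
  have h3 : (2 : ℝ) ^ (-s - 4) * 4 = (2 : ℝ) ^ (-s - 2) := by
    have : (4 : ℝ) = (2 : ℝ) ^ (2 : ℝ) := by norm_num
    rw [this, ← Real.rpow_add (by norm_num)]
    congr 1
    ring
  simp only [Hess, ContinuousLinearMap.add_apply, ContinuousLinearMap.smul_apply,
    ContinuousLinearMap.id_apply, ContinuousLinearMap.smulRight_apply, innerSL_apply_apply, h2, he,
    Real.one_rpow, inner_smul_left, smul_smul, smul_add]
  congr 1
  · congr 1
    ring
  · congr 1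
    rw [← h3]
    simp
    ring

lemma hess_norm_le {s : ℝ} (hs : 0 < s) {e : E} (he : ‖e‖ = 1) (v : E) :
    ‖Hess s e v‖ ≤ (s * (s + 3)) * ‖v‖ := by
  rw [hess_unit he]
  have h1 : |⟪e, v⟫_ℝ| ≤ ‖v‖ := by
    have := abs_real_inner_le_norm e v
    rwa [he, one_mul] at this
  calc ‖(-s) • v + (s * (s + 2) * ⟪e, v⟫_ℝ) • e‖
      ≤ ‖(-s) • v‖ + ‖(s * (s + 2) * ⟪e, v⟫_ℝ) • e‖ := norm_add_le _ _
    _ = s * ‖v‖ + s * (s + 2) * |⟪e, v⟫_ℝ| := by
        rw [norm_smul, norm_smul, he, Real.norm_eq_abs, Real.norm_eq_abs, abs_neg, abs_of_pos hs,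
          abs_mul, abs_of_pos (by positivity : 0 < s * (s + 2)), mul_one]
    _ ≤ s * ‖v‖ + s * (s + 2) * ‖v‖ := by gcongr
    _ = (s * (s + 3)) * ‖v‖ := by ring

lemma hess_inj {s : ℝ} (hs : 0 < s) {e : E} (he : ‖e‖ = 1) {v : E} (hv : Hess s e v = 0) :
    v = 0 := by
  rw [hess_unit he] at hv
  have h1 : ⟪e, (-s) • v + (s * (s + 2) * ⟪e, v⟫_ℝ) • e⟫_ℝ = 0 := by rw [hv, inner_zero_right]
  rw [inner_add_right, inner_smul_right, inner_smul_right, real_inner_self_eq_norm_sq, he] at h1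
  have h2 : s * (s + 1) * ⟪e, v⟫_ℝ = 0 := by linarith
  have h3 : ⟪e, v⟫_ℝ = 0 := by
    rcases mul_eq_zero.1 h2 with h | h
    · exact absurd h (by positivity)
    · exact h
  rw [h3] at hv
  simp at hv
  rcases hv with h | h
  · exact absurd h hs.ne'
  · exact h

/-- second-order lower bound for `hh` near a nonzero point -/
lemma hh_lower {s : ℝ} {x₀ : E} (hx₀ : x₀ ≠ 0) :
    ∃ L : ℝ, 0 ≤ L ∧ ∃ δ > 0, ∀ x ∈ Metric.ball x₀ δ, ∀ x' ∈ Metric.ball x₀ δ,
      - L * ‖x - x'‖ ^ 2 ≤ hh s x - hh s x' - ⟪gg s x', x - x'⟫_ℝ := by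
  obtain ⟨L, t, ht, hL⟩ := (gg_contDiffAt (s := s) hx₀ (n := 1)).exists_lipschitzOnWith
  obtain ⟨δ₁, hδ₁, hball⟩ := Metric.mem_nhds_iff.1 ht
  have hδ₂ : 0 < ‖x₀‖ := norm_pos_iff.2 hx₀
  refine ⟨L, L.2, min δ₁ ‖x₀‖, lt_min hδ₁ hδ₂, ?_⟩
  intro x hx x' hx'
  have hne : ∀ y ∈ Metric.ball x₀ (min δ₁ ‖x₀‖), y ≠ 0 := by
    rintro y hy rfl
    rw [Metric.mem_ball, dist_zero_left] at hy
    exact absurd (lt_of_lt_of_le hy (min_le_right _ _)) (lt_irrefl _)
  -- work on the segment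
  have hseg : segment ℝ x' x ⊆ Metric.ball x₀ (min δ₁ ‖x₀‖) :=
    (convex_ball x₀ _).segment_subset hx' hx
  have key := Convex.norm_image_sub_le_of_norm_hasFDerivWithin_le' (𝕜 := ℝ)
    (f := (hh s : E → ℝ)) (f' := fun y => innerSL ℝ (gg s y)) (φ := innerSL ℝ (gg s x'))
    (s := segment ℝ x' x) (C := L * ‖x - x'‖) (x := x') (y := x)
    (fun y hy => (hasFDerivAt_hh (hne y (hseg hy))).hasFDerivWithinAt)
    (fun y hy => by
      rw [← map_sub, innerSL_apply_norm]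
      have h1 := hL.dist_le_mul y (hball (Metric.ball_subset_ball (min_le_left _ _) (hseg hy)))
        x' (hball (Metric.ball_subset_ball (min_le_left _ _) hx'))
      rw [dist_eq_norm, dist_eq_norm] at h1
      refine h1.trans ?_
      gcongr
      obtain ⟨a, b, ha, hb, hab, rfl⟩ := hy
      have : a • x' + b • x - x' = b • (x - x') := by
        have : a = 1 - b := by linarith
        subst this
        module
      rw [this, norm_smul, Real.norm_of_nonneg hb]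
      nlinarith [norm_nonneg (x - x')])
    (convex_segment x' x) (left_mem_segment ℝ x' x) (right_mem_segment ℝ x' x)
  rw [Real.norm_eq_abs] at key
  have := (abs_le.1 key).1
  simp only [innerSL_apply_apply] at this
  nlinarith [this]

end Crest.Agent.S0175Aux
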