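import Mathlib
import Crest.Agent.S0175Aux.Force

/-!
Helper module for S0175 (helper31): the contact graph `a ↦ (b a, d a)` through the implicit
function theorem and the local inequality.
-/

set_option autoImplicit false
open MeasureTheory Filter Topology Set
open scoped ContDiff InnerProductSpace

namespace Crest.Agent.S0175Aux

variable {E : Type*} [NormedAddCommGroup E] [InnerProductSpace ℝ E]

/-- the triple energy (real valued) -/
noncomputable def cc (s : ℝ) (a y z : E) : ℝ := hh s (a - y) + hh s (a - z) + hh s (y - z)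

section Linear

variable {s : ℝ} {e : E} {K : ℝ}

lemma kap_pos (s : ℝ) : (0 : ℝ) < (2 : ℝ) ^ (-s - 2) := Real.rpow_pos_of_pos (by norm_num) _

lemma kap_le {s : ℝ} (hs : 0 < s) : (2 : ℝ) ^ (-s - 2) ≤ 1 / 4 := by
  have h : (2 : ℝ) ^ (-s - 2) ≤ (2 : ℝ) ^ (-2 : ℝ) :=
    Real.rpow_le_rpow_of_exponent_le (by norm_num) (by linarith)
  refine h.trans ?_
  rw [show (-2 : ℝ) = ((-2 : ℤ) : ℝ) by norm_num, Real.rpow_intCast]
  norm_num

lemma eq_zero_of_smul_eq {M : ℝ} (hM : 0 ≤ M) {v u : E} {c : ℝ} (hc : M < c)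
    (h : c • v = u) (hu : ‖u‖ ≤ M * ‖v‖) : v = 0 := by
  have h1 : c * ‖v‖ ≤ M * ‖v‖ := by
    calc c * ‖v‖ = ‖c • v‖ := by
          rw [norm_smul, Real.norm_of_nonneg (hM.trans hc.le)]
      _ = ‖u‖ := by rw [h]
      _ ≤ _ := hu
  by_contra hv
  have : 0 < ‖v‖ := norm_pos_iff.2 hv
  nlinarith

/-- injectivity of the linearised system in the unknowns `(β, δ)` -/
lemma lin_inj (hs : 0 < s) (he : ‖e‖ = 1) (hK : 3 * (s * (s + 3)) < (2 : ℝ) ^ (-s - 2) * K)
    {β δ : E} (h1 : Hess s e (-β) + Hess s e (-δ) = 0)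
    (h2 : Hess s e β + Hess s ((2 : ℝ) • e) (β - δ) + K • β = 0) : β = 0 ∧ δ = 0 := by
  have hM : 0 < s * (s + 3) := by positivity
  have hκ := kap_pos s
  have hκ' := kap_le hs
  rw [← map_add] at h1
  have h3 := hess_inj hs he h1
  have h4 : δ = -β := by
    have : δ = -(-β + -δ) - β := by abel
    rw [this, h3]; simp
  subst h4
  rw [hess_two he] at h2
  have h5 : K • β = -((1 + 2 * (2 : ℝ) ^ (-s - 2)) • Hess s e β) := by
    have : β - -β = (2 : ℝ) • β := by module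
    rw [this, map_smul, smul_smul] at h2
    have h6 : K • β = -(Hess s e β + ((2 : ℝ) ^ (-s - 2) * 2) • Hess s e β) := by
      rw [eq_neg_iff_add_eq_zero, add_comm]; exact h2
    rw [h6]; module
  have hKb : 3 * (s * (s + 3)) < K := by
    have hK0 : 0 < K := by
      by_contra hneg
      push Not at hneg
      nlinarith
    nlinarith
  have h7 : β = 0 := by
    refine eq_zero_of_smul_eq (M := 2 * (s * (s + 3))) (by positivity) (by linarith) h5 ?_
    rw [norm_neg, norm_smul, Real.norm_of_nonneg (by positivity)]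
    have := hess_norm_le hs he β
    calc (1 + 2 * (2 : ℝ) ^ (-s - 2)) * ‖Hess s e β‖ ≤ 2 * ((s * (s + 3)) * ‖β‖) := by
          gcongr
          linarith
      _ = _ := by ring
  subst h7
  simp

/-- the `b`-component of the linearised contact graph is injective -/
lemma lin_b (hs : 0 < s) (he : ‖e‖ = 1) (hK : 3 * (s * (s + 3)) < (2 : ℝ) ^ (-s - 2) * K)
    {a δ : E} (h1 : Hess s e a + Hess s e (a - δ) + K • a = 0)
    (h2 : Hess s e (-a) + Hess s ((2 : ℝ) • e) (-δ) = 0) : a = 0 := by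
  have hM : 0 < s * (s + 3) := by positivity
  have hκ := kap_pos s
  have hκ' := kap_le hs
  rw [hess_two he] at h2
  set κ := (2 : ℝ) ^ (-s - 2)
  have h3 : (κ * K) • a = -((1 + 2 * κ) • Hess s e a) := by
    have e1 : κ • (Hess s e a + Hess s e (a - δ) + K • a) = 0 := by rw [h1, smul_zero]
    rw [map_sub] at e1
    simp only [map_neg] at h2
    have e2 : κ • Hess s e δ = - Hess s e a := by
      have : -Hess s e a + κ • -Hess s e δ = 0 := h2
      rw [smul_neg, add_neg_eq_zero] at this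
      exact this.symm
    have e3 : (κ * K) • a = -(κ • Hess s e a + κ • Hess s e a - κ • Hess s e δ) := by
      rw [eq_neg_iff_add_eq_zero, ← e1]
      module
    rw [e3, e2]
    module
  refine eq_zero_of_smul_eq (M := 2 * (s * (s + 3))) (by positivity) (by linarith) h3 ?_
  rw [norm_neg, norm_smul, Real.norm_of_nonneg (by positivity)]
  have := hess_norm_le hs he a
  calc (1 + 2 * κ) * ‖Hess s e a‖ ≤ 2 * ((s * (s + 3)) * ‖a‖) := by
        gcongr
        linarith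
    _ = _ := by ring

/-- the `d`-component of the linearised contact graph is injective -/
lemma lin_d (hs : 0 < s) (he : ‖e‖ = 1) (hK : 3 * (s * (s + 3)) < (2 : ℝ) ^ (-s - 2) * K)
    {a β : E} (h1 : Hess s e (a - β) + Hess s e a + K • a = 0)
    (h2 : Hess s e (β - a) + Hess s ((2 : ℝ) • e) β + K • β = 0) : a = 0 := by
  have hM : 0 < s * (s + 3) := by positivity
  have hκ := kap_pos s
  have hκ' := kap_le hs
  rw [hess_two he] at h2
  set κ := (2 : ℝ) ^ (-s - 2)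
  have hKb : 3 * (s * (s + 3)) < K := by
    have hK0 : 0 < K := by
      by_contra hneg
      push Not at hneg
      nlinarith
    nlinarith
  have hK0 : 0 < K := by linarith
  have e1 : K • a = -(Hess s e (a - β) + Hess s e a) := by
    rw [eq_neg_iff_add_eq_zero, ← h1]; abel
  have e2 : K • β = -(Hess s e (β - a) + κ • Hess s e β) := by
    rw [eq_neg_iff_add_eq_zero, ← h2]; abel
  have n1 : K * ‖a‖ ≤ (s * (s + 3)) * (‖a‖ + ‖β‖) + (s * (s + 3)) * ‖a‖ := by
    calc K * ‖a‖ = ‖K • a‖ := by rw [norm_smul, Real.norm_of_nonneg hK0.le]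
      _ = ‖Hess s e (a - β) + Hess s e a‖ := by rw [e1, norm_neg]
      _ ≤ ‖Hess s e (a - β)‖ + ‖Hess s e a‖ := norm_add_le _ _
      _ ≤ (s * (s + 3)) * ‖a - β‖ + (s * (s + 3)) * ‖a‖ :=
          add_le_add (hess_norm_le hs he _) (hess_norm_le hs he _)
      _ ≤ _ := by
          gcongr
          exact norm_sub_le _ _
  have n2 : K * ‖β‖ ≤ (s * (s + 3)) * (‖β‖ + ‖a‖) + (s * (s + 3)) * ‖β‖ := by
    calc K * ‖β‖ = ‖K • β‖ := by rw [norm_smul, Real.norm_of_nonneg hK0.le]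
      _ = ‖Hess s e (β - a) + κ • Hess s e β‖ := by rw [e2, norm_neg]
      _ ≤ ‖Hess s e (β - a)‖ + ‖κ • Hess s e β‖ := norm_add_le _ _
      _ ≤ (s * (s + 3)) * ‖β - a‖ + 1 * ((s * (s + 3)) * ‖β‖) := by
          refine add_le_add (hess_norm_le hs he _) ?_
          rw [norm_smul, Real.norm_of_nonneg hκ.le]
          refine mul_le_mul (by linarith) (hess_norm_le hs he _) (norm_nonneg _) (by norm_num)
      _ ≤ (s * (s + 3)) * (‖β‖ + ‖a‖) + (s * (s + 3)) * ‖β‖ := by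
          rw [one_mul]
          gcongr
          exact norm_sub_le _ _
  by_contra ha
  have hpos : 0 < ‖a‖ := norm_pos_iff.2 ha
  have hb : 0 ≤ ‖β‖ := norm_nonneg β
  -- add up
  nlinarith

end Linear

section Implicit

variable {s : ℝ} {e : E} {K : ℝ}

/-- the critical-point equations for `(y, z)` given `a` -/
noncomputable def FF (s K : ℝ) (e : E) (p : E × (E × E)) : E × E :=
  (gg s (p.1 - p.2.1) + gg s (p.1 - p.2.2) + K • p.1,
   gg s (p.2.1 - p.1) + gg s (p.2.1 - p.2.2) + K • (p.2.1 - e))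

/-- its derivative at `(0, (e, -e))` -/
noncomputable def FF' (s K : ℝ) (e : E) : E × (E × E) →L[ℝ] E × E :=
  ((Hess s e).comp (ContinuousLinearMap.fst ℝ E (E × E) -
      (ContinuousLinearMap.fst ℝ E E).comp (ContinuousLinearMap.snd ℝ E (E × E))) +
    (Hess s e).comp (ContinuousLinearMap.fst ℝ E (E × E) -
      (ContinuousLinearMap.snd ℝ E E).comp (ContinuousLinearMap.snd ℝ E (E × E))) +
    K • ContinuousLinearMap.fst ℝ E (E × E)).prod
  ((Hess s e).comp ((ContinuousLinearMap.fst ℝ E E).comp (ContinuousLinearMap.snd ℝ E (E × E)) -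
      ContinuousLinearMap.fst ℝ E (E × E)) +
    (Hess s ((2 : ℝ) • e)).comp
      ((ContinuousLinearMap.fst ℝ E E).comp (ContinuousLinearMap.snd ℝ E (E × E)) -
      (ContinuousLinearMap.snd ℝ E E).comp (ContinuousLinearMap.snd ℝ E (E × E))) +
    K • (ContinuousLinearMap.fst ℝ E E).comp (ContinuousLinearMap.snd ℝ E (E × E)))

lemma FF'_apply (a β δ : E) : FF' s K e (a, (β, δ)) =
    (Hess s e (a - β) + Hess s e (a - δ) + K • a,
     Hess s e (β - a) + Hess s ((2 : ℝ) • e) (β - δ) + K • β) := by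
  simp [FF']

lemma hasFDerivAt_FF (he : ‖e‖ = 1) :
    HasFDerivAt (FF s K e) (FF' s K e) ((0 : E), (e, -e)) := by
  have hne : e ≠ 0 := by
    rintro rfl
    simp at he
  have hP1 : HasFDerivAt (fun p : E × (E × E) => p.1 - p.2.1)
      (ContinuousLinearMap.fst ℝ E (E × E) -
      (ContinuousLinearMap.fst ℝ E E).comp (ContinuousLinearMap.snd ℝ E (E × E)))
      ((0 : E), (e, -e)) :=
    (ContinuousLinearMap.fst ℝ E (E × E) -
      (ContinuousLinearMap.fst ℝ E E).comp (ContinuousLinearMap.snd ℝ E (E × E))).hasFDerivAt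
  have hP2 : HasFDerivAt (fun p : E × (E × E) => p.1 - p.2.2)
      (ContinuousLinearMap.fst ℝ E (E × E) -
      (ContinuousLinearMap.snd ℝ E E).comp (ContinuousLinearMap.snd ℝ E (E × E)))
      ((0 : E), (e, -e)) :=
    (ContinuousLinearMap.fst ℝ E (E × E) -
      (ContinuousLinearMap.snd ℝ E E).comp (ContinuousLinearMap.snd ℝ E (E × E))).hasFDerivAt
  have hP3 : HasFDerivAt (fun p : E × (E × E) => p.2.1 - p.1)
      ((ContinuousLinearMap.fst ℝ E E).comp (ContinuousLinearMap.snd ℝ E (E × E)) -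
      ContinuousLinearMap.fst ℝ E (E × E))
      ((0 : E), (e, -e)) :=
    ((ContinuousLinearMap.fst ℝ E E).comp (ContinuousLinearMap.snd ℝ E (E × E)) -
      ContinuousLinearMap.fst ℝ E (E × E)).hasFDerivAt
  have hP4 : HasFDerivAt (fun p : E × (E × E) => p.2.1 - p.2.2)
      ((ContinuousLinearMap.fst ℝ E E).comp (ContinuousLinearMap.snd ℝ E (E × E)) -
      (ContinuousLinearMap.snd ℝ E E).comp (ContinuousLinearMap.snd ℝ E (E × E)))
      ((0 : E), (e, -e)) :=
    ((ContinuousLinearMap.fst ℝ E E).comp (ContinuousLinearMap.snd ℝ E (E × E)) -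
      (ContinuousLinearMap.snd ℝ E E).comp (ContinuousLinearMap.snd ℝ E (E × E))).hasFDerivAt
  have hP5 : HasFDerivAt (fun p : E × (E × E) => K • p.1)
      (K • ContinuousLinearMap.fst ℝ E (E × E)) ((0 : E), (e, -e)) :=
    (K • ContinuousLinearMap.fst ℝ E (E × E)).hasFDerivAt
  have hP6 : HasFDerivAt (fun p : E × (E × E) => K • (p.2.1 - e))
      (K • (ContinuousLinearMap.fst ℝ E E).comp (ContinuousLinearMap.snd ℝ E (E × E)))
      ((0 : E), (e, -e)) := by
    have := ((ContinuousLinearMap.fst ℝ E E).comp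
      (ContinuousLinearMap.snd ℝ E (E × E))).hasFDerivAt (x := ((0 : E), (e, -e)))
    exact (this.sub_const e).const_smul K
  have q1 : HasFDerivAt (gg s : E → E) (Hess s e) ((0 : E) - e) := by
    have := hasFDerivAt_gg (s := s) (x := (0 : E) - e) (by simpa using hne)
    rw [zero_sub, hess_neg] at this
    rwa [zero_sub]
  have q2 : HasFDerivAt (gg s : E → E) (Hess s e) ((0 : E) - -e) := by
    have := hasFDerivAt_gg (s := s) (x := (0 : E) - -e) (by simpa using hne)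
    rwa [zero_sub, neg_neg] at this ⊢
  have q3 : HasFDerivAt (gg s : E → E) (Hess s e) (e - 0) := by
    have := hasFDerivAt_gg (s := s) (x := e - 0) (by simpa using hne)
    rwa [sub_zero] at this ⊢
  have q4 : HasFDerivAt (gg s : E → E) (Hess s ((2 : ℝ) • e)) (e - -e) := by
    have e2 : e - -e = (2 : ℝ) • e := by module
    rw [e2]
    exact hasFDerivAt_gg (s := s) (x := (2 : ℝ) • e) (by simpa using hne)
  have r1 : HasFDerivAt (fun p : E × (E × E) => gg s (p.1 - p.2.1)) _ ((0 : E), (e, -e)) :=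
    HasFDerivAt.comp (g := (gg s : E → E)) _ q1 hP1
  have r2 : HasFDerivAt (fun p : E × (E × E) => gg s (p.1 - p.2.2)) _ ((0 : E), (e, -e)) :=
    HasFDerivAt.comp (g := (gg s : E → E)) _ q2 hP2
  have r3 : HasFDerivAt (fun p : E × (E × E) => gg s (p.2.1 - p.1)) _ ((0 : E), (e, -e)) :=
    HasFDerivAt.comp (g := (gg s : E → E)) _ q3 hP3
  have r4 : HasFDerivAt (fun p : E × (E × E) => gg s (p.2.1 - p.2.2)) _ ((0 : E), (e, -e)) :=
    HasFDerivAt.comp (g := (gg s : E → E)) _ q4 hP4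
  exact ((r1.add r2).add hP5).prodMk ((r3.add r4).add hP6)

lemma contDiffAt_FF (he : ‖e‖ = 1) :
    ContDiffAt ℝ ω (FF s K e) ((0 : E), (e, -e)) := by
  have hne : e ≠ 0 := by
    rintro rfl
    simp at he
  have hx : ContDiffAt ℝ ω (fun p : E × (E × E) => p.1) ((0 : E), (e, -e)) := contDiffAt_fst
  have hy : ContDiffAt ℝ ω (fun p : E × (E × E) => p.2.1) ((0 : E), (e, -e)) :=
    contDiffAt_snd.fst
  have hz : ContDiffAt ℝ ω (fun p : E × (E × E) => p.2.2) ((0 : E), (e, -e)) :=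
    contDiffAt_snd.snd
  have r1 : ContDiffAt ℝ ω (fun p : E × (E × E) => gg s (p.1 - p.2.1)) ((0 : E), (e, -e)) :=
    ContDiffAt.comp (g := (gg s : E → E)) _ (gg_contDiffAt (by simpa using hne)) (hx.sub hy)
  have r2 : ContDiffAt ℝ ω (fun p : E × (E × E) => gg s (p.1 - p.2.2)) ((0 : E), (e, -e)) :=
    ContDiffAt.comp (g := (gg s : E → E)) _ (gg_contDiffAt (by simpa using hne)) (hx.sub hz)
  have r3 : ContDiffAt ℝ ω (fun p : E × (E × E) => gg s (p.2.1 - p.1)) ((0 : E), (e, -e)) :=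
    ContDiffAt.comp (g := (gg s : E → E)) _ (gg_contDiffAt (by simpa using hne)) (hy.sub hx)
  have r4 : ContDiffAt ℝ ω (fun p : E × (E × E) => gg s (p.2.1 - p.2.2)) ((0 : E), (e, -e)) := by
    refine ContDiffAt.comp (g := (gg s : E → E)) _ (gg_contDiffAt ?_) (hy.sub hz)
    have e2 : e - -e = (2 : ℝ) • e := by module
    change e - -e ≠ 0
    rw [e2]
    simpa using hne
  have r5 : ContDiffAt ℝ ω (fun p : E × (E × E) => K • p.1) ((0 : E), (e, -e)) :=
    contDiffAt_const.smul hx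
  have r6 : ContDiffAt ℝ ω (fun p : E × (E × E) => K • (p.2.1 - e)) ((0 : E), (e, -e)) :=
    contDiffAt_const.smul (hy.sub contDiffAt_const)
  exact ((r1.add r2).add r5).prodMk ((r3.add r4).add r6)

lemma FF_base : (FF s K e ((0 : E), (e, -e))).1 = 0 := by
  simp [FF, gg_neg]

theorem exists_graph [FiniteDimensional ℝ E] (hs : 0 < s) (he : ‖e‖ = 1)
    (hK : 3 * (s * (s + 3)) < (2 : ℝ) ^ (-s - 2) * K) :
    ∃ (w : E) (b d : E → E), ContDiffAt ℝ ω b 0 ∧ ContDiffAt ℝ ω d 0 ∧ b 0 = e ∧ d 0 = -e ∧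
      (∃ b' : E ≃L[ℝ] E, HasFDerivAt b (b' : E →L[ℝ] E) 0) ∧
      (∃ d' : E ≃L[ℝ] E, HasFDerivAt d (d' : E →L[ℝ] E) 0) ∧
      ∀ᶠ a in 𝓝 (0 : E), gg s (a - b a) + gg s (a - d a) + K • a = 0 ∧
        gg s (b a - a) + gg s (b a - d a) + K • (b a - e) = w := by
  have hF := contDiffAt_FF (s := s) (K := K) he
  have hF' := hasFDerivAt_FF (s := s) (K := K) he
  have hfd : fderiv ℝ (FF s K e) ((0 : E), (e, -e)) = FF' s K e := hF'.fderiv
  have hinj : Function.Injective (FF' s K e ∘L .inr ℝ E (E × E)) := by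
    rw [injective_iff_map_eq_zero]
    rintro ⟨β, δ⟩ h
    simp only [ContinuousLinearMap.comp_apply, ContinuousLinearMap.inr_apply, FF'_apply,
      Prod.mk_eq_zero, smul_zero, add_zero, zero_sub, sub_zero] at h
    have := lin_inj hs he hK h.1 h.2
    rw [this.1, this.2]; rfl
  have hinv : (fderiv ℝ (FF s K e) ((0 : E), (e, -e)) ∘L .inr ℝ E (E × E)).IsInvertible := by
    rw [hfd]
    refine ⟨(LinearEquiv.ofInjectiveEndo _ hinj).toContinuousLinearEquiv, ?_⟩
    ext x <;> rfl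
  set ψ := hF.implicitFunction (by simp) hinv with hψ
  have hψ0 : ψ 0 = (e, -e) := hF.implicitFunction_apply_self (by simp) hinv
  have hψc : ContDiffAt ℝ ω ψ 0 := hF.contDiffAt_implicitFunction (by simp) hinv
  have hψe : ∀ᶠ a in 𝓝 (0 : E), FF s K e (a, ψ a) = FF s K e ((0 : E), (e, -e)) :=
    hF.eventually_apply_implicitFunction (by simp) hinv
  have hψd : DifferentiableAt ℝ ψ 0 := hψc.differentiableAt (by simp)
  obtain ⟨ψ', hψ'⟩ : ∃ ψ', HasFDerivAt ψ ψ' 0 := ⟨_, hψd.hasFDerivAt⟩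
  have hlin : ∀ a : E, FF' s K e (a, ψ' a) = 0 := by
    intro a
    have h1 : HasFDerivAt (fun x => FF s K e (x, ψ x))
        ((FF' s K e).comp ((ContinuousLinearMap.id ℝ E).prod ψ')) 0 := by
      refine HasFDerivAt.comp (g := FF s K e) (0 : E) ?_ ((hasFDerivAt_id (0 : E)).prodMk hψ')
      simp only [hψ0]
      exact hF'
    have h2 : HasFDerivAt (fun x => FF s K e (x, ψ x)) (0 : E →L[ℝ] E × E) 0 := by
      refine (hasFDerivAt_const (FF s K e ((0 : E), (e, -e))) (0 : E)).congr_of_eventuallyEq ?_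
      exact hψe
    have h3 := h1.unique h2
    have := congrArg (fun L : E →L[ℝ] E × E => L a) h3
    simpa using this
  refine ⟨(FF s K e ((0 : E), (e, -e))).2, fun a => (ψ a).1, fun a => (ψ a).2, hψc.fst, hψc.snd,
    by simp only [hψ0], by simp only [hψ0], ?_, ?_, ?_⟩
  · have h1 : HasFDerivAt (fun a => (ψ a).1) ((ContinuousLinearMap.fst ℝ E E).comp ψ') 0 :=
      hψ'.fst
    have hinj : Function.Injective ((ContinuousLinearMap.fst ℝ E E).comp ψ') := by
      rw [injective_iff_map_eq_zero]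
      intro a ha
      have h2 := hlin a
      obtain ⟨β, δ, hβδ⟩ : ∃ β δ, ψ' a = (β, δ) := ⟨(ψ' a).1, (ψ' a).2, rfl⟩
      have h3 : β = 0 := by
        have : (ψ' a).1 = 0 := ha
        rwa [hβδ] at this
      subst h3
      rw [hβδ, FF'_apply] at h2
      simp only [Prod.mk_eq_zero, smul_zero, add_zero, zero_sub, sub_zero] at h2
      exact lin_b hs he hK h2.1 h2.2
    refine ⟨(LinearEquiv.ofInjectiveEndo _ hinj).toContinuousLinearEquiv, ?_⟩
    convert h1 using 1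
    ext x; rfl
  · have h1 : HasFDerivAt (fun a => (ψ a).2) ((ContinuousLinearMap.snd ℝ E E).comp ψ') 0 :=
      hψ'.snd
    have hinj : Function.Injective ((ContinuousLinearMap.snd ℝ E E).comp ψ') := by
      rw [injective_iff_map_eq_zero]
      intro a ha
      have h2 := hlin a
      obtain ⟨β, δ, hβδ⟩ : ∃ β δ, ψ' a = (β, δ) := ⟨(ψ' a).1, (ψ' a).2, rfl⟩
      have h3 : δ = 0 := by
        have : (ψ' a).2 = 0 := ha
        rwa [hβδ] at this
      subst h3
      rw [hβδ, FF'_apply] at h2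
      simp only [Prod.mk_eq_zero, smul_zero, add_zero, zero_sub, sub_zero] at h2
      exact lin_d hs he hK h2.1 h2.2
    refine ⟨(LinearEquiv.ofInjectiveEndo _ hinj).toContinuousLinearEquiv, ?_⟩
    convert h1 using 1
    ext x; rfl
  · filter_upwards [hψe] with a ha
    constructor
    · rw [← FF_base (s := s) (K := K), ← ha]
      rfl
    · rw [← ha]
      rfl

end Implicit

section Local

variable {s : ℝ} {e : E}

/-- The local theorem: for suitable `K`, there is a smooth contact graph `(a, b a, d a)` on which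
the energy minus the potentials is minimal. -/
theorem exists_local [FiniteDimensional ℝ E] (hs : 0 < s) (he : ‖e‖ = 1) :
    ∃ (K : ℝ) (w : E) (b d : E → E), 0 < K ∧
      ContDiffAt ℝ ω b 0 ∧ ContDiffAt ℝ ω d 0 ∧ b 0 = e ∧ d 0 = -e ∧
      (∃ b' : E ≃L[ℝ] E, HasFDerivAt b (b' : E →L[ℝ] E) 0) ∧
      (∃ d' : E ≃L[ℝ] E, HasFDerivAt d (d' : E →L[ℝ] E) 0) ∧
      ∃ ε > 0, ∀ a ∈ Metric.ball (0 : E) ε, ∀ a' ∈ Metric.ball (0 : E) ε,
        ∀ y ∈ Metric.ball e ε,
        cc s a' (b a') (d a') + K / 2 * ‖a'‖ ^ 2 + K / 2 * ‖b a' - e‖ ^ 2 - ⟪w, b a' - e⟫_ℝ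
          + (‖a - a'‖ ^ 2 + ‖y - b a'‖ ^ 2) ≤
        cc s a y (d a') + K / 2 * ‖a‖ ^ 2 + K / 2 * ‖y - e‖ ^ 2 - ⟪w, y - e⟫_ℝ := by
  have hne : e ≠ 0 := by
    rintro rfl
    simp at he
  have hne2 : (2 : ℝ) • e ≠ 0 := by simpa using hne
  have hnen : -e ≠ 0 := by simpa using hne
  obtain ⟨L₁, hL₁, δ₁, hδ₁, H₁⟩ := hh_lower (s := s) hne
  obtain ⟨L₂, hL₂, δ₂, hδ₂, H₂⟩ := hh_lower (s := s) hne2
  obtain ⟨L₃, hL₃, δ₃, hδ₃, H₃⟩ := hh_lower (s := s) hnen
  have hκ := kap_pos s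
  set K : ℝ := 2 + 6 * (L₁ + L₂ + L₃) +
    (3 * (s * (s + 3)) + 1) / (2 : ℝ) ^ (-s - 2) with hKdef
  have hK0 : 0 < K := by positivity
  have hK : 3 * (s * (s + 3)) < (2 : ℝ) ^ (-s - 2) * K := by
    have h1 : (2 : ℝ) ^ (-s - 2) * ((3 * (s * (s + 3)) + 1) / (2 : ℝ) ^ (-s - 2)) =
        3 * (s * (s + 3)) + 1 := by
      field_simp
    rw [hKdef, mul_add ((2 : ℝ) ^ (-s - 2)), h1]
    have : 0 ≤ (2 : ℝ) ^ (-s - 2) * (2 + 6 * (L₁ + L₂ + L₃)) := by positivity
    linarith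
  have hKL : 1 + 3 * (L₁ + L₂ + L₃) ≤ K / 2 := by
    have : 0 ≤ (3 * (s * (s + 3)) + 1) / (2 : ℝ) ^ (-s - 2) := by positivity
    rw [hKdef]
    linarith
  obtain ⟨w, b, d, hb, hd, hb0, hd0, hb', hd', hev⟩ := exists_graph hs he hK
  refine ⟨K, w, b, d, hK0, hb, hd, hb0, hd0, hb', hd', ?_⟩
  -- choose the radius
  set η : ℝ := min (min δ₁ δ₂) δ₃ / 2 with hη
  have hη0 : 0 < η := by positivity
  have hbc : ∀ᶠ a in 𝓝 (0 : E), b a ∈ Metric.ball e η := by
    have := hb.continuousAt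
    exact this.eventually (by rw [hb0]; exact Metric.ball_mem_nhds _ hη0)
  have hdc : ∀ᶠ a in 𝓝 (0 : E), d a ∈ Metric.ball (-e) η := by
    have := hd.continuousAt
    exact this.eventually (by rw [hd0]; exact Metric.ball_mem_nhds _ hη0)
  obtain ⟨ε₁, hε₁, hε⟩ := Metric.eventually_nhds_iff_ball.1 (hev.and (hbc.and hdc))
  refine ⟨min ε₁ η, lt_min hε₁ hη0, ?_⟩
  intro a ha a' ha' y hy
  obtain ⟨⟨hc1, hc2⟩, hba, hda⟩ := hε a' (Metric.ball_subset_ball (min_le_left _ _) ha')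
  have ha1 : ‖a‖ < η := by
    have := Metric.ball_subset_ball (min_le_right _ _) ha
    simpa using this
  have ha1' : ‖a'‖ < η := by
    have := Metric.ball_subset_ball (min_le_right _ _) ha'
    simpa using this
  have hy1 : ‖y - e‖ < η := by
    have := Metric.ball_subset_ball (min_le_right _ _) hy
    rwa [Metric.mem_ball, dist_eq_norm] at this
  have hb1 : ‖b a' - e‖ < η := by rwa [Metric.mem_ball, dist_eq_norm] at hba
  have hd1 : ‖d a' - -e‖ < η := by rwa [Metric.mem_ball, dist_eq_norm] at hda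
  have hδ1 : 2 * η ≤ δ₁ := by
    rw [hη]
    have := (min_le_left (min δ₁ δ₂) δ₃).trans (min_le_left δ₁ δ₂)
    linarith
  have hδ2 : 2 * η ≤ δ₂ := by
    rw [hη]
    have := (min_le_left (min δ₁ δ₂) δ₃).trans (min_le_right δ₁ δ₂)
    linarith
  have hδ3 : 2 * η ≤ δ₃ := by
    rw [hη]
    have := (min_le_right (min δ₁ δ₂) δ₃)
    linarith
  -- the three pairs
  have m1 : a - y ∈ Metric.ball (-e) δ₃ := by
    rw [Metric.mem_ball, dist_eq_norm]
    have : a - y - -e = a - (y - e) := by abel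
    rw [this]
    exact lt_of_le_of_lt (norm_sub_le _ _) (by linarith)
  have m1' : a' - b a' ∈ Metric.ball (-e) δ₃ := by
    rw [Metric.mem_ball, dist_eq_norm]
    have : a' - b a' - -e = a' - (b a' - e) := by abel
    rw [this]
    exact lt_of_le_of_lt (norm_sub_le _ _) (by linarith)
  have m2 : a - d a' ∈ Metric.ball e δ₁ := by
    rw [Metric.mem_ball, dist_eq_norm]
    have : a - d a' - e = a - (d a' - -e) := by abel
    rw [this]
    exact lt_of_le_of_lt (norm_sub_le _ _) (by linarith)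
  have m2' : a' - d a' ∈ Metric.ball e δ₁ := by
    rw [Metric.mem_ball, dist_eq_norm]
    have : a' - d a' - e = a' - (d a' - -e) := by abel
    rw [this]
    exact lt_of_le_of_lt (norm_sub_le _ _) (by linarith)
  have m3 : y - d a' ∈ Metric.ball ((2 : ℝ) • e) δ₂ := by
    rw [Metric.mem_ball, dist_eq_norm]
    have : y - d a' - (2 : ℝ) • e = (y - e) - (d a' - -e) := by module
    rw [this]
    exact lt_of_le_of_lt (norm_sub_le _ _) (by linarith)
  have m3' : b a' - d a' ∈ Metric.ball ((2 : ℝ) • e) δ₂ := by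
    rw [Metric.mem_ball, dist_eq_norm]
    have : b a' - d a' - (2 : ℝ) • e = (b a' - e) - (d a' - -e) := by module
    rw [this]
    exact lt_of_le_of_lt (norm_sub_le _ _) (by linarith)
  have I1 := H₃ _ m1 _ m1'
  have I2 := H₁ _ m2 _ m2'
  have I3 := H₂ _ m3 _ m3'
  -- abbreviations
  set u := a - a' with hu
  set v := y - b a' with hv
  have e1 : a - y - (a' - b a') = u - v := by rw [hu, hv]; abel
  have e2 : a - d a' - (a' - d a') = u := by rw [hu]; abel
  have e3 : y - d a' - (b a' - d a') = v := by rw [hv]; abel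
  rw [e1] at I1
  rw [e2] at I2
  rw [e3] at I3
  have huv : ‖u - v‖ ^ 2 ≤ 2 * ‖u‖ ^ 2 + 2 * ‖v‖ ^ 2 := by
    have h1 := norm_sub_le u v
    have h2 : 0 ≤ ‖u - v‖ := norm_nonneg _
    nlinarith [sq_nonneg (‖u‖ - ‖v‖)]
  have q1 : ‖a‖ ^ 2 = ‖a'‖ ^ 2 + 2 * ⟪a', u⟫_ℝ + ‖u‖ ^ 2 := by
    have : a = a' + u := by rw [hu]; abel
    rw [this, norm_add_sq_real]
  have q2 : ‖y - e‖ ^ 2 = ‖b a' - e‖ ^ 2 + 2 * ⟪b a' - e, v⟫_ℝ + ‖v‖ ^ 2 := by
    have : y - e = (b a' - e) + v := by rw [hv]; abel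
    rw [this, norm_add_sq_real]
  have q3 : ⟪w, y - e⟫_ℝ = ⟪w, b a' - e⟫_ℝ + ⟪w, v⟫_ℝ := by
    rw [← inner_add_right]
    congr 1
    rw [hv]; abel
  -- the first-order terms vanish
  have z1 : ⟪gg s (a' - b a'), u⟫_ℝ + ⟪gg s (a' - d a'), u⟫_ℝ + K * ⟪a', u⟫_ℝ = 0 := by
    have : ⟪gg s (a' - b a') + gg s (a' - d a') + K • a', u⟫_ℝ = 0 := by
      rw [hc1, inner_zero_left]
    rwa [inner_add_left, inner_add_left, real_inner_smul_left] at this
  have z2 : - ⟪gg s (a' - b a'), v⟫_ℝ + ⟪gg s (b a' - d a'), v⟫_ℝ + K * ⟪b a' - e, v⟫_ℝ =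
      ⟪w, v⟫_ℝ := by
    have h1 : gg s (b a' - a') = - gg s (a' - b a') := by rw [← gg_neg, neg_sub]
    rw [← hc2, h1, inner_add_left, inner_add_left, real_inner_smul_left, inner_neg_left]
  have z3 : ⟪gg s (a' - b a'), u - v⟫_ℝ = ⟪gg s (a' - b a'), u⟫_ℝ - ⟪gg s (a' - b a'), v⟫_ℝ :=
    inner_sub_right _ _ _
  rw [z3] at I1
  unfold cc
  rw [q1, q2, q3]
  have p1 : L₃ * ‖u - v‖ ^ 2 ≤ L₃ * (2 * ‖u‖ ^ 2 + 2 * ‖v‖ ^ 2) :=
    mul_le_mul_of_nonneg_left huv hL₃
  have p2 : (1 + 3 * (L₁ + L₂ + L₃)) * ‖u‖ ^ 2 ≤ K / 2 * ‖u‖ ^ 2 :=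
    mul_le_mul_of_nonneg_right hKL (sq_nonneg _)
  have p3 : (1 + 3 * (L₁ + L₂ + L₃)) * ‖v‖ ^ 2 ≤ K / 2 * ‖v‖ ^ 2 :=
    mul_le_mul_of_nonneg_right hKL (sq_nonneg _)
  have p4 : 0 ≤ L₁ * ‖u‖ ^ 2 := by positivity
  have p5 : 0 ≤ L₂ * ‖u‖ ^ 2 := by positivity
  have p6 : 0 ≤ L₃ * ‖u‖ ^ 2 := by positivity
  have p7 : 0 ≤ L₁ * ‖v‖ ^ 2 := by positivity
  have p8 : 0 ≤ L₂ * ‖v‖ ^ 2 := by positivity
  have p9 : 0 ≤ L₃ * ‖v‖ ^ 2 := by positivity
  clear_value K u v
  linarith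

end Local

end Crest.Agent.S0175Aux
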