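import Mathlib
import Crest.Prelude.Def_MultiMarginal
import Crest.Agent.S0175Aux.Contact

/-!
Helper module for S0175 (helper31): the pair and triple costs.
-/

set_option autoImplicit false
open MeasureTheory Filter Topology Set
open scoped ENNReal ContDiff InnerProductSpace
open Crest.AnalysisR.OT

namespace Crest.Agent.S0175Aux

section Cost

variable {E : Type*} [NormedAddCommGroup E] {s : ℝ}

lemma pairCost_self (hs : 0 < s) (x : E) : pairCost s x x = ⊤ := by
  simp [pairCost, hs]

lemma pairCost_comm (x y : E) : pairCost s x y = pairCost s y x := by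
  simp [pairCost, norm_sub_rev]

lemma pairCost_of_ne {x y : E} (h : x ≠ y) : pairCost s x y = ENNReal.ofReal (hh s (x - y)) := by
  have : 0 < ‖x - y‖ := norm_pos_iff.2 (sub_ne_zero.2 h)
  rw [pairCost, ENNReal.ofReal_rpow_of_pos this, hh]

lemma le_pairCost (hs : 0 < s) (x y : E) : ENNReal.ofReal (hh s (x - y)) ≤ pairCost s x y := by
  by_cases h : x = y
  · subst h; rw [pairCost_self hs]; exact le_top
  · rw [pairCost_of_ne h]

lemma pairCost_pos (hs : 0 < s) (x y : E) : 0 < pairCost s x y := by
  by_cases h : x = y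
  · subst h; rw [pairCost_self hs]; simp
  · rw [pairCost_of_ne h]
    have : 0 < ‖x - y‖ := norm_pos_iff.2 (sub_ne_zero.2 h)
    rw [ENNReal.ofReal_pos, hh]
    positivity

lemma pairCost_continuous (s : ℝ) : Continuous fun p : E × E => pairCost s p.1 p.2 := by
  unfold pairCost
  exact (ENNReal.continuous_rpow_const).comp
    (ENNReal.continuous_ofReal.comp ((continuous_fst.sub continuous_snd).norm))

lemma tripleCost_continuous (s : ℝ) : Continuous (tripleCost s : E × E × E → ℝ≥0∞) := by
  unfold tripleCost
  have h1 : Continuous fun p : E × E × E => pairCost s p.1 p.2.1 :=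
    (pairCost_continuous s).comp (continuous_fst.prodMk (continuous_fst.comp continuous_snd))
  have h2 : Continuous fun p : E × E × E => pairCost s p.1 p.2.2 :=
    (pairCost_continuous s).comp (continuous_fst.prodMk (continuous_snd.comp continuous_snd))
  have h3 : Continuous fun p : E × E × E => pairCost s p.2.1 p.2.2 :=
    (pairCost_continuous s).comp
      ((continuous_fst.comp continuous_snd).prodMk (continuous_snd.comp continuous_snd))
  exact (h1.add h2).add h3

lemma tripleCost_swap₁ (x y z : E) : tripleCost s (y, x, z) = tripleCost s (x, y, z) := by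
  simp only [tripleCost]
  rw [pairCost_comm y x]
  ring

lemma tripleCost_swap₂ (x y z : E) : tripleCost s (x, z, y) = tripleCost s (x, y, z) := by
  simp only [tripleCost]
  rw [pairCost_comm z y]
  ring

lemma tripleCost_pos (hs : 0 < s) (p : E × E × E) : 0 < tripleCost s p := by
  unfold tripleCost
  have := pairCost_pos hs p.1 p.2.1
  positivity

lemma hh_nonneg (s : ℝ) (x : E) : 0 ≤ hh s x := by
  unfold hh; positivity

lemma le_tripleCost (hs : 0 < s) (x y z : E) :
    ENNReal.ofReal (hh s (x - y) + hh s (x - z) + hh s (y - z)) ≤ tripleCost s (x, y, z) := by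
  rw [ENNReal.ofReal_add (add_nonneg (hh_nonneg _ _) (hh_nonneg _ _)) (hh_nonneg _ _),
    ENNReal.ofReal_add (hh_nonneg _ _) (hh_nonneg _ _)]
  exact add_le_add (add_le_add (le_pairCost hs _ _) (le_pairCost hs _ _)) (le_pairCost hs _ _)

lemma tripleCost_of_ne {x y z : E} (hxy : x ≠ y) (hxz : x ≠ z) (hyz : y ≠ z) :
    tripleCost s (x, y, z) =
      ENNReal.ofReal (hh s (x - y) + hh s (x - z) + hh s (y - z)) := by
  rw [ENNReal.ofReal_add (add_nonneg (hh_nonneg _ _) (hh_nonneg _ _)) (hh_nonneg _ _),
    ENNReal.ofReal_add (hh_nonneg _ _) (hh_nonneg _ _), tripleCost, pairCost_of_ne hxy,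
    pairCost_of_ne hxz, pairCost_of_ne hyz]

end Cost

end Crest.Agent.S0175Aux
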