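import Mathlib

/-!
Helper module for S0175 (helper31): splitting an atomless measure.
-/

set_option autoImplicit false
open MeasureTheory Filter Topology Set ProbabilityTheory
open scoped ENNReal unitInterval

namespace Crest.Agent.S0175Aux

lemma cdf_continuous (ν : Measure ℝ) [IsProbabilityMeasure ν] [NullSingletonClass ν] :
    Continuous (cdf ν) := by
  rw [continuous_iff_continuousAt]
  intro a
  have h1 : (cdf ν).measure {a} = 0 := by rw [measure_cdf]; simp
  rw [StieltjesFunction.measure_singleton, ENNReal.ofReal_eq_zero, sub_nonpos] at h1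
  have h2 : Function.leftLim (cdf ν) a = cdf ν a :=
    le_antisymm ((monotone_cdf ν).leftLim_le le_rfl) h1
  have h3 := (cdf ν).right_continuous a
  have h4 : ContinuousWithinAt (cdf ν) (Iio a) a := by
    have := (monotone_cdf ν).tendsto_leftLim a
    rw [h2] at this
    exact this
  rw [continuousAt_iff_continuous_left'_right']
  exact ⟨h4, h3.mono Ioi_subset_Ici_self⟩

lemma cdf_preimage (ν : Measure ℝ) [IsProbabilityMeasure ν] [NullSingletonClass ν] (t : ℝ)
    (ht0 : 0 ≤ t) (ht1 : t ≤ 1) : ν {x | cdf ν x ≤ t} = ENNReal.ofReal t := by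
  rcases eq_or_lt_of_le ht1 with rfl | ht1
  · have : {x | cdf ν x ≤ 1} = univ := eq_univ_of_forall (fun x => cdf_le_one ν x)
    rw [this]; simp
  have hcont := cdf_continuous ν
  set S := {x | cdf ν x ≤ t} with hS
  have hclosed : IsClosed S := isClosed_le hcont continuous_const
  have hbdd : BddAbove S := by
    obtain ⟨M, hM⟩ := (((tendsto_cdf_atTop ν).eventually (lt_mem_nhds ht1))).exists
    refine ⟨M, fun x hx => ?_⟩
    by_contra hlt
    push Not at hlt
    have := monotone_cdf ν hlt.le
    have hx' : cdf ν x ≤ t := hx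
    linarith
  rcases S.eq_empty_or_nonempty with hemp | hne
  · rw [hemp]
    have h0 : t ≤ 0 := by
      refine le_of_tendsto_of_tendsto tendsto_const_nhds (tendsto_cdf_atBot ν) ?_
      refine Eventually.of_forall fun x => ?_
      by_contra hlt
      push Not at hlt
      have : x ∈ S := hlt.le
      rw [hemp] at this
      exact this
    have : t = 0 := le_antisymm h0 ht0
    simp [this]
  · have hmem : sSup S ∈ S := hclosed.csSup_mem hne hbdd
    have hSeq : S = Iic (sSup S) := by
      ext x
      constructor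
      · intro hx; exact le_csSup hbdd hx
      · intro hx
        exact (monotone_cdf ν hx).trans hmem
    have hval : cdf ν (sSup S) = t := by
      refine le_antisymm hmem ?_
      have hr : Tendsto (cdf ν) (𝓝[>] (sSup S)) (𝓝 (cdf ν (sSup S))) :=
        hcont.continuousAt.tendsto.mono_left nhdsWithin_le_nhds
      refine ge_of_tendsto hr ?_
      filter_upwards [self_mem_nhdsWithin] with x hx
      by_contra hlt
      push Not at hlt
      have : x ∈ S := hlt.le
      exact absurd (le_csSup hbdd this) (not_le.2 hx)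
    rw [hSeq, ← ofReal_cdf ν, hval]

/-- uniformisation of an atomless probability measure -/
theorem exists_uniformize {X : Type*} [MeasurableSpace X] [StandardBorelSpace X]
    (μ : Measure X) [IsProbabilityMeasure μ] [NullSingletonClass μ] :
    ∃ θ : X → I, Measurable θ ∧ μ.map θ = volume := by
  set ι := embeddingReal X with hι
  have hιm : MeasurableEmbedding ι := measurableEmbedding_embeddingReal X
  set ν := μ.map ι with hν
  have : IsProbabilityMeasure ν := Measure.isProbabilityMeasure_map hιm.measurable.aemeasurable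
  have : NullSingletonClass ν := by
    refine ⟨fun x => ?_⟩
    rw [hν, Measure.map_apply hιm.measurable (measurableSet_singleton x)]
    refine Set.Subsingleton.measure_zero ?_ μ
    intro a ha b hb
    exact hιm.injective ((show ι a = x from ha).trans (show ι b = x from hb).symm)
  have hFm : Measurable (fun x : ℝ => cdf ν x) := (cdf_continuous ν).measurable
  let θ : X → I := fun x => ⟨cdf ν (ι x), cdf_nonneg _ _, cdf_le_one _ _⟩
  have hθ : Measurable θ := (hFm.comp hιm.measurable).subtype_mk
  refine ⟨θ, hθ, ?_⟩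
  have : IsProbabilityMeasure (μ.map θ) := Measure.isProbabilityMeasure_map hθ.aemeasurable
  refine Measure.ext_of_Iic _ _ fun t => ?_
  rw [Measure.map_apply hθ measurableSet_Iic, unitInterval.volume_Iic,
    ← cdf_preimage ν t t.2.1 t.2.2, hν, Measure.map_apply hιm.measurable]
  · rfl
  · exact measurableSet_le hFm measurable_const

/-- splitting a finite atomless measure into two halves, each mapped onto half of the measure -/
theorem exists_split {X : Type*} [MeasurableSpace X] [StandardBorelSpace X]
    (μ : Measure X) [IsFiniteMeasure μ] [NullSingletonClass μ] :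
    ∃ (A : Set X) (τ : X → X), MeasurableSet A ∧ Measurable τ ∧
      (μ.restrict A).map τ = (2 : ℝ≥0∞)⁻¹ • μ ∧ (μ.restrict Aᶜ).map τ = (2 : ℝ≥0∞)⁻¹ • μ := by
  classical
  by_cases hμ : μ = 0
  · subst hμ
    exact ⟨univ, id, MeasurableSet.univ, measurable_id, by simp, by simp⟩
  have : NeZero μ := ⟨hμ⟩
  have hne : Nonempty X := by
    by_contra h
    rw [not_nonempty_iff] at h
    exact hμ (Measure.eq_zero_of_isEmpty μ)
  have hu0 : μ univ ≠ 0 := by simpa using hμ
  have hutop : μ univ ≠ ∞ := measure_ne_top μ univ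
  set P : Measure X := (μ univ)⁻¹ • μ with hP
  have : IsProbabilityMeasure P := ⟨by
    rw [hP, Measure.smul_apply, smul_eq_mul, ENNReal.inv_mul_cancel hu0 hutop]⟩
  have hμP : μ = (μ univ) • P := by
    rw [hP, smul_smul, ENNReal.mul_inv_cancel hu0 hutop, one_smul]
  have : NullSingletonClass P := ⟨fun x => by simp [hP]⟩
  obtain ⟨θ, hθ, hθmap⟩ := exists_uniformize P
  obtain ⟨f, hf, hfmap⟩ := P.exists_measurable_map_eq
  let half : I := ⟨1 / 2, by norm_num, by norm_num⟩
  set A := θ ⁻¹' (Iic half) with hA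
  have hAm : MeasurableSet A := hθ measurableSet_Iic
  have hPA : P A = (2 : ℝ≥0∞)⁻¹ := by
    rw [hA, ← Measure.map_apply hθ measurableSet_Iic, hθmap, unitInterval.volume_Iic]
    change ENNReal.ofReal (1 / 2) = _
    rw [one_div, ENNReal.ofReal_inv_of_pos (by norm_num)]
    norm_num
  have hPAc : P Aᶜ = (2 : ℝ≥0∞)⁻¹ := by
    rw [prob_compl_eq_one_sub hAm, hPA]
    exact ENNReal.one_sub_inv_two
  -- a map for any half-mass set
  have key : ∀ B : Set X, P B = (2 : ℝ≥0∞)⁻¹ → ∃ τ : X → X, Measurable τ ∧
      (P.restrict B).map τ = (2 : ℝ≥0∞)⁻¹ • P := by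
    intro B hPB
    set Q : Measure X := (2 : ℝ≥0∞) • P.restrict B with hQ
    have : IsProbabilityMeasure Q := ⟨by
      rw [hQ, Measure.smul_apply, Measure.restrict_apply MeasurableSet.univ, univ_inter, hPB,
        smul_eq_mul, ENNReal.mul_inv_cancel (by norm_num) (by norm_num)]⟩
    have : NullSingletonClass Q := ⟨fun x => by simp [hQ]⟩
    obtain ⟨θ', hθ', hθ'map⟩ := exists_uniformize Q
    refine ⟨f ∘ θ', hf.comp hθ', ?_⟩
    have h1 : Q.map (f ∘ θ') = P := by
      rw [← Measure.map_map hf hθ', hθ'map, hfmap]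
    have h2 : P.restrict B = (2 : ℝ≥0∞)⁻¹ • Q := by
      rw [hQ, smul_smul, ENNReal.inv_mul_cancel (by norm_num) (by norm_num), one_smul]
    rw [h2, Measure.map_smul, h1]
  obtain ⟨τ₁, hτ₁, hτ₁map⟩ := key A hPA
  obtain ⟨τ₂, hτ₂, hτ₂map⟩ := key Aᶜ hPAc
  refine ⟨A, A.piecewise τ₁ τ₂, hAm, Measurable.piecewise hAm hτ₁ hτ₂, ?_, ?_⟩
  · have h1 : (μ.restrict A).map (A.piecewise τ₁ τ₂) = (μ.restrict A).map τ₁ := by
      refine Measure.map_congr ?_
      filter_upwards [ae_restrict_mem hAm] with x hx
      exact piecewise_eq_of_mem _ _ _ hx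
    rw [h1, hμP, Measure.restrict_smul, Measure.map_smul, hτ₁map, smul_comm]
  · have h1 : (μ.restrict Aᶜ).map (A.piecewise τ₁ τ₂) = (μ.restrict Aᶜ).map τ₂ := by
      refine Measure.map_congr ?_
      filter_upwards [ae_restrict_mem hAm.compl] with x hx
      exact piecewise_eq_of_notMem _ _ _ hx
    rw [h1, hμP, Measure.restrict_smul, Measure.map_smul, hτ₂map, smul_comm]

/-- splitting with small displacement -/
theorem exists_split_close {X : Type*} [MetricSpace X] [SecondCountableTopology X]
    [MeasurableSpace X] [BorelSpace X] [StandardBorelSpace X]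
    (μ : Measure X) [IsFiniteMeasure μ] [NullSingletonClass μ] {δ : ℝ} (hδ : 0 < δ) :
    ∃ (A : Set X) (τ : X → X), MeasurableSet A ∧ Measurable τ ∧
      (μ.restrict A).map τ = (2 : ℝ≥0∞)⁻¹ • μ ∧ (μ.restrict Aᶜ).map τ = (2 : ℝ≥0∞)⁻¹ • μ ∧
      ∀ᵐ x ∂μ, dist (τ x) x < δ := by
  classical
  rcases isEmpty_or_nonempty X with hX | hX
  · refine ⟨univ, id, MeasurableSet.univ, measurable_id, ?_, ?_, ?_⟩
    · rw [Measure.eq_zero_of_isEmpty μ]; simp
    · rw [Measure.eq_zero_of_isEmpty μ]; simp
    · rw [Measure.eq_zero_of_isEmpty μ]; simp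
  let c : ℕ → X := TopologicalSpace.denseSeq X
  have hc : ∀ x : X, ∃ n, dist x (c n) < δ / 2 := by
    intro x
    have := (TopologicalSpace.denseRange_denseSeq X).exists_dist_lt x (half_pos hδ)
    exact this
  let N : X → ℕ := fun x => Nat.find (hc x)
  have hN : Measurable N := by
    refine measurable_find hc fun n => ?_
    exact measurableSet_lt (measurable_id.dist measurable_const) measurable_const
  have hNd : ∀ x, dist x (c (N x)) < δ / 2 := fun x => Nat.find_spec (hc x)
  let Q : ℕ → Set X := fun n => N ⁻¹' {n}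
  have hQm : ∀ n, MeasurableSet (Q n) := fun n => hN (measurableSet_singleton n)
  have hQd : Pairwise (Function.onFun Disjoint Q) := by
    intro m n hmn
    refine Set.disjoint_left.2 fun x hx hx' => hmn ?_
    exact (show N x = m from hx).symm.trans (show N x = n from hx')
  have hQu : ⋃ n, Q n = univ := by
    refine eq_univ_of_forall fun x => mem_iUnion.2 ⟨N x, rfl⟩
  have hsum : ∀ S : Set X, MeasurableSet S → μ S = ∑' n, μ (Q n ∩ S) := by
    intro S hS
    rw [← measure_iUnion]
    · rw [← iUnion_inter, hQu, univ_inter]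
    · intro m n hmn
      exact (hQd hmn).mono inter_subset_left inter_subset_left
    · exact fun n => (hQm n).inter hS
  choose A τ hA hτ h1 h2 using fun n => exists_split (μ.restrict (Q n))
  let A' : Set X := {x | x ∈ A (N x)}
  let τ' : X → X := fun x => τ (N x) x
  have hA' : MeasurableSet A' := by
    have : A' = ⋃ n, Q n ∩ A n := by
      ext x
      simp only [A', Q, mem_setOf_eq, mem_iUnion, mem_inter_iff, mem_preimage, mem_singleton_iff]
      constructor
      · intro h; exact ⟨N x, rfl, h⟩
      · rintro ⟨n, rfl, h⟩; exact h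
    rw [this]
    exact MeasurableSet.iUnion fun n => (hQm n).inter (hA n)
  have hτ'pre : ∀ B : Set X, τ' ⁻¹' B = ⋃ n, Q n ∩ (τ n) ⁻¹' B := by
    intro B
    ext x
    simp only [τ', Q, mem_iUnion, mem_inter_iff, mem_preimage, mem_singleton_iff]
    constructor
    · intro h; exact ⟨N x, rfl, h⟩
    · rintro ⟨n, rfl, h⟩; exact h
  have hτ' : Measurable τ' := by
    intro B hB
    rw [hτ'pre B]
    exact MeasurableSet.iUnion fun n => (hQm n).inter (hτ n hB)
  have e1 : ∀ n, ∀ B, MeasurableSet B → μ (Q n ∩ (A n ∩ (τ n) ⁻¹' B)) = 2⁻¹ * μ (Q n ∩ B) := by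
    intro n B hB
    have := congrArg (fun m : Measure X => m B) (h1 n)
    simp only [Measure.smul_apply, smul_eq_mul] at this
    rw [Measure.map_apply (hτ n) hB, Measure.restrict_apply (hτ n hB), Measure.restrict_apply
      ((hτ n hB).inter (hA n)), Measure.restrict_apply hB] at this
    rw [inter_comm B] at this
    rw [← this]
    congr 1
    ext x
    simp only [mem_inter_iff, mem_preimage]
    tauto
  have e2 : ∀ n, ∀ B, MeasurableSet B → μ (Q n ∩ ((A n)ᶜ ∩ (τ n) ⁻¹' B)) = 2⁻¹ * μ (Q n ∩ B) := by
    intro n B hB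
    have := congrArg (fun m : Measure X => m B) (h2 n)
    simp only [Measure.smul_apply, smul_eq_mul] at this
    rw [Measure.map_apply (hτ n) hB, Measure.restrict_apply (hτ n hB), Measure.restrict_apply
      ((hτ n hB).inter (hA n).compl), Measure.restrict_apply hB] at this
    rw [inter_comm B] at this
    rw [← this]
    congr 1
    ext x
    simp only [mem_inter_iff, mem_preimage]
    tauto
  refine ⟨A', τ', hA', hτ', ?_, ?_, ?_⟩
  · ext B hB
    rw [Measure.map_apply hτ' hB, Measure.restrict_apply (hτ' hB), Measure.smul_apply, smul_eq_mul,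
      hsum _ ((hτ' hB).inter hA'), hsum B hB, ← ENNReal.tsum_mul_left]
    refine tsum_congr fun n => ?_
    rw [← e1 n B hB]
    congr 1
    ext x
    simp only [mem_inter_iff, mem_preimage, Q, A', τ', mem_singleton_iff, mem_setOf_eq]
    constructor
    · rintro ⟨rfl, h, h'⟩; exact ⟨rfl, h', h⟩
    · rintro ⟨rfl, h, h'⟩; exact ⟨rfl, h', h⟩
  · ext B hB
    rw [Measure.map_apply hτ' hB, Measure.restrict_apply (hτ' hB), Measure.smul_apply, smul_eq_mul,
      hsum _ ((hτ' hB).inter hA'.compl), hsum B hB, ← ENNReal.tsum_mul_left]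
    refine tsum_congr fun n => ?_
    rw [← e2 n B hB]
    congr 1
    ext x
    simp only [mem_inter_iff, mem_preimage, Q, A', τ', mem_singleton_iff, mem_setOf_eq,
      mem_compl_iff]
    constructor
    · rintro ⟨rfl, h, h'⟩; exact ⟨rfl, h', h⟩
    · rintro ⟨rfl, h, h'⟩; exact ⟨rfl, h', h⟩
  · have hbad : ∀ n, μ (Q n ∩ (τ n) ⁻¹' (Q n)ᶜ) = 0 := by
      intro n
      have g1 := e1 n (Q n)ᶜ (hQm n).compl
      have g2 := e2 n (Q n)ᶜ (hQm n).compl
      rw [inter_compl_self, measure_empty, mul_zero] at g1 g2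
      refine measure_mono_null ?_ (measure_union_null g1 g2)
      intro x hx
      by_cases hxA : x ∈ A n
      · exact Or.inl ⟨hx.1, hxA, hx.2⟩
      · exact Or.inr ⟨hx.1, hxA, hx.2⟩
    rw [ae_iff]
    refine measure_mono_null ?_ (measure_iUnion_null hbad)
    intro x hx
    rw [mem_iUnion]
    refine ⟨N x, rfl, ?_⟩
    intro hxq
    apply hx
    have h3 : N (τ (N x) x) = N x := hxq
    have h4 := hNd (τ (N x) x)
    rw [h3] at h4
    have h5 := hNd x
    calc dist (τ (N x) x) x ≤ dist (τ (N x) x) (c (N x)) + dist (c (N x)) x := dist_triangle _ _ _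
      _ < δ / 2 + δ / 2 := by
          rw [dist_comm (c (N x)) x]
          exact add_lt_add h4 h5
      _ = δ := by ring

end Crest.Agent.S0175Aux
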