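import Mathlib
import Crest.Prelude.Def_MultiMarginal
import Crest.Agent.S0175Aux.Split

/-!
Helper module for S0175 (helper31): the abstract transport argument.
-/

set_option autoImplicit false
open MeasureTheory Filter Topology Set
open scoped ENNReal
open Crest.AnalysisR.OT

namespace Crest.Agent.S0175Aux

/-- sign of the label -/
noncomputable def tt (i : Fin 5) : ℝ := ![0, 1, 1, -1, -1] i

/-- labels of a contact triple -/
def Good (i j k : Fin 5) : Prop :=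
  (tt i + tt j + tt k = 2 ∧ 0 ≤ tt i) ∨ (tt i + tt j + tt k = -2 ∧ tt i ≤ 0)

lemma abs_tt_le (i : Fin 5) : |tt i| ≤ 1 := by
  fin_cases i <;> simp [tt]

/-- the marginal -/
noncomputable def marg {X : Type*} [MeasurableSpace X] (α : Measure X) (b₁ d₁ b₂ d₂ : X → X) :
    Measure X :=
  α + (2 : ℝ≥0∞)⁻¹ • (α.map b₁ + α.map d₁ + α.map b₂ + α.map d₂)

lemma half_add_half {X : Type*} [MeasurableSpace X] (m : Measure X) :
    (2 : ℝ≥0∞)⁻¹ • m + (2 : ℝ≥0∞)⁻¹ • m = m := by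
  rw [← add_smul, ENNReal.inv_two_add_inv_two, one_smul]

section

variable {X : Type*} [MeasurableSpace X]

lemma lintegral_marg (α : Measure X) {b₁ d₁ b₂ d₂ : X → X} (hb₁ : Measurable b₁)
    (hd₁ : Measurable d₁) (hb₂ : Measurable b₂) (hd₂ : Measurable d₂) {f : X → ℝ≥0∞}
    (hf : Measurable f) :
    ∫⁻ x, f x ∂(marg α b₁ d₁ b₂ d₂) = ∫⁻ a, f a ∂α + 2⁻¹ * (∫⁻ a, f (b₁ a) ∂α +
      ∫⁻ a, f (d₁ a) ∂α + ∫⁻ a, f (b₂ a) ∂α + ∫⁻ a, f (d₂ a) ∂α) := by
  unfold marg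
  rw [lintegral_add_measure, lintegral_smul_measure, lintegral_add_measure, lintegral_add_measure,
    lintegral_add_measure, lintegral_map hf hb₁, lintegral_map hf hd₁, lintegral_map hf hb₂,
    lintegral_map hf hd₂, smul_eq_mul]

lemma integral_marg (α : Measure X) [IsFiniteMeasure α] {b₁ d₁ b₂ d₂ : X → X} (hb₁ : Measurable b₁)
    (hd₁ : Measurable d₁) (hb₂ : Measurable b₂) (hd₂ : Measurable d₂) {f : X → ℝ}
    (hf : Measurable f) {C : ℝ} (hC : ∀ x, |f x| ≤ C) :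
    ∫ x, f x ∂(marg α b₁ d₁ b₂ d₂) = ∫ a, f a ∂α + (1 / 2) * (∫ a, f (b₁ a) ∂α +
      ∫ a, f (d₁ a) ∂α + ∫ a, f (b₂ a) ∂α + ∫ a, f (d₂ a) ∂α) := by
  have hint : ∀ (m : Measure X) [IsFiniteMeasure m], Integrable f m := by
    intro m _
    exact Integrable.of_bound hf.aestronglyMeasurable C (Eventually.of_forall fun x => hC x)
  unfold marg
  rw [integral_add_measure (hint _) ((hint _).smul_measure (by simp)), integral_smul_measure,
    integral_add_measure (hint _) (hint _), integral_add_measure (hint _) (hint _),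
    integral_add_measure (hint _) (hint _), integral_map hb₁.aemeasurable hf.aestronglyMeasurable,
    integral_map hd₁.aemeasurable hf.aestronglyMeasurable,
    integral_map hb₂.aemeasurable hf.aestronglyMeasurable,
    integral_map hd₂.aemeasurable hf.aestronglyMeasurable]
  simp

end

section Main

variable {X : Type*} [MetricSpace X] [SecondCountableTopology X] [MeasurableSpace X] [BorelSpace X]
  [StandardBorelSpace X]

/-- the optimal plan -/
noncomputable def plan (α : Measure X) (b₁ d₁ b₂ d₂ : X → X) : Measure (X × X × X) :=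
  (2 : ℝ≥0∞)⁻¹ • (α.map (fun a => (a, b₁ a, d₁ a)) + α.map (fun a => (b₁ a, d₁ a, a)) +
    α.map (fun a => (d₁ a, a, b₁ a)) + α.map (fun a => (a, b₂ a, d₂ a)) +
    α.map (fun a => (b₂ a, d₂ a, a)) + α.map (fun a => (d₂ a, a, b₂ a)))

lemma lintegral_plan (α : Measure X) {b₁ d₁ b₂ d₂ : X → X} (hb₁ : Measurable b₁)
    (hd₁ : Measurable d₁) (hb₂ : Measurable b₂) (hd₂ : Measurable d₂) {f : X × X × X → ℝ≥0∞}
    (hf : Measurable f) :
    ∫⁻ p, f p ∂(plan α b₁ d₁ b₂ d₂) = 2⁻¹ * (∫⁻ a, f (a, b₁ a, d₁ a) ∂α +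
      ∫⁻ a, f (b₁ a, d₁ a, a) ∂α + ∫⁻ a, f (d₁ a, a, b₁ a) ∂α + ∫⁻ a, f (a, b₂ a, d₂ a) ∂α +
      ∫⁻ a, f (b₂ a, d₂ a, a) ∂α + ∫⁻ a, f (d₂ a, a, b₂ a) ∂α) := by
  unfold plan
  rw [lintegral_smul_measure, lintegral_add_measure, lintegral_add_measure,
    lintegral_add_measure, lintegral_add_measure, lintegral_add_measure,
    lintegral_map hf (by fun_prop), lintegral_map hf (by fun_prop), lintegral_map hf (by fun_prop),
    lintegral_map hf (by fun_prop), lintegral_map hf (by fun_prop), lintegral_map hf (by fun_prop),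
    smul_eq_mul]

lemma plan_coupling (α : Measure X) {b₁ d₁ b₂ d₂ : X → X} (hb₁ : Measurable b₁)
    (hd₁ : Measurable d₁) (hb₂ : Measurable b₂) (hd₂ : Measurable d₂) :
    IsCoupling₃ (marg α b₁ d₁ b₂ d₂) (plan α b₁ d₁ b₂ d₂) := by
  have half : ∀ x : ℝ≥0∞, 2⁻¹ * x + 2⁻¹ * x = x := by
    intro x
    rw [← add_mul, ENNReal.inv_two_add_inv_two, one_mul]
  have key : ∀ (f : X × X × X → X), Measurable f →
      (∀ g : X → ℝ≥0∞, Measurable g → 2⁻¹ * (∫⁻ a, g (f (a, b₁ a, d₁ a)) ∂α +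
        ∫⁻ a, g (f (b₁ a, d₁ a, a)) ∂α + ∫⁻ a, g (f (d₁ a, a, b₁ a)) ∂α +
        ∫⁻ a, g (f (a, b₂ a, d₂ a)) ∂α + ∫⁻ a, g (f (b₂ a, d₂ a, a)) ∂α +
        ∫⁻ a, g (f (d₂ a, a, b₂ a)) ∂α) = ∫⁻ a, g a ∂α + 2⁻¹ * (∫⁻ a, g (b₁ a) ∂α +
      ∫⁻ a, g (d₁ a) ∂α + ∫⁻ a, g (b₂ a) ∂α + ∫⁻ a, g (d₂ a) ∂α)) →
      (plan α b₁ d₁ b₂ d₂).map f = marg α b₁ d₁ b₂ d₂ := by
    intro f hf h
    refine Measure.ext_of_lintegral _ fun g hg => ?_
    rw [lintegral_map hg hf, lintegral_plan α hb₁ hd₁ hb₂ hd₂ (f := fun p => g (f p)) (hg.comp hf),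
      lintegral_marg α hb₁ hd₁ hb₂ hd₂ hg]
    exact h g hg
  refine ⟨key _ (by fun_prop) ?_, key _ (by fun_prop) ?_, key _ (by fun_prop) ?_⟩
  · intro g hg
    dsimp only
    conv_rhs => rw [← half (∫⁻ a, g a ∂α)]
    ring
  · intro g hg
    dsimp only
    conv_rhs => rw [← half (∫⁻ a, g a ∂α)]
    ring
  · intro g hg
    dsimp only
    conv_rhs => rw [← half (∫⁻ a, g a ∂α)]
    ring

theorem transport_main (α : Measure X) [NullSingletonClass α] (hα : α univ = 3⁻¹)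
    (A : Set X) (hαA : ∀ᵐ a ∂α, a ∈ A)
    (b₁ d₁ b₂ d₂ : X → X) (hb₁ : Measurable b₁)
    (hd₁ : Measurable d₁) (hb₂ : Measurable b₂) (hd₂ : Measurable d₂)
    (ψ : X → X) (hψ : Measurable ψ) (l : X → Fin 5) (hl : Measurable l)
    (S : Set X) (hS : MeasurableSet S) (hAS : ∀ a ∈ A, a ∈ S) (hb₁S : ∀ a ∈ A, b₁ a ∈ S)
    (hd₁S : ∀ a ∈ A, d₁ a ∈ S) (hb₂S : ∀ a ∈ A, b₂ a ∈ S) (hd₂S : ∀ a ∈ A, d₂ a ∈ S)
    (hψ0 : ∀ a ∈ A, ψ a = a) (hψ1 : ∀ a ∈ A, ψ (b₁ a) = a) (hψ2 : ∀ a ∈ A, ψ (d₁ a) = a)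
    (hψ3 : ∀ a ∈ A, ψ (b₂ a) = a) (hψ4 : ∀ a ∈ A, ψ (d₂ a) = a)
    (hl0 : ∀ a ∈ A, l a = 0) (hl1 : ∀ a ∈ A, l (b₁ a) = 1) (hl2 : ∀ a ∈ A, l (d₁ a) = 2)
    (hl3 : ∀ a ∈ A, l (b₂ a) = 3) (hl4 : ∀ a ∈ A, l (d₂ a) = 4)
    (c : X × X × X → ℝ≥0∞) (hc : Measurable c)
    (U : X → ℝ≥0∞) (hU : Measurable U) (M : ℝ≥0∞) (hM : M ≠ ⊤) (CU : ℝ≥0∞) (hCU : CU ≠ ⊤)
    (hUb : ∀ x, U x ≤ CU)
    (hle : ∀ x ∈ S, ∀ y ∈ S, ∀ z ∈ S, U x + U y + U z ≤ c (x, y, z) + M)
    (hcontact : ∀ x ∈ S, ∀ y ∈ S, ∀ z ∈ S, U x + U y + U z = c (x, y, z) + M →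
      ψ x = ψ y ∧ ψ x = ψ z ∧ Good (l x) (l y) (l z))
    (h11 : ∀ a ∈ A, c (a, b₁ a, d₁ a) + M = U a + U (b₁ a) + U (d₁ a))
    (h12 : ∀ a ∈ A, c (b₁ a, d₁ a, a) + M = U a + U (b₁ a) + U (d₁ a))
    (h13 : ∀ a ∈ A, c (d₁ a, a, b₁ a) + M = U a + U (b₁ a) + U (d₁ a))
    (h21 : ∀ a ∈ A, c (a, b₂ a, d₂ a) + M = U a + U (b₂ a) + U (d₂ a))
    (h22 : ∀ a ∈ A, c (b₂ a, d₂ a, a) + M = U a + U (b₂ a) + U (d₂ a))
    (h23 : ∀ a ∈ A, c (d₂ a, a, b₂ a) + M = U a + U (b₂ a) + U (d₂ a))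
    (huc : ∀ ε : ℝ≥0∞, 0 < ε → ∃ δ : ℝ, 0 < δ ∧ ∀ a ∈ A, ∀ a' ∈ A, dist a' a < δ →
      c (a, b₁ a', d₁ a') ≤ c (a', b₁ a', d₁ a') + ε ∧
      c (a, b₂ a', d₂ a') ≤ c (a', b₂ a', d₂ a') + ε) :
    IsCoupling₃ (marg α b₁ d₁ b₂ d₂) (plan α b₁ d₁ b₂ d₂) ∧
    ∫⁻ p, c p ∂(plan α b₁ d₁ b₂ d₂) < ⊤ ∧
    (∀ π : Measure (X × X × X), IsCoupling₃ (marg α b₁ d₁ b₂ d₂) π →
      ∫⁻ p, c p ∂(plan α b₁ d₁ b₂ d₂) ≤ ∫⁻ p, c p ∂π) ∧
    (∀ T₂ T₃ : X → X, Measurable T₂ → Measurable T₃ →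
      (marg α b₁ d₁ b₂ d₂).map T₂ = marg α b₁ d₁ b₂ d₂ →
      (marg α b₁ d₁ b₂ d₂).map T₃ = marg α b₁ d₁ b₂ d₂ →
      ∫⁻ p, c p ∂(plan α b₁ d₁ b₂ d₂) < ∫⁻ x, c (x, T₂ x, T₃ x) ∂(marg α b₁ d₁ b₂ d₂)) ∧
    (∀ ε : ℝ≥0∞, 0 < ε → ∃ T₂ T₃ : X → X, Measurable T₂ ∧ Measurable T₃ ∧
      (marg α b₁ d₁ b₂ d₂).map T₂ = marg α b₁ d₁ b₂ d₂ ∧
      (marg α b₁ d₁ b₂ d₂).map T₃ = marg α b₁ d₁ b₂ d₂ ∧
      ∫⁻ x, c (x, T₂ x, T₃ x) ∂(marg α b₁ d₁ b₂ d₂) <
        ∫⁻ p, c p ∂(plan α b₁ d₁ b₂ d₂) + ε) := by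
  classical
  have hfin : IsFiniteMeasure α := ⟨by rw [hα]; simp⟩
  set μ := marg α b₁ d₁ b₂ d₂ with hμ
  set π₀ := plan α b₁ d₁ b₂ d₂ with hπ₀
  have half : ∀ x : ℝ≥0∞, 2⁻¹ * x + 2⁻¹ * x = x := by
    intro x
    rw [← add_mul, ENNReal.inv_two_add_inv_two, one_mul]
  have h2inv : (2 : ℝ≥0∞)⁻¹ * 2 = 1 := ENNReal.inv_mul_cancel (by norm_num) (by norm_num)
  have h3inv : (3 : ℝ≥0∞)⁻¹ * 3 = 1 := ENNReal.inv_mul_cancel (by norm_num) (by norm_num)
  have hcoup : IsCoupling₃ μ π₀ := plan_coupling α hb₁ hd₁ hb₂ hd₂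
  -- total mass of the marginal
  have hμ1 : μ univ = 1 := by
    have h1 := lintegral_marg α hb₁ hd₁ hb₂ hd₂ (f := fun _ => 1) measurable_const
    simp only [lintegral_const, one_mul, hα] at h1
    rw [← hμ] at h1
    rw [h1]
    calc (3 : ℝ≥0∞)⁻¹ + 2⁻¹ * (3⁻¹ + 3⁻¹ + 3⁻¹ + 3⁻¹) = 3⁻¹ * (1 + 2⁻¹ * 2 * 2) := by ring
      _ = 3⁻¹ * 3 := by rw [h2inv]; norm_num
      _ = 1 := h3inv
  have hπmass : ∀ π : Measure (X × X × X), IsCoupling₃ μ π → π univ = 1 := by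
    intro π hπ
    rw [← hμ1, ← hπ.1, Measure.map_apply (by fun_prop) MeasurableSet.univ, preimage_univ]
  have hμfin : IsFiniteMeasure μ := ⟨by rw [hμ1]; simp⟩
  -- the marginal is concentrated on `S`
  have hμae : ∀ P : X → Prop, MeasurableSet {x | P x} → (∀ᵐ a ∂α, P a) → (∀ᵐ a ∂α, P (b₁ a)) →
      (∀ᵐ a ∂α, P (d₁ a)) → (∀ᵐ a ∂α, P (b₂ a)) → (∀ᵐ a ∂α, P (d₂ a)) → ∀ᵐ x ∂μ, P x := by
    intro P hP h0 h1 h2 h3 h4
    rw [hμ, marg, ae_add_measure_iff]
    refine ⟨h0, ?_⟩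
    rw [Measure.ae_ennreal_smul_measure_iff (by simp), ae_add_measure_iff, ae_add_measure_iff,
      ae_add_measure_iff, ae_map_iff hb₁.aemeasurable hP, ae_map_iff hd₁.aemeasurable hP,
      ae_map_iff hb₂.aemeasurable hP, ae_map_iff hd₂.aemeasurable hP]
    exact ⟨⟨⟨h1, h2⟩, h3⟩, h4⟩
  have hμS : ∀ᵐ x ∂μ, x ∈ S := by
    refine hμae _ hS ?_ ?_ ?_ ?_ ?_
    · filter_upwards [hαA] with a ha using hAS a ha
    · filter_upwards [hαA] with a ha using hb₁S a ha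
    · filter_upwards [hαA] with a ha using hd₁S a ha
    · filter_upwards [hαA] with a ha using hb₂S a ha
    · filter_upwards [hαA] with a ha using hd₂S a ha
  -- conversely
  have hμae' : ∀ P : X → Prop, (∀ᵐ x ∂μ, P x) → (∀ᵐ a ∂α, P a) ∧ (∀ᵐ a ∂α, P (b₁ a)) ∧
      (∀ᵐ a ∂α, P (d₁ a)) ∧ (∀ᵐ a ∂α, P (b₂ a)) ∧ (∀ᵐ a ∂α, P (d₂ a)) := by
    intro P h
    rw [hμ, marg, ae_add_measure_iff, Measure.ae_ennreal_smul_measure_iff (by simp),
      ae_add_measure_iff, ae_add_measure_iff, ae_add_measure_iff] at h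
    obtain ⟨h0, ⟨⟨⟨h1, h2⟩, h3⟩, h4⟩⟩ := h
    exact ⟨h0, ae_of_ae_map hb₁.aemeasurable h1, ae_of_ae_map hd₁.aemeasurable h2,
      ae_of_ae_map hb₂.aemeasurable h3, ae_of_ae_map hd₂.aemeasurable h4⟩
  -- integral of the potential against a coupling
  have hUπ : ∀ π : Measure (X × X × X), IsCoupling₃ μ π →
      ∫⁻ p, (U p.1 + U p.2.1 + U p.2.2) ∂π = 3 * ∫⁻ x, U x ∂μ := by
    intro π hπ
    rw [lintegral_add_left (by fun_prop), lintegral_add_left (by fun_prop)]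
    have e1 : ∫⁻ p : X × X × X, U p.1 ∂π = ∫⁻ x, U x ∂μ := by
      conv_rhs => rw [← hπ.1]
      rw [lintegral_map hU (by fun_prop)]
    have e2 : ∫⁻ p : X × X × X, U p.2.1 ∂π = ∫⁻ x, U x ∂μ := by
      conv_rhs => rw [← hπ.2.1]
      rw [lintegral_map hU (by fun_prop)]
    have e3 : ∫⁻ p : X × X × X, U p.2.2 ∂π = ∫⁻ x, U x ∂μ := by
      conv_rhs => rw [← hπ.2.2]
      rw [lintegral_map hU (by fun_prop)]
    rw [e1, e2, e3]
    ring
  have hUfin : ∫⁻ x, U x ∂μ ≠ ⊤ := by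
    have : ∫⁻ x, U x ∂μ ≤ ∫⁻ _x, CU ∂μ := lintegral_mono hUb
    rw [lintegral_const, hμ1, mul_one] at this
    exact ne_top_of_le_ne_top hCU this
  have h3Ufin : 3 * ∫⁻ x, U x ∂μ ≠ ⊤ := ENNReal.mul_ne_top (by norm_num) hUfin
  -- lower bound for couplings
  have hlow : ∀ π : Measure (X × X × X), IsCoupling₃ μ π →
      3 * ∫⁻ x, U x ∂μ ≤ ∫⁻ p, c p ∂π + M := by
    intro π hπ
    have hS1 : ∀ᵐ p ∂π, p.1 ∈ S := by
      have := hμS
      rw [← hπ.1] at this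
      exact ae_of_ae_map (by fun_prop) this
    have hS2 : ∀ᵐ p ∂π, p.2.1 ∈ S := by
      have := hμS
      rw [← hπ.2.1] at this
      exact ae_of_ae_map (by fun_prop) this
    have hS3 : ∀ᵐ p ∂π, p.2.2 ∈ S := by
      have := hμS
      rw [← hπ.2.2] at this
      exact ae_of_ae_map (by fun_prop) this
    rw [← hUπ π hπ]
    have hmass := hπmass π hπ
    calc ∫⁻ p, (U p.1 + U p.2.1 + U p.2.2) ∂π ≤ ∫⁻ p, (c p + M) ∂π := by
          refine lintegral_mono_ae ?_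
          filter_upwards [hS1, hS2, hS3] with p h1 h2 h3
          exact hle _ h1 _ h2 _ h3
      _ = ∫⁻ p, c p ∂π + M := by
          rw [lintegral_add_right _ measurable_const, lintegral_const, hmass, mul_one]
  -- cost of the plan
  have hcost : ∫⁻ p, c p ∂π₀ + M = 3 * ∫⁻ x, U x ∂μ := by
    have hmass := hπmass π₀ hcoup
    rw [← hUπ π₀ hcoup]
    have e0 : ∫⁻ p, c p ∂π₀ + M = ∫⁻ p, (c p + M) ∂π₀ := by
      rw [lintegral_add_right _ measurable_const, lintegral_const, hmass, mul_one]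
    rw [e0, hπ₀, lintegral_plan α hb₁ hd₁ hb₂ hd₂ (hc.add_const M),
      lintegral_plan α hb₁ hd₁ hb₂ hd₂ (f := fun p => U p.1 + U p.2.1 + U p.2.2) (by fun_prop)]
    congr 1
    have g11 : ∫⁻ a, (c (a, b₁ a, d₁ a) + M) ∂α = ∫⁻ a, (U a + U (b₁ a) + U (d₁ a)) ∂α := by
      refine lintegral_congr_ae ?_
      filter_upwards [hαA] with a ha using h11 a ha
    have g12 : ∫⁻ a, (c (b₁ a, d₁ a, a) + M) ∂α = ∫⁻ a, (U (b₁ a) + U (d₁ a) + U a) ∂α := by
      refine lintegral_congr_ae ?_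
      filter_upwards [hαA] with a ha
      rw [h12 a ha]; ring
    have g13 : ∫⁻ a, (c (d₁ a, a, b₁ a) + M) ∂α = ∫⁻ a, (U (d₁ a) + U a + U (b₁ a)) ∂α := by
      refine lintegral_congr_ae ?_
      filter_upwards [hαA] with a ha
      rw [h13 a ha]; ring
    have g21 : ∫⁻ a, (c (a, b₂ a, d₂ a) + M) ∂α = ∫⁻ a, (U a + U (b₂ a) + U (d₂ a)) ∂α := by
      refine lintegral_congr_ae ?_
      filter_upwards [hαA] with a ha using h21 a ha
    have g22 : ∫⁻ a, (c (b₂ a, d₂ a, a) + M) ∂α = ∫⁻ a, (U (b₂ a) + U (d₂ a) + U a) ∂α := by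
      refine lintegral_congr_ae ?_
      filter_upwards [hαA] with a ha
      rw [h22 a ha]; ring
    have g23 : ∫⁻ a, (c (d₂ a, a, b₂ a) + M) ∂α = ∫⁻ a, (U (d₂ a) + U a + U (b₂ a)) ∂α := by
      refine lintegral_congr_ae ?_
      filter_upwards [hαA] with a ha
      rw [h23 a ha]; ring
    rw [g11, g12, g13, g21, g22, g23]
  have hcostfin : ∫⁻ p, c p ∂π₀ < ⊤ := by
    rw [lt_top_iff_ne_top]
    intro h
    rw [h, top_add] at hcost
    exact h3Ufin hcost.symm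
  refine ⟨hcoup, hcostfin, ?_, ?_, ?_⟩
  · -- optimality
    intro π hπ
    have := hlow π hπ
    rw [← hcost] at this
    exact (ENNReal.add_le_add_iff_right hM).1 this
  · -- no map attains the minimum
    intro T₂ T₃ hT₂ hT₃ hT₂μ hT₃μ
    by_contra hcon
    push Not at hcon
    have hS2 : ∀ᵐ x ∂μ, T₂ x ∈ S := by
      have := hμS
      rw [← hT₂μ] at this
      exact ae_of_ae_map hT₂.aemeasurable this
    have hS3 : ∀ᵐ x ∂μ, T₃ x ∈ S := by
      have := hμS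
      rw [← hT₃μ] at this
      exact ae_of_ae_map hT₃.aemeasurable this
    have hUT : ∫⁻ x, (U x + U (T₂ x) + U (T₃ x)) ∂μ = 3 * ∫⁻ x, U x ∂μ := by
      rw [lintegral_add_left (by fun_prop), lintegral_add_left (by fun_prop)]
      have e2 : ∫⁻ x, U (T₂ x) ∂μ = ∫⁻ x, U x ∂μ := by
        conv_rhs => rw [← hT₂μ]
        rw [lintegral_map hU hT₂]
      have e3 : ∫⁻ x, U (T₃ x) ∂μ = ∫⁻ x, U x ∂μ := by
        conv_rhs => rw [← hT₃μ]
        rw [lintegral_map hU hT₃]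
      rw [e2, e3]
      ring
    have hae : (fun x => U x + U (T₂ x) + U (T₃ x)) =ᵐ[μ] fun x => c (x, T₂ x, T₃ x) + M := by
      refine ae_eq_of_ae_le_of_lintegral_le ?_ ?_ ?_ ?_
      · filter_upwards [hμS, hS2, hS3] with x h1 h2 h3
        exact hle _ h1 _ h2 _ h3
      · rw [hUT]; exact h3Ufin
      · exact ((hc.comp (by fun_prop)).add_const M).aemeasurable
      · rw [hUT, lintegral_add_right _ measurable_const, lintegral_const, hμ1, mul_one, ← hcost]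
        gcongr
    have hgood : ∀ᵐ x ∂μ, ψ x = ψ (T₂ x) ∧ ψ x = ψ (T₃ x) ∧ Good (l x) (l (T₂ x)) (l (T₃ x)) := by
      filter_upwards [hμS, hS2, hS3, hae] with x h1 h2 h3 h4
      exact hcontact _ h1 _ h2 _ h3 h4
    have htt : Measurable tt := measurable_of_countable _
    let ss : X → ℝ := fun x => tt (l x) + tt (l (T₂ x)) + tt (l (T₃ x))
    have hss : Measurable ss := by
      have m1 := htt.comp hl
      have m2 := htt.comp (hl.comp hT₂)
      have m3 := htt.comp (hl.comp hT₃)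
      exact (m1.add m2).add m3
    have hssb : ∀ x, |ss x| ≤ 3 := by
      intro x
      calc |ss x| ≤ |tt (l x) + tt (l (T₂ x))| + |tt (l (T₃ x))| := abs_add_le _ _
        _ ≤ |tt (l x)| + |tt (l (T₂ x))| + |tt (l (T₃ x))| := by
            gcongr
            exact abs_add_le _ _
        _ ≤ 1 + 1 + 1 := by
            gcongr <;> exact abs_tt_le _
        _ = 3 := by norm_num
    let w : X → ℝ := fun x => tt (l x) * ss (ψ x)
    have hw : Measurable w := (htt.comp hl).mul (hss.comp hψ)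
    have hwb : ∀ x, |w x| ≤ 3 := by
      intro x
      rw [abs_mul]
      calc |tt (l x)| * |ss (ψ x)| ≤ 1 * 3 :=
            mul_le_mul (abs_tt_le _) (hssb _) (abs_nonneg _) (by norm_num)
        _ = 3 := by norm_num
    have hintw : Integrable w μ :=
      Integrable.of_bound hw.aestronglyMeasurable 3 (Eventually.of_forall fun x => hwb x)
    have hintw2 : Integrable (fun x => w (T₂ x)) μ :=
      Integrable.of_bound (hw.comp hT₂).aestronglyMeasurable 3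
        (Eventually.of_forall fun x => hwb _)
    have hintw3 : Integrable (fun x => w (T₃ x)) μ :=
      Integrable.of_bound (hw.comp hT₃).aestronglyMeasurable 3
        (Eventually.of_forall fun x => hwb _)
    -- the integral of `w` vanishes
    have hw0 : ∫ x, w x ∂μ = 0 := by
      rw [hμ, integral_marg α hb₁ hd₁ hb₂ hd₂ hw hwb]
      have e0 : ∫ a, w a ∂α = 0 := by
        rw [← integral_zero X ℝ (μ := α)]
        refine integral_congr_ae ?_
        filter_upwards [hαA] with a ha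
        simp [w, hl0 a ha, tt]
      have e1 : ∫ a, w (b₁ a) ∂α = ∫ a, ss a ∂α := by
        refine integral_congr_ae ?_
        filter_upwards [hαA] with a ha
        simp [w, hl1 a ha, hψ1 a ha, tt]
      have e2 : ∫ a, w (d₁ a) ∂α = ∫ a, ss a ∂α := by
        refine integral_congr_ae ?_
        filter_upwards [hαA] with a ha
        simp [w, hl2 a ha, hψ2 a ha, tt]
      have e3 : ∫ a, w (b₂ a) ∂α = - ∫ a, ss a ∂α := by
        rw [← integral_neg]
        refine integral_congr_ae ?_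
        filter_upwards [hαA] with a ha
        simp [w, hl3 a ha, hψ3 a ha, tt]
      have e4 : ∫ a, w (d₂ a) ∂α = - ∫ a, ss a ∂α := by
        rw [← integral_neg]
        refine integral_congr_ae ?_
        filter_upwards [hαA] with a ha
        simp [w, hl4 a ha, hψ4 a ha, tt]
      rw [e0, e1, e2, e3, e4]
      ring
    have hw2 : ∫ x, w (T₂ x) ∂μ = 0 := by
      rw [← hw0]
      conv_rhs => rw [← hT₂μ]
      rw [integral_map hT₂.aemeasurable hw.aestronglyMeasurable]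
    have hw3 : ∫ x, w (T₃ x) ∂μ = 0 := by
      rw [← hw0]
      conv_rhs => rw [← hT₃μ]
      rw [integral_map hT₃.aemeasurable hw.aestronglyMeasurable]
    have hsum : ∫ x, (w x + w (T₂ x) + w (T₃ x)) ∂μ = 0 := by
      have q1 : ∫ x, (w x + w (T₂ x) + w (T₃ x)) ∂μ =
          ∫ x, (w x + w (T₂ x)) ∂μ + ∫ x, w (T₃ x) ∂μ :=
        integral_add (f := fun x => w x + w (T₂ x)) (hintw.add hintw2) hintw3
      have q2 : ∫ x, (w x + w (T₂ x)) ∂μ = ∫ x, w x ∂μ + ∫ x, w (T₂ x) ∂μ :=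
        integral_add hintw hintw2
      rw [q1, q2, hw0, hw2, hw3]
      norm_num
    let f : X → ℝ := fun x => ss x * ss (ψ x)
    have hf : Measurable f := hss.mul (hss.comp hψ)
    have hfb : ∀ x, |f x| ≤ 9 := by
      intro x
      rw [abs_mul]
      calc |ss x| * |ss (ψ x)| ≤ 3 * 3 :=
            mul_le_mul (hssb _) (hssb _) (abs_nonneg _) (by norm_num)
        _ = 9 := by norm_num
    have hfsum : ∫ x, f x ∂μ = 0 := by
      rw [← hsum]
      refine integral_congr_ae ?_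
      filter_upwards [hgood] with x hx
      obtain ⟨h1, h2, -⟩ := hx
      simp only [f, w, ← h1, ← h2]
      ring
    rw [hμ, integral_marg α hb₁ hd₁ hb₂ hd₂ hf hfb] at hfsum
    obtain ⟨G0, G1, G2, G3, G4⟩ := hμae' _ hgood
    have f0 : ∫ a, f a ∂α = 4 * (1 / 3) := by
      have : ∫ a, f a ∂α = ∫ _a, (4 : ℝ) ∂α := by
        refine integral_congr_ae ?_
        filter_upwards [hαA, G0] with a ha hG
        obtain ⟨-, -, hG⟩ := hG
        simp only [f, hψ0 a ha]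
        rcases hG with ⟨h, -⟩ | ⟨h, -⟩
        · simp only [ss, h]; norm_num
        · simp only [ss, h]; norm_num
      rw [this, integral_const, measureReal_def, hα]
      simp
      norm_num
    have f1 : ∫ a, f (b₁ a) ∂α = 2 * ∫ a, ss a ∂α := by
      rw [← integral_const_mul]
      refine integral_congr_ae ?_
      filter_upwards [hαA, G1] with a ha hG
      obtain ⟨-, -, hG⟩ := hG
      simp only [f, hψ1 a ha]
      rcases hG with ⟨h, -⟩ | ⟨h, h'⟩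
      · simp only [ss, h]
      · rw [hl1 a ha] at h'
        exfalso
        simp [tt] at h'
        linarith
    have f2 : ∫ a, f (d₁ a) ∂α = 2 * ∫ a, ss a ∂α := by
      rw [← integral_const_mul]
      refine integral_congr_ae ?_
      filter_upwards [hαA, G2] with a ha hG
      obtain ⟨-, -, hG⟩ := hG
      simp only [f, hψ2 a ha]
      rcases hG with ⟨h, -⟩ | ⟨h, h'⟩
      · simp only [ss, h]
      · rw [hl2 a ha] at h'
        exfalso
        simp [tt] at h'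
        linarith
    have f3 : ∫ a, f (b₂ a) ∂α = (-2) * ∫ a, ss a ∂α := by
      rw [← integral_const_mul]
      refine integral_congr_ae ?_
      filter_upwards [hαA, G3] with a ha hG
      obtain ⟨-, -, hG⟩ := hG
      simp only [f, hψ3 a ha]
      rcases hG with ⟨h, h'⟩ | ⟨h, -⟩
      · rw [hl3 a ha] at h'
        exfalso
        simp [tt] at h'
        linarith
      · simp only [ss, h]
    have f4 : ∫ a, f (d₂ a) ∂α = (-2) * ∫ a, ss a ∂α := by
      rw [← integral_const_mul]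
      refine integral_congr_ae ?_
      filter_upwards [hαA, G4] with a ha hG
      obtain ⟨-, -, hG⟩ := hG
      simp only [f, hψ4 a ha]
      rcases hG with ⟨h, h'⟩ | ⟨h, -⟩
      · rw [hl4 a ha] at h'
        exfalso
        simp [tt] at h'
        linarith
      · simp only [ss, h]
    rw [f0, f1, f2, f3, f4] at hfsum
    linarith
  · -- maps approach the minimum
    intro ε hε
    obtain ⟨ε₁, hε₁, hε₁ε⟩ := exists_between hε
    obtain ⟨δ, hδ, hδc⟩ := huc ε₁ hε₁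
    obtain ⟨A', τ, hA', hτ, hτ1, hτ2, hτd⟩ := exists_split_close α hδ
    let G₂ : Fin 5 → X → X := ![fun x => if x ∈ A' then b₁ (τ x) else b₂ (τ x),
      fun x => d₁ (ψ x), fun x => ψ x, fun x => d₂ (ψ x), fun x => ψ x]
    let G₃ : Fin 5 → X → X := ![fun x => if x ∈ A' then d₁ (τ x) else d₂ (τ x),
      fun x => ψ x, fun x => b₁ (ψ x), fun x => ψ x, fun x => b₂ (ψ x)]
    have hG₂ : ∀ i, Measurable (G₂ i) := by
      intro i
      fin_cases i
      · exact Measurable.ite hA' (hb₁.comp hτ) (hb₂.comp hτ)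
      · exact hd₁.comp hψ
      · exact hψ
      · exact hd₂.comp hψ
      · exact hψ
    have hG₃ : ∀ i, Measurable (G₃ i) := by
      intro i
      fin_cases i
      · exact Measurable.ite hA' (hd₁.comp hτ) (hd₂.comp hτ)
      · exact hψ
      · exact hb₁.comp hψ
      · exact hψ
      · exact hb₂.comp hψ
    let T₂ : X → X := fun x => G₂ (l x) x
    let T₃ : X → X := fun x => G₃ (l x) x
    have hT₂ : Measurable T₂ :=
      (measurable_from_prod_countable_right (f := fun p : Fin 5 × X => G₂ p.1 p.2) hG₂).comp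
        (hl.prodMk measurable_id)
    have hT₃ : Measurable T₃ :=
      (measurable_from_prod_countable_right (f := fun p : Fin 5 × X => G₃ p.1 p.2) hG₃).comp
        (hl.prodMk measurable_id)
    -- values of the maps
    have v20 : ∀ a ∈ A, T₂ a = if a ∈ A' then b₁ (τ a) else b₂ (τ a) := by
      intro a ha; simp only [T₂, hl0 a ha]; rfl
    have v21 : ∀ a ∈ A, T₂ (b₁ a) = d₁ a := by
      intro a ha; simp only [T₂, hl1 a ha]; change d₁ (ψ (b₁ a)) = _; rw [hψ1 a ha]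
    have v22 : ∀ a ∈ A, T₂ (d₁ a) = a := by
      intro a ha; simp only [T₂, hl2 a ha]; change ψ (d₁ a) = _; rw [hψ2 a ha]
    have v23 : ∀ a ∈ A, T₂ (b₂ a) = d₂ a := by
      intro a ha; simp only [T₂, hl3 a ha]; change d₂ (ψ (b₂ a)) = _; rw [hψ3 a ha]
    have v24 : ∀ a ∈ A, T₂ (d₂ a) = a := by
      intro a ha; simp only [T₂, hl4 a ha]; change ψ (d₂ a) = _; rw [hψ4 a ha]
    have v30 : ∀ a ∈ A, T₃ a = if a ∈ A' then d₁ (τ a) else d₂ (τ a) := by
      intro a ha; simp only [T₃, hl0 a ha]; rfl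
    have v31 : ∀ a ∈ A, T₃ (b₁ a) = a := by
      intro a ha; simp only [T₃, hl1 a ha]; change ψ (b₁ a) = _; rw [hψ1 a ha]
    have v32 : ∀ a ∈ A, T₃ (d₁ a) = b₁ a := by
      intro a ha; simp only [T₃, hl2 a ha]; change b₁ (ψ (d₁ a)) = _; rw [hψ2 a ha]
    have v33 : ∀ a ∈ A, T₃ (b₂ a) = a := by
      intro a ha; simp only [T₃, hl3 a ha]; change ψ (b₂ a) = _; rw [hψ3 a ha]
    have v34 : ∀ a ∈ A, T₃ (d₂ a) = b₂ a := by
      intro a ha; simp only [T₃, hl4 a ha]; change b₂ (ψ (d₂ a)) = _; rw [hψ4 a ha]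
    -- integrals over the two halves
    have hsplit : ∀ f : X → ℝ≥0∞, Measurable f → ∫⁻ a, f a ∂α =
        ∫⁻ a in A', f a ∂α + ∫⁻ a in A'ᶜ, f a ∂α := fun f _ => (lintegral_add_compl f hA').symm
    have hmapA : ∀ f : X → ℝ≥0∞, Measurable f → ∫⁻ a in A', f (τ a) ∂α = 2⁻¹ * ∫⁻ a, f a ∂α := by
      intro f hf
      rw [← lintegral_map hf hτ, hτ1, lintegral_smul_measure, smul_eq_mul]
    have hmapAc : ∀ f : X → ℝ≥0∞, Measurable f →
        ∫⁻ a in A'ᶜ, f (τ a) ∂α = 2⁻¹ * ∫⁻ a, f a ∂α := by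
      intro f hf
      rw [← lintegral_map hf hτ, hτ2, lintegral_smul_measure, smul_eq_mul]
    have hT₂μ : μ.map T₂ = μ := by
      refine Measure.ext_of_lintegral _ fun g hg => ?_
      rw [lintegral_map hg hT₂, hμ, lintegral_marg α hb₁ hd₁ hb₂ hd₂
        (f := fun x => g (T₂ x)) (hg.comp hT₂),
        lintegral_marg α hb₁ hd₁ hb₂ hd₂ hg]
      have e0 : ∫⁻ a, g (T₂ a) ∂α = 2⁻¹ * ∫⁻ a, g (b₁ a) ∂α + 2⁻¹ * ∫⁻ a, g (b₂ a) ∂α := by
        rw [hsplit (fun a => g (T₂ a)) (hg.comp hT₂)]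
        congr 1
        · rw [← hmapA (fun a => g (b₁ a)) (hg.comp hb₁)]
          refine lintegral_congr_ae ?_
          filter_upwards [ae_restrict_of_ae hαA, ae_restrict_mem hA'] with a ha ha'
          simp only [v20 a ha, ha', if_true]
        · rw [← hmapAc (fun a => g (b₂ a)) (hg.comp hb₂)]
          refine lintegral_congr_ae ?_
          filter_upwards [ae_restrict_of_ae hαA, ae_restrict_mem hA'.compl] with a ha ha'
          rw [mem_compl_iff] at ha'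
          simp only [v20 a ha, ha', if_false]
      have e1 : ∫⁻ a, g (T₂ (b₁ a)) ∂α = ∫⁻ a, g (d₁ a) ∂α := by
        refine lintegral_congr_ae ?_
        filter_upwards [hαA] with a ha
        rw [v21 a ha]
      have e2 : ∫⁻ a, g (T₂ (d₁ a)) ∂α = ∫⁻ a, g a ∂α := by
        refine lintegral_congr_ae ?_
        filter_upwards [hαA] with a ha
        rw [v22 a ha]
      have e3 : ∫⁻ a, g (T₂ (b₂ a)) ∂α = ∫⁻ a, g (d₂ a) ∂α := by
        refine lintegral_congr_ae ?_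
        filter_upwards [hαA] with a ha
        rw [v23 a ha]
      have e4 : ∫⁻ a, g (T₂ (d₂ a)) ∂α = ∫⁻ a, g a ∂α := by
        refine lintegral_congr_ae ?_
        filter_upwards [hαA] with a ha
        rw [v24 a ha]
      rw [e0, e1, e2, e3, e4]
      conv_rhs => rw [← half (∫⁻ a, g a ∂α)]
      ring
    have hT₃μ : μ.map T₃ = μ := by
      refine Measure.ext_of_lintegral _ fun g hg => ?_
      rw [lintegral_map hg hT₃, hμ, lintegral_marg α hb₁ hd₁ hb₂ hd₂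
        (f := fun x => g (T₃ x)) (hg.comp hT₃),
        lintegral_marg α hb₁ hd₁ hb₂ hd₂ hg]
      have e0 : ∫⁻ a, g (T₃ a) ∂α = 2⁻¹ * ∫⁻ a, g (d₁ a) ∂α + 2⁻¹ * ∫⁻ a, g (d₂ a) ∂α := by
        rw [hsplit (fun a => g (T₃ a)) (hg.comp hT₃)]
        congr 1
        · rw [← hmapA (fun a => g (d₁ a)) (hg.comp hd₁)]
          refine lintegral_congr_ae ?_
          filter_upwards [ae_restrict_of_ae hαA, ae_restrict_mem hA'] with a ha ha'
          simp only [v30 a ha, ha', if_true]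
        · rw [← hmapAc (fun a => g (d₂ a)) (hg.comp hd₂)]
          refine lintegral_congr_ae ?_
          filter_upwards [ae_restrict_of_ae hαA, ae_restrict_mem hA'.compl] with a ha ha'
          rw [mem_compl_iff] at ha'
          simp only [v30 a ha, ha', if_false]
      have e1 : ∫⁻ a, g (T₃ (b₁ a)) ∂α = ∫⁻ a, g a ∂α := by
        refine lintegral_congr_ae ?_
        filter_upwards [hαA] with a ha
        rw [v31 a ha]
      have e2 : ∫⁻ a, g (T₃ (d₁ a)) ∂α = ∫⁻ a, g (b₁ a) ∂α := by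
        refine lintegral_congr_ae ?_
        filter_upwards [hαA] with a ha
        rw [v32 a ha]
      have e3 : ∫⁻ a, g (T₃ (b₂ a)) ∂α = ∫⁻ a, g a ∂α := by
        refine lintegral_congr_ae ?_
        filter_upwards [hαA] with a ha
        rw [v33 a ha]
      have e4 : ∫⁻ a, g (T₃ (d₂ a)) ∂α = ∫⁻ a, g (b₂ a) ∂α := by
        refine lintegral_congr_ae ?_
        filter_upwards [hαA] with a ha
        rw [v34 a ha]
      rw [e0, e1, e2, e3, e4]
      conv_rhs => rw [← half (∫⁻ a, g a ∂α)]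
      ring
    refine ⟨T₂, T₃, hT₂, hT₃, hT₂μ, hT₃μ, ?_⟩
    -- the cost
    have hcT : Measurable fun x => c (x, T₂ x, T₃ x) := hc.comp (by fun_prop)
    have hτA : ∀ᵐ a ∂α, τ a ∈ A := by
      have r1 : ∀ᵐ a ∂(α.restrict A'), τ a ∈ A := by
        refine ae_of_ae_map hτ.aemeasurable ?_
        rw [hτ1]
        exact Measure.ae_smul_measure hαA _
      have r2 : ∀ᵐ a ∂(α.restrict A'ᶜ), τ a ∈ A := by
        refine ae_of_ae_map hτ.aemeasurable ?_
        rw [hτ2]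
        exact Measure.ae_smul_measure hαA _
      rw [← Measure.restrict_add_restrict_compl (μ := α) hA', ae_add_measure_iff]
      exact ⟨r1, r2⟩
    have hcost0 : ∫⁻ a, c (a, T₂ a, T₃ a) ∂α ≤ 2⁻¹ * ∫⁻ a, c (a, b₁ a, d₁ a) ∂α +
        2⁻¹ * ∫⁻ a, c (a, b₂ a, d₂ a) ∂α + ε₁ := by
      rw [hsplit _ hcT]
      have i1 : ∫⁻ a in A', c (a, T₂ a, T₃ a) ∂α ≤
          ∫⁻ a in A', (c (τ a, b₁ (τ a), d₁ (τ a)) + ε₁) ∂α := by
        refine lintegral_mono_ae ?_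
        filter_upwards [ae_restrict_of_ae hαA, ae_restrict_mem hA', ae_restrict_of_ae hτA,
          ae_restrict_of_ae hτd] with a ha ha' haτ had
        rw [v20 a ha, v30 a ha, if_pos ha', if_pos ha']
        exact (hδc a ha (τ a) haτ had).1
      have i2 : ∫⁻ a in A'ᶜ, c (a, T₂ a, T₃ a) ∂α ≤
          ∫⁻ a in A'ᶜ, (c (τ a, b₂ (τ a), d₂ (τ a)) + ε₁) ∂α := by
        refine lintegral_mono_ae ?_
        filter_upwards [ae_restrict_of_ae hαA, ae_restrict_mem hA'.compl, ae_restrict_of_ae hτA,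
          ae_restrict_of_ae hτd] with a ha ha' haτ had
        rw [v20 a ha, v30 a ha, if_neg ha', if_neg ha']
        exact (hδc a ha (τ a) haτ had).2
      refine (add_le_add i1 i2).trans ?_
      have mc1 : Measurable fun a => c (a, b₁ a, d₁ a) := hc.comp (by fun_prop)
      have mc2 : Measurable fun a => c (a, b₂ a, d₂ a) := hc.comp (by fun_prop)
      rw [lintegral_add_right _ measurable_const, lintegral_add_right _ measurable_const,
        hmapA (fun a => c (a, b₁ a, d₁ a)) mc1, hmapAc (fun a => c (a, b₂ a, d₂ a)) mc2, lintegral_const, lintegral_const]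
      have hmass : ε₁ * (α.restrict A') univ + ε₁ * (α.restrict A'ᶜ) univ ≤ ε₁ := by
        rw [← mul_add, Measure.restrict_apply_univ, Measure.restrict_apply_univ,
          measure_add_measure_compl hA', hα]
        calc ε₁ * 3⁻¹ ≤ ε₁ * 1 := by
              gcongr
              rw [ENNReal.inv_le_one]
              norm_num
          _ = ε₁ := mul_one _
      calc 2⁻¹ * ∫⁻ a, c (a, b₁ a, d₁ a) ∂α + ε₁ * (α.restrict A') univ +
            (2⁻¹ * ∫⁻ a, c (a, b₂ a, d₂ a) ∂α + ε₁ * (α.restrict A'ᶜ) univ)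
          = 2⁻¹ * ∫⁻ a, c (a, b₁ a, d₁ a) ∂α + 2⁻¹ * ∫⁻ a, c (a, b₂ a, d₂ a) ∂α +
            (ε₁ * (α.restrict A') univ + ε₁ * (α.restrict A'ᶜ) univ) := by ring
        _ ≤ _ := by gcongr
    have hcost1 : ∫⁻ x, c (x, T₂ x, T₃ x) ∂μ ≤ ∫⁻ p, c p ∂π₀ + ε₁ := by
      rw [hμ, lintegral_marg α hb₁ hd₁ hb₂ hd₂ hcT, hπ₀, lintegral_plan α hb₁ hd₁ hb₂ hd₂ hc]
      have e1 : ∫⁻ a, c (b₁ a, T₂ (b₁ a), T₃ (b₁ a)) ∂α = ∫⁻ a, c (b₁ a, d₁ a, a) ∂α := by
        refine lintegral_congr_ae ?_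
        filter_upwards [hαA] with a ha
        rw [v21 a ha, v31 a ha]
      have e2 : ∫⁻ a, c (d₁ a, T₂ (d₁ a), T₃ (d₁ a)) ∂α = ∫⁻ a, c (d₁ a, a, b₁ a) ∂α := by
        refine lintegral_congr_ae ?_
        filter_upwards [hαA] with a ha
        rw [v22 a ha, v32 a ha]
      have e3 : ∫⁻ a, c (b₂ a, T₂ (b₂ a), T₃ (b₂ a)) ∂α = ∫⁻ a, c (b₂ a, d₂ a, a) ∂α := by
        refine lintegral_congr_ae ?_
        filter_upwards [hαA] with a ha
        rw [v23 a ha, v33 a ha]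
      have e4 : ∫⁻ a, c (d₂ a, T₂ (d₂ a), T₃ (d₂ a)) ∂α = ∫⁻ a, c (d₂ a, a, b₂ a) ∂α := by
        refine lintegral_congr_ae ?_
        filter_upwards [hαA] with a ha
        rw [v24 a ha, v34 a ha]
      rw [e1, e2, e3, e4]
      refine (add_le_add_left hcost0 _).trans (le_of_eq ?_)
      ring
    refine lt_of_le_of_lt hcost1 ?_
    exact ENNReal.add_lt_add_left hcostfin.ne hε₁ε

end Main

end Crest.Agent.S0175Aux
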