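import Mathlib
import Crest.Prelude.Def_MultiMarginal
import Crest.Agent.S0175Aux.Contact
import Crest.Agent.S0175Aux.Cost
import Crest.Agent.S0175Aux.Transport

/-!
Helper module for S0175 (helper31): the five-region configuration.
-/

set_option autoImplicit false
open MeasureTheory Filter Topology Set
open scoped ENNReal ContDiff InnerProductSpace
open Crest.AnalysisR.OT

namespace Crest.Agent.S0175Aux

/-- index triples of contact type -/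
def GoodB (i j k : Fin 5) : Prop :=
  ({i, j, k} : Finset (Fin 5)) = {0, 1, 2} ∨ ({i, j, k} : Finset (Fin 5)) = {0, 3, 4}

instance (i j k : Fin 5) : Decidable (GoodB i j k) := by unfold GoodB; infer_instance

/-- cross pair of indices -/
def Cross (j k : Fin 5) : Prop :=
  ((j = 1 ∨ j = 2) ∧ (k = 3 ∨ k = 4)) ∨ ((j = 3 ∨ j = 4) ∧ (k = 1 ∨ k = 2))

instance (i j : Fin 5) : Decidable (Cross i j) := by unfold Cross; infer_instance

/-- integer version of `tt` -/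
def tz (i : Fin 5) : ℤ := ![0, 1, 1, -1, -1] i

lemma tt_eq_tz (i : Fin 5) : tt i = (tz i : ℝ) := by
  fin_cases i <;> simp [tt, tz]

lemma goodB_z : ∀ i j k : Fin 5, GoodB i j k →
    (tz i + tz j + tz k = 2 ∧ 0 ≤ tz i) ∨ (tz i + tz j + tz k = -2 ∧ tz i ≤ 0) := by
  decide

lemma good_of_goodB {i j k : Fin 5} (h : GoodB i j k) : Good i j k := by
  unfold Good
  rw [tt_eq_tz, tt_eq_tz, tt_eq_tz]
  rcases goodB_z i j k h with h | h
  · left; exact_mod_cast h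
  · right; exact_mod_cast h

lemma bad_cases : ∀ i j k : Fin 5, ¬ GoodB i j k →
    i = j ∨ i = k ∨ j = k ∨ (i ≠ 0 ∧ j ≠ 0 ∧ k ≠ 0) ∨ (i = 0 ∧ Cross j k) ∨
      (j = 0 ∧ Cross i k) ∨ (k = 0 ∧ Cross i j) := by
  decide

lemma good_cases : ∀ i j k : Fin 5, GoodB i j k →
    (i, j, k) = (0, 1, 2) ∨ (i, j, k) = (0, 2, 1) ∨ (i, j, k) = (1, 0, 2) ∨
    (i, j, k) = (1, 2, 0) ∨ (i, j, k) = (2, 0, 1) ∨ (i, j, k) = (2, 1, 0) ∨
    (i, j, k) = (0, 3, 4) ∨ (i, j, k) = (0, 4, 3) ∨ (i, j, k) = (3, 0, 4) ∨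
    (i, j, k) = (3, 4, 0) ∨ (i, j, k) = (4, 0, 3) ∨ (i, j, k) = (4, 3, 0) := by
  decide

variable {E : Type*} [NormedAddCommGroup E] [InnerProductSpace ℝ E]

/-- centres of the five regions -/
def ctr (e₁ e₂ : E) : Fin 5 → E := ![0, e₁, -e₁, e₂, -e₂]

/-- potentials at the centres -/
noncomputable def u0 (s : ℝ) : Fin 5 → ℝ := ![2 + (2 : ℝ) ^ (-s), 0, 0, 0, 0]

lemma u0_ne {s : ℝ} {i : Fin 5} (h : i ≠ 0) : u0 s i = 0 := by
  fin_cases i <;> simp_all [u0]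

lemma norm_ctr {e₁ e₂ : E} (h1 : ‖e₁‖ = 1) (h2 : ‖e₂‖ = 1) {i : Fin 5} (h : i ≠ 0) :
    ‖ctr e₁ e₂ i‖ = 1 := by
  fin_cases i <;> simp_all [ctr]

lemma cross_ne {j k : Fin 5} (h : Cross j k) : j ≠ 0 ∧ k ≠ 0 ∧ j ≠ k := by
  revert j k; decide

lemma cross_dist {e₁ e₂ : E} (h1 : ‖e₁‖ = 1) (h2 : ‖e₂‖ = 1) (h12 : ⟪e₁, e₂⟫_ℝ = 0)
    {j k : Fin 5} (h : Cross j k) : ‖ctr e₁ e₂ j - ctr e₁ e₂ k‖ ^ 2 = 2 := by
  have h21 : ⟪e₂, e₁⟫_ℝ = 0 := by rw [real_inner_comm]; exact h12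
  obtain ⟨hj, hk, -⟩ := cross_ne h
  rw [norm_sub_sq_real, norm_ctr h1 h2 hj, norm_ctr h1 h2 hk]
  have : ⟪ctr e₁ e₂ j, ctr e₁ e₂ k⟫_ℝ = 0 := by
    rcases h with ⟨rfl | rfl, rfl | rfl⟩ | ⟨rfl | rfl, rfl | rfl⟩ <;> simp [ctr, h12, h21]
  rw [this]
  norm_num

/-- strict inequality at the centres of a bad triple -/
def BB (s : ℝ) (e₁ e₂ : E) (i j k : Fin 5) : Prop :=
  ENNReal.ofReal (u0 s i + u0 s j + u0 s k) < tripleCost s (ctr e₁ e₂ i, ctr e₁ e₂ j, ctr e₁ e₂ k)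

lemma BB_cross {s : ℝ} (hs : 0 < s) {e₁ e₂ : E} (h1 : ‖e₁‖ = 1) (h2 : ‖e₂‖ = 1)
    (h12 : ⟪e₁, e₂⟫_ℝ = 0) {j k : Fin 5} (h : Cross j k) : BB s e₁ e₂ 0 j k := by
  obtain ⟨hj, hk, -⟩ := cross_ne h
  unfold BB
  refine lt_of_lt_of_le ?_ (le_tripleCost hs _ _ _)
  have hd := cross_dist h1 h2 h12 h
  have hdpos : 0 < ‖ctr e₁ e₂ j - ctr e₁ e₂ k‖ := by
    by_contra hneg
    have : ‖ctr e₁ e₂ j - ctr e₁ e₂ k‖ = 0 := le_antisymm (not_lt.1 hneg) (norm_nonneg _)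
    rw [this] at hd
    norm_num at hd
  have hlt : ‖ctr e₁ e₂ j - ctr e₁ e₂ k‖ < 2 := by nlinarith
  have e0 : ctr e₁ e₂ 0 = 0 := rfl
  have g1 : hh s (ctr e₁ e₂ 0 - ctr e₁ e₂ j) = 1 := by
    rw [e0, zero_sub, hh_neg, hh, norm_ctr h1 h2 hj, Real.one_rpow]
  have g2 : hh s (ctr e₁ e₂ 0 - ctr e₁ e₂ k) = 1 := by
    rw [e0, zero_sub, hh_neg, hh, norm_ctr h1 h2 hk, Real.one_rpow]
  have g3 : (2 : ℝ) ^ (-s) < hh s (ctr e₁ e₂ j - ctr e₁ e₂ k) := by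
    unfold hh
    exact Real.rpow_lt_rpow_of_neg hdpos hlt (by linarith)
  rw [g1, g2, u0_ne hj, u0_ne hk]
  have : u0 s 0 = 2 + (2 : ℝ) ^ (-s) := rfl
  rw [this]
  rw [ENNReal.ofReal_lt_ofReal_iff]
  · linarith
  · have := hh_nonneg s (ctr e₁ e₂ j - ctr e₁ e₂ k)
    linarith

lemma BB_swap₁ {s : ℝ} {e₁ e₂ : E} {i j k : Fin 5} (h : BB s e₁ e₂ i j k) :
    BB s e₁ e₂ j i k := by
  unfold BB at *
  rw [tripleCost_swap₁, add_comm (u0 s j)]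
  exact h

lemma BB_swap₂ {s : ℝ} {e₁ e₂ : E} {i j k : Fin 5} (h : BB s e₁ e₂ i j k) :
    BB s e₁ e₂ i k j := by
  unfold BB at *
  rw [tripleCost_swap₂, add_right_comm]
  exact h

lemma BB_of_bad {s : ℝ} (hs : 0 < s) {e₁ e₂ : E} (h1 : ‖e₁‖ = 1) (h2 : ‖e₂‖ = 1)
    (h12 : ⟪e₁, e₂⟫_ℝ = 0) {i j k : Fin 5} (h : ¬ GoodB i j k) : BB s e₁ e₂ i j k := by
  rcases bad_cases i j k h with rfl | rfl | rfl | ⟨hi, hj, hk⟩ | ⟨rfl, hc⟩ | ⟨rfl, hc⟩ | ⟨rfl, hc⟩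
  · unfold BB tripleCost
    simp only [pairCost_self hs, top_add]
    exact ENNReal.ofReal_lt_top
  · unfold BB tripleCost
    simp only [pairCost_self hs, top_add, add_top]
    exact ENNReal.ofReal_lt_top
  · unfold BB tripleCost
    simp only [pairCost_self hs, top_add, add_top]
    exact ENNReal.ofReal_lt_top
  · unfold BB
    rw [u0_ne hi, u0_ne hj, u0_ne hk]
    simp only [add_zero, ENNReal.ofReal_zero]
    exact tripleCost_pos hs _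
  · exact BB_cross hs h1 h2 h12 hc
  · exact BB_swap₁ (BB_cross hs h1 h2 h12 hc)
  · exact BB_swap₂ (BB_swap₁ (BB_cross hs h1 h2 h12 hc))

/-- the pointwise statement for a triple of indices and base points -/
def QQ (s : ℝ) (Φ : Fin 5 → E → E) (V : Fin 5 → E → ℝ) (i j k : Fin 5) (a a' a'' : E) : Prop :=
  ENNReal.ofReal (V i a + V j a' + V k a'') ≤ tripleCost s (Φ i a, Φ j a', Φ k a'') ∧
  (ENNReal.ofReal (V i a + V j a' + V k a'') = tripleCost s (Φ i a, Φ j a', Φ k a'') →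
    a = a' ∧ a = a'' ∧ GoodB i j k)

lemma goodB_swap₁ {i j k : Fin 5} (h : GoodB i j k) : GoodB j i k := by
  revert i j k; decide

lemma goodB_swap₂ {i j k : Fin 5} (h : GoodB i j k) : GoodB i k j := by
  revert i j k; decide

lemma QQ_swap₁ {s : ℝ} {Φ : Fin 5 → E → E} {V : Fin 5 → E → ℝ} {i j k : Fin 5} {a a' a'' : E}
    (h : QQ s Φ V i j k a a' a'') : QQ s Φ V j i k a' a a'' := by
  unfold QQ at *
  rw [tripleCost_swap₁, add_comm (V j a')]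
  refine ⟨h.1, fun he => ?_⟩
  obtain ⟨e1, e2, e3⟩ := h.2 he
  exact ⟨e1.symm, e1.symm.trans e2, goodB_swap₁ e3⟩

lemma QQ_swap₂ {s : ℝ} {Φ : Fin 5 → E → E} {V : Fin 5 → E → ℝ} {i j k : Fin 5} {a a' a'' : E}
    (h : QQ s Φ V i j k a a' a'') : QQ s Φ V i k j a a'' a' := by
  unfold QQ at *
  rw [tripleCost_swap₂, add_right_comm]
  refine ⟨h.1, fun he => ?_⟩
  obtain ⟨e1, e2, e3⟩ := h.2 he
  exact ⟨e2, e1, goodB_swap₂ e3⟩

/-- the local version of `QQ` -/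
def PP (s : ℝ) (Φ : Fin 5 → E → E) (V : Fin 5 → E → ℝ) (i j k : Fin 5) : Prop :=
  ∀ᶠ p : E × E × E in 𝓝 0, QQ s Φ V i j k p.1 p.2.1 p.2.2

lemma PP_swap₁ {s : ℝ} {Φ : Fin 5 → E → E} {V : Fin 5 → E → ℝ} {i j k : Fin 5}
    (h : PP s Φ V i j k) : PP s Φ V j i k := by
  unfold PP at *
  have hc : Tendsto (fun p : E × E × E => (p.2.1, p.1, p.2.2)) (𝓝 0) (𝓝 0) := by
    have : Continuous (fun p : E × E × E => (p.2.1, p.1, p.2.2)) := by fun_prop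
    exact this.tendsto' _ _ rfl
  filter_upwards [hc.eventually h] with p hp
  exact QQ_swap₁ hp

lemma PP_swap₂ {s : ℝ} {Φ : Fin 5 → E → E} {V : Fin 5 → E → ℝ} {i j k : Fin 5}
    (h : PP s Φ V i j k) : PP s Φ V i k j := by
  unfold PP at *
  have hc : Tendsto (fun p : E × E × E => (p.1, p.2.2, p.2.1)) (𝓝 0) (𝓝 0) := by
    have : Continuous (fun p : E × E × E => (p.1, p.2.2, p.2.1)) := by fun_prop
    exact this.tendsto' _ _ rfl
  filter_upwards [hc.eventually h] with p hp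
  exact QQ_swap₂ hp

lemma PP_all {s : ℝ} {Φ : Fin 5 → E → E} {V : Fin 5 → E → ℝ}
    (hbad : ∀ i j k, ¬ GoodB i j k → PP s Φ V i j k) (h1 : PP s Φ V 0 1 2) (h2 : PP s Φ V 0 3 4)
    (i j k : Fin 5) : PP s Φ V i j k := by
  by_cases hg : GoodB i j k
  · rcases good_cases i j k hg with h | h | h | h | h | h | h | h | h | h | h | h <;>
      (simp only [Prod.mk.injEq] at h; obtain ⟨rfl, rfl, rfl⟩ := h)
    · exact h1
    · exact PP_swap₂ h1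
    · exact PP_swap₁ h1
    · exact PP_swap₂ (PP_swap₁ h1)
    · exact PP_swap₁ (PP_swap₂ h1)
    · exact PP_swap₂ (PP_swap₁ (PP_swap₂ h1))
    · exact h2
    · exact PP_swap₂ h2
    · exact PP_swap₁ h2
    · exact PP_swap₂ (PP_swap₁ h2)
    · exact PP_swap₁ (PP_swap₂ h2)
    · exact PP_swap₂ (PP_swap₁ (PP_swap₂ h2))
  · exact hbad i j k hg

lemma PP_of_BB {s : ℝ} {e₁ e₂ : E} {Φ : Fin 5 → E → E} {V : Fin 5 → E → ℝ}
    (hΦ : ∀ i, ContinuousAt (Φ i) 0) (hV : ∀ i, ContinuousAt (V i) 0)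
    (hΦ0 : ∀ i, Φ i 0 = ctr e₁ e₂ i) (hV0 : ∀ i, V i 0 = u0 s i) {i j k : Fin 5}
    (h : BB s e₁ e₂ i j k) : PP s Φ V i j k := by
  have c1 : Tendsto (fun p : E × E × E => ENNReal.ofReal (V i p.1 + V j p.2.1 + V k p.2.2))
      (𝓝 0) (𝓝 (ENNReal.ofReal (u0 s i + u0 s j + u0 s k))) := by
    have p1 : Tendsto (fun p : E × E × E => V i p.1) (𝓝 0) (𝓝 (u0 s i)) := by
      rw [← hV0 i]
      exact (hV i).tendsto.comp (continuous_fst.tendsto' (0 : E × E × E) 0 rfl)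
    have p2 : Tendsto (fun p : E × E × E => V j p.2.1) (𝓝 0) (𝓝 (u0 s j)) := by
      rw [← hV0 j]
      exact (hV j).tendsto.comp
        ((continuous_fst.comp continuous_snd).tendsto' (0 : E × E × E) 0 rfl)
    have p3 : Tendsto (fun p : E × E × E => V k p.2.2) (𝓝 0) (𝓝 (u0 s k)) := by
      rw [← hV0 k]
      exact (hV k).tendsto.comp
        ((continuous_snd.comp continuous_snd).tendsto' (0 : E × E × E) 0 rfl)
    exact ENNReal.tendsto_ofReal ((p1.add p2).add p3)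
  have c2 : Tendsto (fun p : E × E × E => tripleCost s (Φ i p.1, Φ j p.2.1, Φ k p.2.2))
      (𝓝 0) (𝓝 (tripleCost s (ctr e₁ e₂ i, ctr e₁ e₂ j, ctr e₁ e₂ k))) := by
    have p1 : Tendsto (fun p : E × E × E => Φ i p.1) (𝓝 0) (𝓝 (ctr e₁ e₂ i)) := by
      rw [← hΦ0 i]
      exact (hΦ i).tendsto.comp (continuous_fst.tendsto' (0 : E × E × E) 0 rfl)
    have p2 : Tendsto (fun p : E × E × E => Φ j p.2.1) (𝓝 0) (𝓝 (ctr e₁ e₂ j)) := by
      rw [← hΦ0 j]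
      exact (hΦ j).tendsto.comp
        ((continuous_fst.comp continuous_snd).tendsto' (0 : E × E × E) 0 rfl)
    have p3 : Tendsto (fun p : E × E × E => Φ k p.2.2) (𝓝 0) (𝓝 (ctr e₁ e₂ k)) := by
      rw [← hΦ0 k]
      exact (hΦ k).tendsto.comp
        ((continuous_snd.comp continuous_snd).tendsto' (0 : E × E × E) 0 rfl)
    exact ((tripleCost_continuous s).tendsto _).comp (p1.prodMk_nhds (p2.prodMk_nhds p3))
  have := c1.eventually_lt c2 h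
  filter_upwards [this] with p hp
  exact ⟨hp.le, fun he => absurd he hp.ne⟩

end Crest.Agent.S0175Aux
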