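import Mathlib
import Crest.Prelude.Def_MultiMarginal
import Crest.Agent.S0175Aux.Package

/-!
Helper module for S0175 (helper31): existence of the five-region configuration.
-/

set_option autoImplicit false
open MeasureTheory Filter Topology Set
open scoped ENNReal ContDiff InnerProductSpace
open Crest.AnalysisR.OT

namespace Crest.Agent.S0175Aux

variable {E : Type*} [NormedAddCommGroup E] [InnerProductSpace ℝ E]

lemma tripleCost_isometry (s : ℝ) (R : E ≃ₗᵢ[ℝ] E) (x y z : E) :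
    tripleCost s (R x, R y, R z) = tripleCost s (x, y, z) := by
  simp only [tripleCost, pairCost, ← map_sub, LinearIsometryEquiv.norm_map]

theorem exists_package [FiniteDimensional ℝ E] {s : ℝ} (hs : 0 < s) {e₁ e₂ : E} (h1 : ‖e₁‖ = 1)
    (h2 : ‖e₂‖ = 1) (h12 : ⟪e₁, e₂⟫_ℝ = 0) :
    ∃ (Φ : Fin 5 → E → E) (V : Fin 5 → E → ℝ), Φ 0 = id ∧ (∀ i, Φ i 0 = ctr e₁ e₂ i) ∧
      (∀ i, ContDiffAt ℝ ω (Φ i) 0) ∧
      (∀ i, ∃ Φ' : E ≃L[ℝ] E, HasFDerivAt (Φ i) (Φ' : E →L[ℝ] E) 0) ∧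
      (∀ i, ContDiffAt ℝ ω (V i) 0) ∧
      (∀ i j k, PP s Φ V i j k) ∧
      (∀ᶠ a in 𝓝 (0 : E), tripleCost s (Φ 0 a, Φ 1 a, Φ 2 a) =
        ENNReal.ofReal (V 0 a + V 1 a + V 2 a) ∧
        tripleCost s (Φ 0 a, Φ 3 a, Φ 4 a) = ENNReal.ofReal (V 0 a + V 3 a + V 4 a)) ∧
      ∃ L : ℝ, ∀ᶠ p : E × E in 𝓝 0,
        tripleCost s (Φ 0 p.1, Φ 1 p.2, Φ 2 p.2) ≤ tripleCost s (Φ 0 p.2, Φ 1 p.2, Φ 2 p.2) +
          ENNReal.ofReal (L * ‖p.1 - p.2‖) ∧
        tripleCost s (Φ 0 p.1, Φ 3 p.2, Φ 4 p.2) ≤ tripleCost s (Φ 0 p.2, Φ 3 p.2, Φ 4 p.2) +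
          ENNReal.ofReal (L * ‖p.1 - p.2‖) := by
  have hne1 : e₁ ≠ 0 := by
    rintro rfl
    simp at h1
  have hne1n : -e₁ ≠ 0 := by simpa using hne1
  have hne12 : e₁ - -e₁ ≠ 0 := by
    have : e₁ - -e₁ = (2 : ℝ) • e₁ := by module
    rw [this]
    simpa using hne1
  obtain ⟨K, w, b, d, hK0, hb, hd, hb0, hd0, ⟨b', hb'⟩, ⟨d', hd'⟩, ε, hε, hloc⟩ :=
    exists_local hs h1
  -- the reflection
  set R : E ≃ₗᵢ[ℝ] E := (Submodule.span ℝ {e₁ - e₂})ᗮ.reflection with hR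
  have hRR : ∀ x, R (R x) = x := fun x => Submodule.reflection_reflection _ x
  have hR1 : R e₁ = e₂ := Submodule.reflection_sub (by rw [h1, h2])
  have hR2 : R e₂ = e₁ := by rw [← hR1, hRR]
  have hRc : ∀ x : E, ContDiffAt ℝ ω (fun y : E => R y) x := fun x =>
    R.toContinuousLinearEquiv.contDiff.contDiffAt
  have hRcont : Continuous (fun y : E => R y) := R.continuous
  have hR0 : R (0 : E) = 0 := map_zero R
  set c₀ : ℝ := 2 + (2 : ℝ) ^ (-s) with hc₀
  let V0 : E → ℝ := fun a => c₀ - K / 2 * ‖a‖ ^ 2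
  let V1 : E → ℝ := fun a => ⟪w, b a - e₁⟫_ℝ - K / 2 * ‖b a - e₁‖ ^ 2
  let V2 : E → ℝ := fun a => cc s a (b a) (d a) - V0 a - V1 a
  let Φ : Fin 5 → E → E := ![id, b, d, fun a => R (b (R a)), fun a => R (d (R a))]
  let V : Fin 5 → E → ℝ := ![V0, V1, V2, fun a => V1 (R a), fun a => V2 (R a)]
  have hhunit : ∀ x : E, ‖x‖ = 1 → hh s x = 1 := by
    intro x hx; rw [hh, hx, Real.one_rpow]
  have hhtwo : hh s (e₁ - -e₁) = (2 : ℝ) ^ (-s) := by
    have : e₁ - -e₁ = (2 : ℝ) • e₁ := by module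
    rw [this, hh, norm_smul, h1]
    norm_num
  have hcc0 : cc s 0 e₁ (-e₁) = c₀ := by
    rw [cc, hhtwo, hhunit (0 - e₁) (by simp [h1]), hhunit (0 - -e₁) (by simp [h1])]
    rw [hc₀]; ring
  have hV00 : V0 0 = c₀ := by simp [V0]
  have hV10 : V1 0 = 0 := by simp [V1, hb0]
  have hV20 : V2 0 = 0 := by
    simp only [V2, hb0, hd0, hcc0, hV00, hV10]; ring
  -- smoothness
  have cV0 : ContDiffAt ℝ ω V0 0 :=
    contDiffAt_const.sub (contDiffAt_const.mul (contDiff_norm_sq ℝ).contDiffAt)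
  have cb : ContDiffAt ℝ ω (fun a => b a - e₁) 0 := hb.sub contDiffAt_const
  have cV1 : ContDiffAt ℝ ω V1 0 := by
    refine ContDiffAt.sub (ContDiffAt.inner ℝ contDiffAt_const cb)
      (contDiffAt_const.mul ?_)
    exact cb.norm_sq ℝ
  have chh1 : ContDiffAt ℝ ω (fun a => hh s (a - b a)) 0 := by
    refine ContDiffAt.comp (g := (hh s : E → ℝ)) (0 : E) (hh_contDiffAt ?_)
      (contDiffAt_id.sub hb)
    simp only [id, hb0, zero_sub]
    exact hne1n
  have chh2 : ContDiffAt ℝ ω (fun a => hh s (a - d a)) 0 := by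
    refine ContDiffAt.comp (g := (hh s : E → ℝ)) (0 : E) (hh_contDiffAt ?_)
      (contDiffAt_id.sub hd)
    simp only [id, hd0, zero_sub, neg_neg]
    exact hne1
  have chh3 : ContDiffAt ℝ ω (fun a => hh s (b a - d a)) 0 := by
    refine ContDiffAt.comp (g := (hh s : E → ℝ)) (0 : E) (hh_contDiffAt ?_) (hb.sub hd)
    simp only [hb0, hd0]
    exact hne12
  have cV2 : ContDiffAt ℝ ω V2 0 := (((chh1.add chh2).add chh3).sub cV0).sub cV1
  have hR0' : ∀ {f : E → E},
      ContDiffAt ℝ ω f 0 → ContDiffAt ℝ ω (fun a => f (R a)) 0 := by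
    intro f hf
    refine ContDiffAt.comp (g := f) (0 : E) ?_ (hRc 0)
    rw [hR0]; exact hf
  have hR0'' : ∀ {f : E → ℝ},
      ContDiffAt ℝ ω f 0 → ContDiffAt ℝ ω (fun a => f (R a)) 0 := by
    intro f hf
    refine ContDiffAt.comp (g := f) (0 : E) ?_ (hRc 0)
    rw [hR0]; exact hf
  have cΦ : ∀ i, ContDiffAt ℝ ω (Φ i) 0 := by
    intro i
    fin_cases i
    · exact contDiffAt_id
    · exact hb
    · exact hd
    · exact ContDiffAt.comp (g := fun y : E => R y) (0 : E) (hRc _) (hR0' hb)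
    · exact ContDiffAt.comp (g := fun y : E => R y) (0 : E) (hRc _) (hR0' hd)
  have cV : ∀ i, ContDiffAt ℝ ω (V i) 0 := by
    intro i
    fin_cases i
    · exact cV0
    · exact cV1
    · exact cV2
    · exact hR0'' cV1
    · exact hR0'' cV2
  have Φ0 : ∀ i, Φ i 0 = ctr e₁ e₂ i := by
    intro i
    fin_cases i
    · rfl
    · exact hb0
    · exact hd0
    · change R (b (R 0)) = e₂
      rw [hR0, hb0, hR1]
    · change R (d (R 0)) = -e₂
      rw [hR0, hd0, map_neg, hR1]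
  have V0' : ∀ i, V i 0 = u0 s i := by
    intro i
    fin_cases i
    · exact hV00
    · exact hV10
    · exact hV20
    · change V1 (R 0) = 0
      rw [hR0, hV10]
    · change V2 (R 0) = 0
      rw [hR0, hV20]
  have dΦ : ∀ i, ∃ Φ' : E ≃L[ℝ] E, HasFDerivAt (Φ i) (Φ' : E →L[ℝ] E) 0 := by
    have hRd : ∀ x : E, HasFDerivAt (fun y : E => R y)
        ((R.toContinuousLinearEquiv : E ≃L[ℝ] E) : E →L[ℝ] E) x := fun x =>
      R.toContinuousLinearEquiv.hasFDerivAt
    have key : ∀ (f : E → E) (f' : E ≃L[ℝ] E), HasFDerivAt f (f' : E →L[ℝ] E) 0 →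
        ∃ Φ' : E ≃L[ℝ] E, HasFDerivAt (fun a => R (f (R a))) (Φ' : E →L[ℝ] E) 0 := by
      intro f f' hf
      refine ⟨(R.toContinuousLinearEquiv.trans f').trans R.toContinuousLinearEquiv, ?_⟩
      have h3 : HasFDerivAt (fun a => f (R a))
          ((f' : E →L[ℝ] E).comp ((R.toContinuousLinearEquiv : E ≃L[ℝ] E) : E →L[ℝ] E)) 0 := by
        refine HasFDerivAt.comp (g := f) (0 : E) ?_ (hRd 0)
        rw [hR0]; exact hf
      have h4 := HasFDerivAt.comp (g := fun y : E => R y) (0 : E) (hRd (f (R 0))) h3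
      refine HasFDerivAt.congr_fderiv (f := fun a => R (f (R a))) h4 ?_
      ext x
      rfl
    intro i
    fin_cases i
    · exact ⟨ContinuousLinearEquiv.refl ℝ E, hasFDerivAt_id 0⟩
    · exact ⟨b', hb'⟩
    · exact ⟨d', hd'⟩
    · exact key b b' hb'
    · exact key d d' hd'
  -- the good triple (0, 1, 2)
  have P012 : PP s Φ V 0 1 2 := by
    have hst : HasStrictFDerivAt b (b' : E →L[ℝ] E) 0 :=
      hb.hasStrictFDerivAt' hb' (by simp)
    set Ψ := hst.toOpenPartialHomeomorph b with hΨ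
    have hsrc : Ψ.source ∈ 𝓝 (0 : E) :=
      Ψ.open_source.mem_nhds (hst.mem_toOpenPartialHomeomorph_source)
    have hinj : InjOn b Ψ.source := Ψ.injOn
    have hbball : ∀ᶠ a in 𝓝 (0 : E), b a ∈ Metric.ball e₁ ε :=
      hb.continuousAt.eventually (by rw [hb0]; exact Metric.ball_mem_nhds _ hε)
    have t1 : Tendsto (fun p : E × E × E => p.1) (𝓝 0) (𝓝 0) :=
      continuous_fst.tendsto' _ _ rfl
    have t2 : Tendsto (fun p : E × E × E => p.2.1) (𝓝 0) (𝓝 0) :=
      (continuous_fst.comp continuous_snd).tendsto' _ _ rfl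
    have t3 : Tendsto (fun p : E × E × E => p.2.2) (𝓝 0) (𝓝 0) :=
      (continuous_snd.comp continuous_snd).tendsto' _ _ rfl
    have hball0 : ∀ᶠ a in 𝓝 (0 : E), a ∈ Metric.ball (0 : E) ε := Metric.ball_mem_nhds _ hε
    unfold PP
    filter_upwards [t1.eventually hball0, t3.eventually hball0, t2.eventually hbball,
      t2.eventually hsrc, t3.eventually hsrc] with p g1 g2 g3 g4 g5
    obtain ⟨a, a', a''⟩ := p
    simp only at g1 g2 g3 g4 g5
    have hl := hloc a g1 a'' g2 (b a') g3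
    have hV : V 0 a + V 1 a' + V 2 a'' + (‖a - a''‖ ^ 2 + ‖b a' - b a''‖ ^ 2) ≤
        cc s a (b a') (d a'') := by
      change V0 a + V1 a' + V2 a'' + (‖a - a''‖ ^ 2 + ‖b a' - b a''‖ ^ 2) ≤ _
      simp only [V0, V1, V2]
      linarith
    have hT : ENNReal.ofReal (cc s a (b a') (d a'')) ≤ tripleCost s (a, b a', d a'') :=
      le_tripleCost hs _ _ _
    have hsq1 : 0 ≤ ‖a - a''‖ ^ 2 := sq_nonneg _
    have hsq2 : 0 ≤ ‖b a' - b a''‖ ^ 2 := sq_nonneg _
    refine ⟨?_, ?_⟩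
    · refine le_trans (ENNReal.ofReal_le_ofReal ?_) hT
      change V 0 a + V 1 a' + V 2 a'' ≤ _
      linarith
    · intro heq
      change ENNReal.ofReal (V 0 a + V 1 a' + V 2 a'') = tripleCost s (a, b a', d a'') at heq
      have hpos := tripleCost_pos hs (a, b a', d a'')
      rw [← heq, ENNReal.ofReal_pos] at hpos
      rw [← heq, ENNReal.ofReal_le_ofReal_iff hpos.le] at hT
      have z1 : ‖a - a''‖ ^ 2 = 0 := by linarith
      have z2 : ‖b a' - b a''‖ ^ 2 = 0 := by linarith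
      have z3 : a = a'' := by
        rw [pow_eq_zero_iff (by norm_num), norm_eq_zero, sub_eq_zero] at z1
        exact z1
      have z4 : b a' = b a'' := by
        rw [pow_eq_zero_iff (by norm_num), norm_eq_zero, sub_eq_zero] at z2
        exact z2
      have z5 : a' = a'' := hinj g4 g5 z4
      exact ⟨z3.trans z5.symm, z3, by decide⟩
  -- the good triple (0, 3, 4)
  have hTR : ∀ x y z : E, tripleCost s (x, R y, R z) = tripleCost s (R x, y, z) := by
    intro x y z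
    have := tripleCost_isometry s R (R x) y z
    rwa [hRR] at this
  have hV0R : ∀ a, V0 (R a) = V0 a := by
    intro a
    simp only [V0, LinearIsometryEquiv.norm_map]
  have P034 : PP s Φ V 0 3 4 := by
    unfold PP at *
    have hc : Tendsto (fun p : E × E × E => (R p.1, R p.2.1, R p.2.2)) (𝓝 0) (𝓝 0) := by
      have : Continuous (fun p : E × E × E => (R p.1, R p.2.1, R p.2.2)) := by fun_prop
      refine this.tendsto' _ _ ?_
      simp
    filter_upwards [hc.eventually P012] with p hp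
    obtain ⟨a, a', a''⟩ := p
    unfold QQ at *
    simp only at hp ⊢
    have e1 : V 0 a + V 3 a' + V 4 a'' = V 0 (R a) + V 1 (R a') + V 2 (R a'') := by
      change V0 a + V1 (R a') + V2 (R a'') = V0 (R a) + V1 (R a') + V2 (R a'')
      rw [hV0R]
    have e2 : tripleCost s (Φ 0 a, Φ 3 a', Φ 4 a'') =
        tripleCost s (Φ 0 (R a), Φ 1 (R a'), Φ 2 (R a'')) := hTR _ _ _
    rw [e1, e2]
    refine ⟨hp.1, fun he => ?_⟩
    obtain ⟨z1, z2, -⟩ := hp.2 he
    exact ⟨R.injective z1, R.injective z2, by decide⟩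
  have Pall : ∀ i j k, PP s Φ V i j k := by
    refine PP_all ?_ P012 P034
    intro i j k hbad
    exact PP_of_BB (fun i => (cΦ i).continuousAt) (fun i => (cV i).continuousAt) Φ0 V0'
      (BB_of_bad hs h1 h2 h12 hbad)
  -- contact equalities
  have n1 : ∀ᶠ a in 𝓝 (0 : E), a - b a ≠ 0 := by
    have : ContinuousAt (fun a => a - b a) 0 := continuousAt_id.sub hb.continuousAt
    refine this.eventually_ne ?_
    simp only [hb0, zero_sub]; exact hne1n
  have n2 : ∀ᶠ a in 𝓝 (0 : E), a - d a ≠ 0 := by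
    have : ContinuousAt (fun a => a - d a) 0 := continuousAt_id.sub hd.continuousAt
    refine this.eventually_ne ?_
    simp only [hd0, zero_sub, neg_neg]; exact hne1
  have n3 : ∀ᶠ a in 𝓝 (0 : E), b a - d a ≠ 0 := by
    have : ContinuousAt (fun a => b a - d a) 0 := hb.continuousAt.sub hd.continuousAt
    refine this.eventually_ne ?_
    simp only [hb0, hd0]; exact hne12
  have C012 : ∀ᶠ a in 𝓝 (0 : E), tripleCost s (a, b a, d a) =
      ENNReal.ofReal (V0 a + V1 a + V2 a) := by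
    filter_upwards [n1, n2, n3] with a g1 g2 g3
    rw [tripleCost_of_ne (sub_ne_zero.1 g1) (sub_ne_zero.1 g2) (sub_ne_zero.1 g3)]
    congr 1
    simp only [V2, cc]
    ring
  have hRt : Tendsto (fun a : E => R a) (𝓝 0) (𝓝 0) := hRcont.tendsto' _ _ hR0
  have C034 : ∀ᶠ a in 𝓝 (0 : E), tripleCost s (a, R (b (R a)), R (d (R a))) =
      ENNReal.ofReal (V0 a + V1 (R a) + V2 (R a)) := by
    filter_upwards [hRt.eventually C012] with a ha
    rw [hTR, ha, hV0R]
  -- Lipschitz estimate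
  obtain ⟨L₁, t₁, ht₁, hL₁⟩ := (hh_contDiffAt (s := s) hne1 (n := 1)).exists_lipschitzOnWith
  obtain ⟨L₂, t₂, ht₂, hL₂⟩ := (hh_contDiffAt (s := s) hne1n (n := 1)).exists_lipschitzOnWith
  have U012 : ∀ᶠ p : E × E in 𝓝 0, tripleCost s (p.1, b p.2, d p.2) ≤
      tripleCost s (p.2, b p.2, d p.2) + ENNReal.ofReal ((L₁ + L₂ : ℝ) * ‖p.1 - p.2‖) := by
    have s1 : Tendsto (fun p : E × E => p.1) (𝓝 0) (𝓝 0) := continuous_fst.tendsto' _ _ rfl
    have s2 : Tendsto (fun p : E × E => p.2) (𝓝 0) (𝓝 0) := continuous_snd.tendsto' _ _ rfl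
    have sb : Tendsto (fun p : E × E => b p.2) (𝓝 0) (𝓝 e₁) := by
      rw [← hb0]; exact hb.continuousAt.tendsto.comp s2
    have sd : Tendsto (fun p : E × E => d p.2) (𝓝 0) (𝓝 (-e₁)) := by
      rw [← hd0]; exact hd.continuousAt.tendsto.comp s2
    have q1 : Tendsto (fun p : E × E => p.1 - b p.2) (𝓝 0) (𝓝 (-e₁)) := by
      have := s1.sub sb; rwa [zero_sub] at this
    have q2 : Tendsto (fun p : E × E => p.2 - b p.2) (𝓝 0) (𝓝 (-e₁)) := by
      have := s2.sub sb; rwa [zero_sub] at this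
    have q3 : Tendsto (fun p : E × E => p.1 - d p.2) (𝓝 0) (𝓝 e₁) := by
      have := s1.sub sd; rwa [zero_sub, neg_neg] at this
    have q4 : Tendsto (fun p : E × E => p.2 - d p.2) (𝓝 0) (𝓝 e₁) := by
      have := s2.sub sd; rwa [zero_sub, neg_neg] at this
    filter_upwards [q1.eventually ht₂, q2.eventually ht₂, q3.eventually ht₁, q4.eventually ht₁,
      q1.eventually_ne hne1n, q2.eventually_ne hne1n, q3.eventually_ne hne1,
      q4.eventually_ne hne1, s2.eventually n3] with p g1 g2 g3 g4 m1 m2 m3 m4 m5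
    rw [tripleCost_of_ne (sub_ne_zero.1 m1) (sub_ne_zero.1 m3) (sub_ne_zero.1 m5),
      tripleCost_of_ne (sub_ne_zero.1 m2) (sub_ne_zero.1 m4) (sub_ne_zero.1 m5),
      ← ENNReal.ofReal_add (add_nonneg (add_nonneg (hh_nonneg _ _) (hh_nonneg _ _))
        (hh_nonneg _ _)) (by positivity)]
    refine ENNReal.ofReal_le_ofReal ?_
    have l1 := hL₂.dist_le_mul _ g1 _ g2
    have l2 := hL₁.dist_le_mul _ g3 _ g4
    rw [Real.dist_eq, dist_eq_norm] at l1 l2
    have e1 : p.1 - b p.2 - (p.2 - b p.2) = p.1 - p.2 := by abel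
    have e2 : p.1 - d p.2 - (p.2 - d p.2) = p.1 - p.2 := by abel
    rw [e1] at l1
    rw [e2] at l2
    have l1' := (abs_le.1 l1).2
    have l2' := (abs_le.1 l2).2
    linarith
  refine ⟨Φ, V, rfl, Φ0, cΦ, dΦ, cV, Pall, C012.and C034, L₁ + L₂, ?_⟩
  have hRt2 : Tendsto (fun p : E × E => (R p.1, R p.2)) (𝓝 0) (𝓝 0) := by
    have : Continuous (fun p : E × E => (R p.1, R p.2)) := by fun_prop
    exact this.tendsto' _ _ (by simp)
  filter_upwards [U012, hRt2.eventually U012] with p g1 g2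
  refine ⟨g1, ?_⟩
  change tripleCost s (p.1, R (b (R p.2)), R (d (R p.2))) ≤
    tripleCost s (p.2, R (b (R p.2)), R (d (R p.2))) + _
  rw [hTR, hTR]
  have : ‖R p.1 - R p.2‖ = ‖p.1 - p.2‖ := by rw [← map_sub, LinearIsometryEquiv.norm_map]
  simp only [this] at g2
  exact g2

end Crest.Agent.S0175Aux
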