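import Mathlib
import Crest.Prelude.Def_MultiMarginal
import Crest.Agent.S0175Aux.Package2
import Crest.Agent.S0175Aux.Density
import Crest.Agent.S0175Aux.Transport

/-!
Helper module for S0175 (helper31): final assembly.
-/

set_option autoImplicit false
open MeasureTheory Filter Topology Set
open scoped ENNReal ContDiff InnerProductSpace
open Crest.AnalysisR.OT

namespace Crest.Agent.S0175Aux

lemma measOfDensity_add {X : Type*} [MeasureSpace X] {f g : X → ℝ} (hf : Measurable f)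
    (hf0 : ∀ x, 0 ≤ f x) (hg0 : ∀ x, 0 ≤ g x) :
    measOfDensity (fun x => f x + g x) = measOfDensity f + measOfDensity g := by
  unfold measOfDensity
  rw [← withDensity_add_left hf.ennreal_ofReal]
  congr 1
  funext x
  rw [Pi.add_apply, ENNReal.ofReal_add (hf0 x) (hg0 x)]

lemma measOfDensity_half {X : Type*} [MeasureSpace X] {η : X → ℝ} (hη : Measurable η) :
    measOfDensity (fun x => ((√2)⁻¹ * η x) ^ 2) =
      (2 : ℝ≥0∞)⁻¹ • measOfDensity (fun x => η x ^ 2) := by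
  unfold measOfDensity
  rw [← withDensity_smul _ (hη.pow_const 2).ennreal_ofReal]
  congr 1
  funext x
  dsimp only
  rw [Pi.smul_apply, smul_eq_mul, mul_pow, inv_pow, Real.sq_sqrt (by norm_num),
    ENNReal.ofReal_mul (by norm_num), ENNReal.ofReal_inv_of_pos (by norm_num)]
  norm_num

lemma sqrt_sum_sq {ι X : Type*} [Fintype ι] [DecidableEq ι] (f : ι → X → ℝ) (hf : ∀ i x, 0 ≤ f i x)
    (hd : ∀ i j, i ≠ j → ∀ x, f i x ≠ 0 → f j x = 0) (x : X) :
    √(∑ i, f i x ^ 2) = ∑ i, f i x := by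
  have h : ∑ i, f i x ^ 2 = (∑ i, f i x) ^ 2 := by
    by_cases hall : ∀ i, f i x = 0
    · simp [hall]
    · push Not at hall
      obtain ⟨i, hi⟩ := hall
      have hz : ∀ j, j ≠ i → f j x = 0 := fun j hj => hd i j hj.symm x hi
      rw [Finset.sum_eq_single i (fun j _ hj => by rw [hz j hj]; norm_num)
        (fun h => absurd (Finset.mem_univ i) h),
        Finset.sum_eq_single i (fun j _ hj => hz j hj)
        (fun h => absurd (Finset.mem_univ i) h)]
  rw [h, Real.sqrt_sq (Finset.sum_nonneg fun i _ => hf i x)]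

/-- a smooth bump with prescribed square integral -/
lemma exists_bump {E : Type*} [NormedAddCommGroup E] [InnerProductSpace ℝ E]
    [FiniteDimensional ℝ E] [MeasurableSpace E] [BorelSpace E] {r : ℝ} (hr : 0 < r) :
    ∃ η : E → ℝ, ContDiff ℝ ∞ η ∧ (∀ x, 0 ≤ η x) ∧ HasCompactSupport η ∧
      tsupport η ⊆ Metric.ball 0 r ∧ ∫⁻ x, ENNReal.ofReal (η x ^ 2) = 3⁻¹ := by
  let f : ContDiffBump (0 : E) := ⟨r / 4, r / 2, by positivity, by linarith⟩
  have hfc : ContDiff ℝ ∞ (f : E → ℝ) := f.contDiff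
  have hfs : HasCompactSupport (f : E → ℝ) := f.hasCompactSupport
  have hcont : Continuous fun x : E => f x ^ 2 := hfc.continuous.pow 2
  have hsq : HasCompactSupport fun x : E => f x ^ 2 :=
    hfs.comp_left (g := fun t : ℝ => t ^ 2) (by norm_num)
  have hint : Integrable (fun x : E => f x ^ 2) := hcont.integrable_of_hasCompactSupport hsq
  set I := ∫ x : E, f x ^ 2 with hI
  have hIpos : 0 < I := by
    rw [hI, integral_pos_iff_support_of_nonneg (fun x => sq_nonneg _) hint]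
    have : Function.support (fun x : E => f x ^ 2) = Metric.ball 0 (r / 2) := by
      ext x
      rw [Function.mem_support, pow_ne_zero_iff (by norm_num), ← Function.mem_support, f.support_eq]
    rw [this]
    exact Metric.measure_ball_pos _ _ (by positivity)
  let k : ℝ := (√(3 * I))⁻¹
  have hk : 0 < k := by positivity
  have hk2 : k ^ 2 * I = 1 / 3 := by
    simp only [k]
    rw [inv_pow, Real.sq_sqrt (by positivity)]
    field_simp
  refine ⟨fun x => k * f x, contDiff_const.mul hfc, fun x => mul_nonneg hk.le f.nonneg,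
    hfs.mul_left, ?_, ?_⟩
  · have h1 : tsupport (fun x => k * f x) ⊆ tsupport (f : E → ℝ) := tsupport_mul_subset_right
    refine h1.trans ?_
    rw [f.tsupport_eq]
    exact Metric.closedBall_subset_ball (by change r / 2 < r; linarith)
  · have h1 : ∀ x : E, (k * f x) ^ 2 = k ^ 2 * f x ^ 2 := fun x => by ring
    simp_rw [h1]
    rw [← ofReal_integral_eq_lintegral_ofReal (hint.const_mul _)
      (Eventually.of_forall fun x => by positivity), integral_const_mul, hk2]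
    rw [one_div, ENNReal.ofReal_inv_of_pos (by norm_num)]
    norm_num

lemma marg_univ {X : Type*} [MeasurableSpace X] (α : Measure X) (hα : α univ = 3⁻¹)
    {b₁ d₁ b₂ d₂ : X → X} (hb₁ : Measurable b₁)
    (hd₁ : Measurable d₁) (hb₂ : Measurable b₂) (hd₂ : Measurable d₂) :
    marg α b₁ d₁ b₂ d₂ univ = 1 := by
  have h2inv : (2 : ℝ≥0∞)⁻¹ * 2 = 1 := ENNReal.inv_mul_cancel (by norm_num) (by norm_num)
  have h3inv : (3 : ℝ≥0∞)⁻¹ * 3 = 1 := ENNReal.inv_mul_cancel (by norm_num) (by norm_num)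
  have h1 := lintegral_marg α hb₁ hd₁ hb₂ hd₂ (f := fun _ => 1) measurable_const
  simp only [lintegral_const, one_mul, hα] at h1
  rw [h1]
  calc (3 : ℝ≥0∞)⁻¹ + 2⁻¹ * (3⁻¹ + 3⁻¹ + 3⁻¹ + 3⁻¹) = 3⁻¹ * (1 + 2⁻¹ * 2 * 2) := by ring
    _ = 3⁻¹ * 3 := by rw [h2inv]; norm_num
    _ = 1 := h3inv

lemma ctr_dist {E : Type*} [NormedAddCommGroup E] [InnerProductSpace ℝ E] {e₁ e₂ : E}
    (h1 : ‖e₁‖ = 1) (h2 : ‖e₂‖ = 1) (h12 : ⟪e₁, e₂⟫_ℝ = 0) :
    ∀ i j : Fin 5, i ≠ j → 1 ≤ dist (ctr e₁ e₂ i) (ctr e₁ e₂ j) := by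
  have h0 : ∀ i : Fin 5, i ≠ 0 → 1 ≤ dist (ctr e₁ e₂ i) (ctr e₁ e₂ 0) := by
    intro i hi
    have : ctr e₁ e₂ 0 = 0 := rfl
    rw [this, dist_zero_right, norm_ctr h1 h2 hi]
  have hcr : ∀ i j : Fin 5, Cross i j → 1 ≤ dist (ctr e₁ e₂ i) (ctr e₁ e₂ j) := by
    intro i j h
    have := cross_dist h1 h2 h12 h
    rw [dist_eq_norm]
    nlinarith [norm_nonneg (ctr e₁ e₂ i - ctr e₁ e₂ j)]
  have h11 : 1 ≤ dist e₁ (-e₁) := by
    rw [dist_eq_norm]
    have : e₁ - -e₁ = (2 : ℝ) • e₁ := by module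
    rw [this, norm_smul, h1]; norm_num
  have h22 : 1 ≤ dist e₂ (-e₂) := by
    rw [dist_eq_norm]
    have : e₂ - -e₂ = (2 : ℝ) • e₂ := by module
    rw [this, norm_smul, h2]; norm_num
  intro i j hij
  by_cases hi : i = 0
  · subst hi; rw [dist_comm]; exact h0 j hij.symm
  by_cases hj : j = 0
  · subst hj; exact h0 i hi
  by_cases hc : Cross i j
  · exact hcr i j hc
  have : (i = 1 ∧ j = 2) ∨ (i = 2 ∧ j = 1) ∨ (i = 3 ∧ j = 4) ∨ (i = 4 ∧ j = 3) := by
    revert i j; decide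
  rcases this with ⟨rfl, rfl⟩ | ⟨rfl, rfl⟩ | ⟨rfl, rfl⟩ | ⟨rfl, rfl⟩
  · exact h11
  · rw [dist_comm]; exact h11
  · exact h22
  · rw [dist_comm]; exact h22

section Final

variable {E : Type*} [NormedAddCommGroup E] [InnerProductSpace ℝ E] [FiniteDimensional ℝ E]
  [MeasurableSpace E] [BorelSpace E] [Nontrivial E]

theorem final {s : ℝ} (hs : 0 < s) {e₁ e₂ : E} (h1 : ‖e₁‖ = 1)
    (h2 : ‖e₂‖ = 1) (h12 : ⟪e₁, e₂⟫_ℝ = 0) :
    ∃ ρ : E → ℝ, (∀ x, 0 ≤ ρ x) ∧ ContDiff ℝ ∞ ρ ∧ HasCompactSupport ρ ∧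
      ContDiff ℝ ∞ (fun x => Real.sqrt (ρ x)) ∧ ∫ x, ρ x = 1 ∧
      ∃ π₀ : Measure (E × E × E),
        IsCoupling₃ (measOfDensity ρ) π₀ ∧ ∫⁻ p, tripleCost s p ∂π₀ < ⊤ ∧
        (∀ π : Measure (E × E × E), IsCoupling₃ (measOfDensity ρ) π →
          ∫⁻ p, tripleCost s p ∂π₀ ≤ ∫⁻ p, tripleCost s p ∂π) ∧
        (∀ T₂ T₃ : E → E, Measurable T₂ → Measurable T₃ →
          (measOfDensity ρ).map T₂ = measOfDensity ρ → (measOfDensity ρ).map T₃ = measOfDensity ρ →
          ∫⁻ p, tripleCost s p ∂π₀ < ∫⁻ x, tripleCost s (x, T₂ x, T₃ x) ∂(measOfDensity ρ)) ∧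
        (∀ ε : ℝ≥0∞, 0 < ε → ∃ T₂ T₃ : E → E, Measurable T₂ ∧ Measurable T₃ ∧
          (measOfDensity ρ).map T₂ = measOfDensity ρ ∧ (measOfDensity ρ).map T₃ = measOfDensity ρ ∧
          ∫⁻ x, tripleCost s (x, T₂ x, T₃ x) ∂(measOfDensity ρ) <
            ∫⁻ p, tripleCost s p ∂π₀ + ε) := by
  classical
  have : SecondCountableTopology E := by
    have := FiniteDimensional.proper ℝ E
    infer_instance
  have : StandardBorelSpace E := by
    have := FiniteDimensional.complete ℝ E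
    infer_instance
  obtain ⟨Φ, V, hΦid, hΦ0, cΦ, dΦ, cV, hPP, hC, L, hL⟩ := exists_package hs h1 h2 h12
  choose Φ' hΦ' using dΦ
  choose r₀ hr₀ hinj hcont hpush using fun i => exists_push (Φ i) (cΦ i) (Φ' i) (hΦ' i)
  -- all the local conditions
  have ev1 : ∀ᶠ p : E × E × E in 𝓝 0, ∀ i j k, QQ s Φ V i j k p.1 p.2.1 p.2.2 := by
    rw [Filter.eventually_all]; intro i
    rw [Filter.eventually_all]; intro j
    rw [Filter.eventually_all]; intro k
    exact hPP i j k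
  have ev2 : ∀ᶠ a in 𝓝 (0 : E), ∀ i, ContinuousAt (V i) a := by
    rw [Filter.eventually_all]; intro i
    filter_upwards [(cV i).eventually (by simp)] with a ha using ha.continuousAt
  have ev3 : ∃ C : ℝ, 0 < C ∧ ∀ᶠ a in 𝓝 (0 : E), ∀ i, |V i a| < C := by
    have : ∀ i, ∃ C : ℝ, ∀ᶠ a in 𝓝 (0 : E), |V i a| < C := by
      intro i
      refine ⟨|V i 0| + 1, ?_⟩
      exact ((cV i).continuousAt.abs).eventually_lt continuousAt_const (by linarith)
    choose C hC using this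
    refine ⟨1 + ∑ i, |C i|, by positivity, ?_⟩
    rw [Filter.eventually_all]; intro i
    filter_upwards [hC i] with a ha
    have h1 : |C i| ≤ ∑ i, |C i| :=
      Finset.single_le_sum (f := fun i => |C i|) (fun j _ => abs_nonneg _) (Finset.mem_univ i)
    have h2 := le_abs_self (C i)
    linarith
  obtain ⟨C, hC0, hCV⟩ := ev3
  have ev4 : ∀ᶠ a in 𝓝 (0 : E), ∀ i, Φ i a ∈ Metric.ball (ctr e₁ e₂ i) (1 / 2) := by
    rw [Filter.eventually_all]; intro i
    refine (cΦ i).continuousAt.eventually ?_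
    rw [hΦ0 i]
    exact Metric.ball_mem_nhds _ (by norm_num)
  have ev5 : ∀ᶠ a in 𝓝 (0 : E), ∀ i, a ∈ Metric.ball (0 : E) (r₀ i) := by
    rw [Filter.eventually_all]; intro i
    exact Metric.ball_mem_nhds _ (hr₀ i)
  obtain ⟨r₁, hr₁, B1⟩ := Metric.eventually_nhds_iff_ball.1 ev1
  obtain ⟨r₂, hr₂, B2⟩ := Metric.eventually_nhds_iff_ball.1
    (ev2.and (hCV.and (ev4.and (ev5.and hC))))
  obtain ⟨r₃, hr₃, B3⟩ := Metric.eventually_nhds_iff_ball.1 hL
  obtain ⟨r, hr, hr1, hr2, hr3⟩ : ∃ r > 0, r ≤ r₁ ∧ r ≤ r₂ ∧ r ≤ r₃ :=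
    ⟨min r₁ (min r₂ r₃), by positivity, min_le_left _ _, (min_le_right _ _).trans (min_le_left _ _),
      (min_le_right _ _).trans (min_le_right _ _)⟩
  set A : Set E := Metric.ball (0 : E) r with hA
  have hAm : MeasurableSet A := measurableSet_ball
  have A1 : ∀ a ∈ A, ∀ a' ∈ A, ∀ a'' ∈ A, ∀ i j k, QQ s Φ V i j k a a' a'' := by
    intro a ha a' ha' a'' ha''
    refine B1 (a, a', a'') ?_
    rw [mem_ball_zero_iff, Prod.norm_mk, Prod.norm_mk]
    rw [hA, mem_ball_zero_iff] at ha ha' ha''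
    exact max_lt (ha.trans_le hr1) (max_lt (ha'.trans_le hr1) (ha''.trans_le hr1))
  have A2 := fun a (ha : a ∈ A) => B2 a (Metric.ball_subset_ball hr2 ha)
  have A3 : ∀ a ∈ A, ∀ a' ∈ A, _ := fun a ha a' ha' => B3 (a, a') (by
    rw [mem_ball_zero_iff, Prod.norm_mk]
    rw [hA, mem_ball_zero_iff] at ha ha'
    exact max_lt (ha.trans_le hr3) (ha'.trans_le hr3))
  have A4 : ∀ i, A ⊆ Metric.ball (0 : E) (r₀ i) := fun i a ha => (A2 a ha).2.2.2.1 i
  -- measurable versions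
  let Φm : Fin 5 → E → E := fun i => A.piecewise (Φ i) (fun _ => 0)
  let Vm : Fin 5 → E → ℝ := fun i => A.piecewise (V i) (fun _ => 0)
  have hΦm : ∀ i, Measurable (Φm i) := fun i =>
    ((hcont i).mono (A4 i)).measurable_piecewise continuousOn_const hAm
  have hVm : ∀ i, Measurable (Vm i) := fun i =>
    ContinuousOn.measurable_piecewise (fun a ha => ((A2 a ha).1 i).continuousWithinAt)
      continuousOn_const hAm
  have hΦmA : ∀ i, ∀ a ∈ A, Φm i a = Φ i a := fun i a ha => piecewise_eq_of_mem _ _ _ ha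
  have hVmA : ∀ i, ∀ a ∈ A, Vm i a = V i a := fun i a ha => piecewise_eq_of_mem _ _ _ ha
  -- the joint injection
  have hAst : StandardBorelSpace A := hAm.standardBorel
  let F : Fin 5 × A → E := fun q => Φm q.1 q.2
  have hF : Measurable F :=
    measurable_from_prod_countable_right fun i => (hΦm i).comp measurable_subtype_coe
  have hFinj : Function.Injective F := by
    rintro ⟨i, a, ha⟩ ⟨j, a', ha'⟩ h
    simp only [F] at h
    rw [hΦmA i a ha, hΦmA j a' ha'] at h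
    have hij : i = j := by
      by_contra hne
      have d1 := (A2 a ha).2.2.1 i
      have d2 := (A2 a' ha').2.2.1 j
      rw [Metric.mem_ball, dist_comm] at d1
      rw [← h, Metric.mem_ball] at d2
      have d3 := ctr_dist h1 h2 h12 i j hne
      have d4 := dist_triangle (ctr e₁ e₂ i) (Φ i a) (ctr e₁ e₂ j)
      linarith
    subst hij
    have := hinj i (A4 i ha) (A4 i ha') h
    subst this
    rfl
  have hFe : MeasurableEmbedding F := hF.measurableEmbedding hFinj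
  let G : Fin 5 × A → Fin 5 × E := fun q => (q.1, (q.2 : E))
  have hG : Measurable G := by
    refine Measurable.prodMk measurable_fst (measurable_subtype_coe.comp measurable_snd)
  obtain ⟨G', hG', hGF⟩ := hFe.exists_measurable_extend hG fun _ => ⟨(0, 0)⟩
  let l : E → Fin 5 := fun x => (G' x).1
  let ψ : E → E := fun x => (G' x).2
  have hl : Measurable l := measurable_fst.comp hG'
  have hψ : Measurable ψ := measurable_snd.comp hG'
  have hGΦ : ∀ i, ∀ a ∈ A, G' (Φm i a) = (i, a) := by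
    intro i a ha
    exact congrFun hGF (i, ⟨a, ha⟩)
  have hlΦ : ∀ i, ∀ a ∈ A, l (Φm i a) = i := fun i a ha => by simp only [l, hGΦ i a ha]
  have hψΦ : ∀ i, ∀ a ∈ A, ψ (Φm i a) = a := fun i a ha => by simp only [ψ, hGΦ i a ha]
  have hΦm0 : ∀ a ∈ A, Φm 0 a = a := by
    intro a ha
    rw [hΦmA 0 a ha, hΦid]; rfl
  let S : Set E := range F
  have hS : MeasurableSet S := hFe.measurableSet_range
  have hSmem : ∀ i, ∀ a ∈ A, Φm i a ∈ S := fun i a ha => ⟨(i, ⟨a, ha⟩), rfl⟩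
  have hSmem' : ∀ x ∈ S, ∃ i, ∃ a ∈ A, x = Φm i a := by
    rintro _ ⟨⟨i, a, ha⟩, rfl⟩
    exact ⟨i, a, ha, rfl⟩
  -- the potential
  let U : E → ℝ≥0∞ := fun x => ENNReal.ofReal (min (Vm (l x) (ψ x) + C) (2 * C))
  have hU : Measurable U := by
    have hV2 : Measurable fun q : Fin 5 × E => Vm q.1 q.2 :=
      measurable_from_prod_countable_right hVm
    have : Measurable fun x => Vm (l x) (ψ x) := hV2.comp (hl.prodMk hψ)
    exact ((this.add_const C).min measurable_const).ennreal_ofReal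
  have hUΦ : ∀ i, ∀ a ∈ A, U (Φm i a) = ENNReal.ofReal (V i a + C) := by
    intro i a ha
    simp only [U, hlΦ i a ha, hψΦ i a ha, hVmA i a ha]
    congr 1
    have := abs_lt.1 ((A2 a ha).2.1 i)
    exact min_eq_left (by linarith)
  have hVC : ∀ i, ∀ a ∈ A, 0 ≤ V i a + C := by
    intro i a ha
    have := abs_lt.1 ((A2 a ha).2.1 i)
    linarith
  have hUsum : ∀ i j k, ∀ a ∈ A, ∀ a' ∈ A, ∀ a'' ∈ A,
      U (Φm i a) + U (Φm j a') + U (Φm k a'') =
        ENNReal.ofReal (V i a + V j a' + V k a'' + 3 * C) := by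
    intro i j k a ha a' ha' a'' ha''
    rw [hUΦ i a ha, hUΦ j a' ha', hUΦ k a'' ha'', ← ENNReal.ofReal_add (hVC i a ha) (hVC j a' ha'),
      ← ENNReal.ofReal_add (add_nonneg (hVC i a ha) (hVC j a' ha')) (hVC k a'' ha'')]
    congr 1
    ring
  set M : ℝ≥0∞ := ENNReal.ofReal (3 * C) with hM
  have hMtop : M ≠ ⊤ := ENNReal.ofReal_ne_top
  have hC3 : 0 ≤ 3 * C := by positivity
  -- the bump and the central measure
  obtain ⟨η, hη, hη0, hηc, hηs, hηi⟩ := exists_bump (E := E) hr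
  set α : Measure E := measOfDensity (fun x => η x ^ 2) with hα
  have hηm : Measurable η := hη.continuous.measurable
  have hαuniv : α univ = 3⁻¹ := by
    rw [hα, measOfDensity, withDensity_apply _ MeasurableSet.univ, Measure.restrict_univ]
    exact hηi
  have hαA : ∀ᵐ a ∂α, a ∈ A := by
    rw [hα, measOfDensity, ae_withDensity_iff (hηm.pow_const 2).ennreal_ofReal]
    refine Eventually.of_forall fun x hx => ?_
    apply hηs
    apply subset_tsupport η
    intro h0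
    apply hx
    simp [h0]
  have hαns : NullSingletonClass α := by
    refine ⟨fun x => ?_⟩
    exact (withDensity_absolutelyContinuous _ _) (measure_singleton x)
  -- the other densities
  let ηh : E → ℝ := fun x => (√2)⁻¹ * η x
  have hηh : ContDiff ℝ ∞ ηh := contDiff_const.mul hη
  have hηh0 : ∀ x, 0 ≤ ηh x := fun x => mul_nonneg (by positivity) (hη0 x)
  have hηhc : HasCompactSupport ηh := hηc.mul_left
  have hηhs : tsupport ηh ⊆ A := (tsupport_mul_subset_right).trans hηs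
  choose ζ hζ hζ0 hζc hζs hζm using fun i =>
    hpush i ηh hηh hηh0 hηhc (hηhs.trans (A4 i))
  have hζm' : ∀ i, (2 : ℝ≥0∞)⁻¹ • (α.map (Φm i)) = measOfDensity (fun x => ζ i x ^ 2) := by
    intro i
    rw [← hζm i (Φm i) (hΦm i) (fun x hx => hΦmA i x (hηhs (subset_tsupport _ hx))),
      measOfDensity_half hηm, Measure.map_smul]
  let Z : Fin 5 → E → ℝ := ![η, ζ 1, ζ 2, ζ 3, ζ 4]
  have hZ : ∀ i, ContDiff ℝ ∞ (Z i) := by
    intro i; fin_cases i
    · exact hη
    · exact hζ 1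
    · exact hζ 2
    · exact hζ 3
    · exact hζ 4
  have hZ0 : ∀ i x, 0 ≤ Z i x := by
    intro i; fin_cases i
    · exact hη0
    · exact hζ0 1
    · exact hζ0 2
    · exact hζ0 3
    · exact hζ0 4
  have hZc : ∀ i, HasCompactSupport (Z i) := by
    intro i; fin_cases i
    · exact hηc
    · exact hζc 1
    · exact hζc 2
    · exact hζc 3
    · exact hζc 4
  have hZsupp : ∀ i x, Z i x ≠ 0 → ∃ a ∈ A, x = Φ i a := by
    intro i x hx
    have hgen : ∀ i, ζ i x ≠ 0 → ∃ a ∈ A, x = Φ i a := by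
      intro i hx
      obtain ⟨a, ha, rfl⟩ := hζs i hx
      exact ⟨a, hηhs (subset_tsupport _ ha), rfl⟩
    fin_cases i
    · refine ⟨x, hηs (subset_tsupport η hx), ?_⟩
      change x = Φ 0 x
      rw [hΦid]; rfl
    · exact hgen 1 hx
    · exact hgen 2 hx
    · exact hgen 3 hx
    · exact hgen 4 hx
  have hZd : ∀ i j, i ≠ j → ∀ x, Z i x ≠ 0 → Z j x = 0 := by
    intro i j hij x hx
    by_contra hx'
    obtain ⟨a, ha, rfl⟩ := hZsupp i x hx
    obtain ⟨a', ha', h⟩ := hZsupp j _ hx'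
    have d1 := (A2 a ha).2.2.1 i
    have d2 := (A2 a' ha').2.2.1 j
    rw [Metric.mem_ball, dist_comm] at d1
    rw [← h, Metric.mem_ball] at d2
    have d3 := ctr_dist h1 h2 h12 i j hij
    have d4 := dist_triangle (ctr e₁ e₂ i) (Φ i a) (ctr e₁ e₂ j)
    linarith
  let ρ : E → ℝ := fun x => ∑ i, Z i x ^ 2
  have hρ0 : ∀ x, 0 ≤ ρ x := fun x => Finset.sum_nonneg fun i _ => sq_nonneg _
  have hρs : ContDiff ℝ ∞ ρ := ContDiff.sum fun i _ => (hZ i).pow 2
  have hρsqrt : (fun x => √(ρ x)) = fun x => ∑ i, Z i x := by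
    funext x
    exact sqrt_sum_sq Z hZ0 hZd x
  have hρc : HasCompactSupport ρ := by
    have hK : IsCompact (⋃ i, tsupport (Z i)) := isCompact_iUnion fun i => hZc i
    refine HasCompactSupport.intro hK fun x hx => ?_
    simp only [ρ]
    refine Finset.sum_eq_zero fun i _ => ?_
    have : Z i x = 0 := by
      by_contra h
      exact hx (mem_iUnion.2 ⟨i, subset_tsupport _ h⟩)
    rw [this]; norm_num
  have hmarg : marg α (Φm 1) (Φm 2) (Φm 3) (Φm 4) = measOfDensity ρ := by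
    have e1 : ρ = fun x => (((η x ^ 2 + ζ 1 x ^ 2) + ζ 2 x ^ 2) + ζ 3 x ^ 2) + ζ 4 x ^ 2 := by
      funext x
      simp only [ρ, Fin.sum_univ_five]
      rfl
    have m0 : Measurable fun x => η x ^ 2 := hηm.pow_const 2
    have mi : ∀ i, Measurable fun x => ζ i x ^ 2 := fun i =>
      (hζ i).continuous.measurable.pow_const 2
    rw [e1, measOfDensity_add (f := fun x => ((η x ^ 2 + ζ 1 x ^ 2) + ζ 2 x ^ 2) + ζ 3 x ^ 2)
      (g := fun x => ζ 4 x ^ 2) (((m0.add (mi 1)).add (mi 2)).add (mi 3))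
      (fun x => by positivity) (fun x => by positivity),
      measOfDensity_add (f := fun x => (η x ^ 2 + ζ 1 x ^ 2) + ζ 2 x ^ 2)
      (g := fun x => ζ 3 x ^ 2) ((m0.add (mi 1)).add (mi 2))
      (fun x => by positivity) (fun x => by positivity),
      measOfDensity_add (f := fun x => η x ^ 2 + ζ 1 x ^ 2)
      (g := fun x => ζ 2 x ^ 2) (m0.add (mi 1))
      (fun x => by positivity) (fun x => by positivity),
      measOfDensity_add (f := fun x => η x ^ 2)
      (g := fun x => ζ 1 x ^ 2) m0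
      (fun x => by positivity) (fun x => by positivity), ← hζm' 1, ← hζm' 2, ← hζm' 3, ← hζm' 4,
      ← hα, marg]
    simp only [smul_add, add_assoc]
  have hmass : measOfDensity ρ univ = 1 := by
    rw [← hmarg]
    exact marg_univ α hαuniv (hΦm 1) (hΦm 2) (hΦm 3) (hΦm 4)
  have hint : ∫ x, ρ x = 1 := by
    rw [integral_eq_lintegral_of_nonneg_ae (Eventually.of_forall hρ0)
      hρs.continuous.aestronglyMeasurable]
    have : ∫⁻ x, ENNReal.ofReal (ρ x) = 1 := by
      rw [← hmass, measOfDensity, withDensity_apply _ MeasurableSet.univ, Measure.restrict_univ]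
    rw [this]
    rfl
  refine ⟨ρ, hρ0, hρs, hρc, ?_, hint, plan α (Φm 1) (Φm 2) (Φm 3) (Φm 4), ?_⟩
  · rw [hρsqrt]
    exact ContDiff.sum fun i _ => hZ i
  rw [← hmarg]
  -- contact equalities
  have hcontactA : ∀ a ∈ A,
      tripleCost s (a, Φm 1 a, Φm 2 a) + M = U a + U (Φm 1 a) + U (Φm 2 a) ∧
      tripleCost s (a, Φm 3 a, Φm 4 a) + M = U a + U (Φm 3 a) + U (Φm 4 a) := by
    intro a ha
    have hc := (A2 a ha).2.2.2.2
    have e0 : Φ 0 a = a := by rw [hΦid]; rfl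
    rw [e0] at hc
    have u1 := hUsum 0 1 2 a ha a ha a ha
    have u2 := hUsum 0 3 4 a ha a ha a ha
    rw [hΦm0 a ha] at u1 u2
    rw [u1, u2, hΦmA 1 a ha, hΦmA 2 a ha, hΦmA 3 a ha, hΦmA 4 a ha, hc.1, hc.2]
    have p1 := tripleCost_pos hs (a, Φ 1 a, Φ 2 a)
    have p2 := tripleCost_pos hs (a, Φ 3 a, Φ 4 a)
    rw [hc.1, ENNReal.ofReal_pos] at p1
    rw [hc.2, ENNReal.ofReal_pos] at p2
    exact ⟨(ENNReal.ofReal_add p1.le hC3).symm, (ENNReal.ofReal_add p2.le hC3).symm⟩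
  have hrot : ∀ x y z : E, tripleCost s (y, z, x) = tripleCost s (x, y, z) := by
    intro x y z
    rw [tripleCost_swap₂, tripleCost_swap₁]
  refine transport_main α hαuniv A hαA (Φm 1) (Φm 2) (Φm 3) (Φm 4) (hΦm 1) (hΦm 2) (hΦm 3)
    (hΦm 4) ψ hψ l hl S hS ?_ (hSmem 1) (hSmem 2) (hSmem 3) (hSmem 4) ?_ (hψΦ 1) (hψΦ 2) (hψΦ 3)
    (hψΦ 4) ?_ (hlΦ 1) (hlΦ 2) (hlΦ 3) (hlΦ 4) (tripleCost s)
    (tripleCost_continuous s).measurable U hU M hMtop (ENNReal.ofReal (2 * C))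
    ENNReal.ofReal_ne_top (fun x => ENNReal.ofReal_le_ofReal (min_le_right _ _)) ?_ ?_
    (fun a ha => (hcontactA a ha).1) ?_ ?_ (fun a ha => (hcontactA a ha).2) ?_ ?_ ?_
  · intro a ha
    have := hSmem 0 a ha
    rwa [hΦm0 a ha] at this
  · intro a ha
    have := hψΦ 0 a ha
    rwa [hΦm0 a ha] at this
  · intro a ha
    have := hlΦ 0 a ha
    rwa [hΦm0 a ha] at this
  · intro x hx y hy z hz
    obtain ⟨i, a, ha, rfl⟩ := hSmem' x hx
    obtain ⟨j, a', ha', rfl⟩ := hSmem' y hy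
    obtain ⟨k, a'', ha'', rfl⟩ := hSmem' z hz
    rw [hUsum i j k a ha a' ha' a'' ha'']
    refine (ENNReal.ofReal_add_le).trans ?_
    rw [hΦmA i a ha, hΦmA j a' ha', hΦmA k a'' ha'']
    exact add_le_add_left (A1 a ha a' ha' a'' ha'' i j k).1 _
  · intro x hx y hy z hz heq
    obtain ⟨i, a, ha, rfl⟩ := hSmem' x hx
    obtain ⟨j, a', ha', rfl⟩ := hSmem' y hy
    obtain ⟨k, a'', ha'', rfl⟩ := hSmem' z hz
    rw [hUsum i j k a ha a' ha' a'' ha''] at heq
    have hQ := A1 a ha a' ha' a'' ha'' i j k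
    rw [hΦmA i a ha, hΦmA j a' ha', hΦmA k a'' ha''] at heq
    have h3 : tripleCost s (Φ i a, Φ j a', Φ k a'') + M ≤
        ENNReal.ofReal (V i a + V j a' + V k a'') + M := by
      rw [← heq]; exact ENNReal.ofReal_add_le
    have h4 := (ENNReal.add_le_add_iff_right hMtop).1 h3
    obtain ⟨z1, z2, z3⟩ := hQ.2 (le_antisymm hQ.1 h4)
    rw [hψΦ i a ha, hψΦ j a' ha', hψΦ k a'' ha'', hlΦ i a ha, hlΦ j a' ha', hlΦ k a'' ha'']
    exact ⟨z1, z2, good_of_goodB z3⟩
  · intro a ha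
    rw [hrot]; exact (hcontactA a ha).1
  · intro a ha
    rw [← hrot]; exact (hcontactA a ha).1
  · intro a ha
    rw [hrot]; exact (hcontactA a ha).2
  · intro a ha
    rw [← hrot]; exact (hcontactA a ha).2
  · intro ε hε
    obtain ⟨ε', hε', hε'ε⟩ : ∃ ε' : ℝ, 0 < ε' ∧ ENNReal.ofReal ε' ≤ ε := by
      by_cases htop : ε = ⊤
      · exact ⟨1, one_pos, by rw [htop]; exact le_top⟩
      · exact ⟨ε.toReal, ENNReal.toReal_pos hε.ne' htop, (ENNReal.ofReal_toReal htop).le⟩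
    refine ⟨ε' / (|L| + 1), by positivity, ?_⟩
    intro a ha a' ha' hd
    have hL' := A3 a ha a' ha'
    simp only [hΦid, id] at hL'
    rw [hΦmA 1 a' ha', hΦmA 2 a' ha', hΦmA 3 a' ha', hΦmA 4 a' ha']
    have hbound : ENNReal.ofReal (L * ‖a - a'‖) ≤ ε := by
      refine le_trans (ENNReal.ofReal_le_ofReal ?_) hε'ε
      rw [dist_eq_norm, norm_sub_rev] at hd
      have h5 : L * ‖a - a'‖ ≤ |L| * ‖a - a'‖ :=
        mul_le_mul_of_nonneg_right (le_abs_self L) (norm_nonneg _)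
      have h6 : (|L| + 1) * ‖a - a'‖ ≤ ε' := by
        rw [lt_div_iff₀ (by positivity)] at hd
        linarith
      have h7 : 0 ≤ ‖a - a'‖ := norm_nonneg _
      linarith
    exact ⟨hL'.1.trans (add_le_add_right hbound _), hL'.2.trans (add_le_add_right hbound _)⟩

end Final

end Crest.Agent.S0175Aux
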